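import Vale.Agent.P223.H566.Spec
import Mathlib.MeasureTheory.Function.L2Space
import Mathlib.MeasureTheory.Function.LpOrder

/-! Stage 2 : block statements.  `‖M‖ ≤ C(n) y^(-n/2) κ^(n/2) Vol(M)` if `Scal ≥ -κ` and the
Yamabe inequality with constant `y` holds on `X`. -/

namespace Vale.Agent.P223.H66

open scoped ContDiff InnerProductSpace ENNReal
open MeasureTheory Vale.Agent.P223.H Vale.Agent.P223.X Vale.Agent.P223.H566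

section
variable {n : ℕ} {M X Γ I : Type} [TopologicalSpace M] [TopologicalSpace X] [Group Γ]
    [MulAction Γ X]

/-- smooth functions with compact support -/
def Cc (C : Cov n M X Γ I) (f : X → ℝ) : Prop := C.Ck ∞ f ∧ HasCompactSupport f

/-- scalar curvature as a function on `X` -/
noncomputable def scX (C : Cov n M X Γ I) (G : I → E n → Matrix (Fin n) (Fin n) ℝ) (x : X) : ℝ :=
  Vale.Agent.P223.H.scal (G (C.pi x)) (C.py x)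

/-- the form of `Δ + Scal / 4 + l` -/
noncomputable def fm [MeasurableSpace X] (C : Cov n M X Γ I)
    (G : I → E n → Matrix (Fin n) (Fin n) ℝ) (μ : Measure X) (l : ℝ) (f : X → ℝ) : ℝ :=
  ∫ x, (gsX C G f x + (scX C G x / 4 + l) * f x ^ 2) ∂μ

/-- `Scal ≥ -κ` -/
def ScGe (G : I → E n → Matrix (Fin n) (Fin n) ℝ) (κ : ℝ) : Prop :=
  ∀ i y, -κ ≤ Vale.Agent.P223.H.scal (G i) y

/-- The Yamabe inequality on `X` with constant `a`. -/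
def YamX [MeasurableSpace X] (C : Cov n M X Γ I) (G : I → E n → Matrix (Fin n) (Fin n) ℝ)
    (μ : Measure X) (a : ℝ) : Prop :=
  ∀ f, Cc C f → a * (∫ x, |f x| ^ (2 * (n : ℝ) / (n - 2)) ∂μ) ^ (((n : ℝ) - 2) / n) ≤
    ∫ x, (gsX C G f x + ((n : ℝ) - 2) / (4 * (n - 1)) * scX C G x * f x ^ 2) ∂μ

/-- the volume of `M` -/
noncomputable def Vl [Fintype I] (G : I → E n → Matrix (Fin n) (Fin n) ℝ) (χ : I → E n → ℝ) : ℝ :=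
  ∑ i, ∫ y, χ i y * Vale.Agent.P223.H.dens (G i) y

/-- Equivariant maps from `X` to the unit sphere of `ℓ²(Γ × ι)`. -/
structure SqX (C : Cov n M X Γ I) (ι : Type) [Fintype ι] where
  f : ι → X → ℝ
  smooth : ∀ i, C.Ck ∞ (f i)
  supp : ∀ i, HasCompactSupport (f i)
  sum : ∀ x, ∑ i, ∑ᶠ γ : Γ, f i (γ⁻¹ • x) ^ 2 = 1

/-- energy density -/
noncomputable def SqX.q {C : Cov n M X Γ I} {ι : Type} [Fintype ι] (S : SqX C ι)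
    (G : I → E n → Matrix (Fin n) (Fin n) ℝ) (x : X) : ℝ :=
  ∑ i, ∑ᶠ γ : Γ, gsX C G (S.f i) (γ⁻¹ • x)

/-! ## scalar operators -/

/-- Scalar resolvents on `L²(X)`: `T l = (Δ + Scal/4 + l)⁻¹`, `l > k` (`k = κ/4`). -/
structure ScR [MeasurableSpace X] (C : Cov n M X Γ I) (G : I → E n → Matrix (Fin n) (Fin n) ℝ)
    (μ : Measure X) (k : ℝ) (T : ℝ → Lp ℝ 2 μ →L[ℝ] Lp ℝ 2 μ) : Prop where
  nn : ∀ l, k < l → ∀ f, 0 ≤ f → 0 ≤ T l f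
  res : ∀ l l', k < l → k < l' → T l = T l' + (l' - l) • (T l' * T l)
  sym : ∀ l, k < l → ∀ f h : Lp ℝ 2 μ, ⟪T l f, h⟫_ℝ = ⟪f, T l h⟫_ℝ
  sup : ∀ l, k < l → ∀ (f : Lp ℝ 2 μ) (b : ℝ), 0 ≤ b → (∀ᵐ x ∂μ, f x ≤ b) →
    ∀ᵐ x ∂μ, T l f x ≤ b / (l - k)
  /-- comparison with subsolutions -/
  cmp : ∀ l, k < l → ∀ (u : X → ℝ) (f : Lp ℝ 2 μ), Cc C u →
    (∀ᵐ x ∂μ, -lapX C G u x + (scX C G x / 4 + l) * u x ≤ f x) → ∀ᵐ x ∂μ, u x ≤ T l f x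
  /-- energy estimates: lower semicontinuous functionals bounded by the form -/
  en : ∀ (l₀ : ℝ) (N : Lp ℝ 2 μ → ℝ≥0∞), LowerSemicontinuous N →
    (∀ (f : X → ℝ) (f' : Lp ℝ 2 μ), Cc C f → f' =ᵐ[μ] f → N f' ≤ ENNReal.ofReal (fm C G μ l₀ f)) →
    ∀ l, k < l → l₀ ≤ l → ∀ f, N (T l f) + ENNReal.ofReal ((l - l₀) * ‖T l f‖ ^ 2) ≤
      ENNReal.ofReal ⟪f, T l f⟫_ℝ

end

/-- BLOCK B1 (Friedrichs extension of `Δ + Scal/4 + l` on smooth functions with compact support) -/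
def SpecScR : Prop := ∀ (n : ℕ) (M X Γ I : Type) [TopologicalSpace M] [TopologicalSpace X]
  [Group Γ] [MulAction Γ X] [Fintype I] [T2Space X] [ConnectedSpace X] [T2Space M]
  [MeasurableSpace X] [BorelSpace X] (C : Cov n M X Γ I)
  (G : I → E n → Matrix (Fin n) (Fin n) ℝ) (μ : Measure X) (κ : ℝ), 1 ≤ n → MetX C G →
  VolX C G μ → 0 ≤ κ → ScGe G κ → ∃ T : ℝ → Lp ℝ 2 μ →L[ℝ] Lp ℝ 2 μ, ScR C G μ (κ / 4) T

section
variable {n : ℕ} {M X Γ I : Type} [TopologicalSpace M] [TopologicalSpace X] [Group Γ]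
    [MulAction Γ X] {V : Type} [NormedAddCommGroup V] [InnerProductSpace ℂ V]
    {C : Cov n M X Γ I} {G : I → E n → Matrix (Fin n) (Fin n) ℝ} {K : Cliff n V}
    [MeasurableSpace X] {S : SpX C G K} {μ : Measure X} {H : Type} [NormedAddCommGroup H]
    [InnerProductSpace ℂ H]

/-- the pointwise norm as a map `H → L²(μ)` -/
structure AbsH (E : Emb S μ H) (A : H → Lp ℝ 2 μ) : Prop where
  core : ∀ φ : Core S, A (E.e φ) =ᵐ[μ] nm C (φ : Raw Γ I n V)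
  lip : ∀ u v, ‖A u - A v‖ ≤ ‖u - v‖
  norm : ∀ u, ‖A u‖ = ‖u‖
  nn : ∀ u, 0 ≤ A u
  add : ∀ u v, A (u + v) ≤ A u + A v
  smul : ∀ (z : ℂ) u, A (z • u) = ‖z‖ • A u
  ip : ∀ u v, ‖⟪u, v⟫_ℂ‖ ≤ ⟪A u, A v⟫_ℝ

/-- `B` is dominated by `T`. -/
def Dm (A : H → Lp ℝ 2 μ) (B : H →L[ℂ] H) (T : Lp ℝ 2 μ →L[ℝ] Lp ℝ 2 μ) : Prop :=
  ∀ u, A (B u) ≤ T (A u)

/-- The family `B` is dominated by `T`. -/
def FDm {L : Type} (A : H → Lp ℝ 2 μ) (B : L → H →L[ℂ] H) (T : Lp ℝ 2 μ →L[ℝ] Lp ℝ 2 μ) : Prop :=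
  ∀ (F : Finset L) u, ∑ l ∈ F, A (B l u) ≤ T (A u)

end

/-- BLOCK B2 : domination. In (3) the operator `Q` is multiplication by `√q`. -/
def SpecDm : Prop := ∀ (n : ℕ) (M X Γ I V H : Type) [TopologicalSpace M] [TopologicalSpace X]
  [Group Γ] [MulAction Γ X] [Fintype I] [T2Space X] [ConnectedSpace X] [T2Space M]
  [MeasurableSpace X] [BorelSpace X] [NormedAddCommGroup V] [InnerProductSpace ℂ V]
  [FiniteDimensional ℂ V] [NormedAddCommGroup H] [InnerProductSpace ℂ H] [CompleteSpace H]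
  (c : Ctx n M X Γ I V H) (k : ℝ) (T : ℝ → Lp ℝ 2 c.μ →L[ℝ] Lp ℝ 2 c.μ), 1 ≤ n →
  ScR c.C c.G c.μ k T → ∃ A : H → Lp ℝ 2 c.μ, AbsH c.E A ∧
  -- (1) resolvents
  (∀ (m : ℝ) (g p : H →L[ℂ] H), 0 < m → k < m ^ 2 → Rsv c.E m g p → Dm A g (T (m ^ 2))) ∧
  -- (2), (3) the operators of a partition of unity `f_i²`
  ∀ (ι : Type) [Fintype ι] (Φ : SqX c.C ι) (P : PUX c.C ι) (a h : Γ × ι → H →L[ℂ] H)
    (W : H →L[ℂ] H), (∀ i x, P.φ i x = Φ.f i x ^ 2) → OpA c.E P a h W →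
    (∀ u, A (W u) = A u) ∧ FDm A a 1 ∧
    ∃ Q : Lp ℝ 2 c.μ →L[ℝ] Lp ℝ 2 c.μ, (∀ f : Lp ℝ 2 c.μ, Q f =ᵐ[c.μ] fun x => √(Φ.q c.G x) * f x) ∧
      FDm A h ((2 : ℝ) • Q)

/-- BLOCK B3 : Nash inequality. `T` satisfies `y |T f|²_(2n/(n-2)) + (l - l₀) |T f|² ≤ ⟨f, T f⟩`
and the maximum principle; `z ≤ l - l₀`, `z ≤ l - k`. The constant depends only on `n`. -/
def SpecNash : Prop := ∀ n : ℕ, 3 ≤ n → ∃ K : ℝ, 0 < K ∧ ∀ (X : Type) [MeasurableSpace X]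
  (μ : Measure X) [SigmaFinite μ] (T : Lp ℝ 2 μ →L[ℝ] Lp ℝ 2 μ) (z y : ℝ), 0 < z → 0 < y →
  (∀ f, 0 ≤ f → 0 ≤ T f) → (∀ f h : Lp ℝ 2 μ, ⟪T f, h⟫_ℝ = ⟪f, T h⟫_ℝ) →
  (∀ (f : Lp ℝ 2 μ) (b : ℝ), 0 ≤ b → (∀ᵐ x ∂μ, f x ≤ b) → ∀ᵐ x ∂μ, T f x ≤ b / z) →
  (∀ f : Lp ℝ 2 μ, ENNReal.ofReal y *
      eLpNorm (T f) (ENNReal.ofReal (2 * (n : ℝ) / (n - 2))) μ ^ 2 +
      ENNReal.ofReal (z * ‖T f‖ ^ 2) ≤ ENNReal.ofReal ⟪f, T f⟫_ℝ) →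
  ∀ j : ℕ, 1 ≤ j → ∀ f : Lp ℝ 2 μ, Integrable f μ →
    ‖((z • T) ^ j) f‖ ≤ K * (z / (y * j)) ^ ((n : ℝ) / 4) * ∫ x, |f x| ∂μ

/-- BLOCK B4 : trace bound. `kχ` is multiplication by `χ₀`. -/
def SpecTrB : Prop := ∀ (n : ℕ) (M X Γ I V H : Type) [TopologicalSpace M] [TopologicalSpace X]
  [Group Γ] [MulAction Γ X] [Fintype I] [T2Space X] [ConnectedSpace X] [T2Space M]
  [MeasurableSpace X] [BorelSpace X] [NormedAddCommGroup V] [InnerProductSpace ℂ V]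
  [FiniteDimensional ℂ V] [NormedAddCommGroup H] [InnerProductSpace ℂ H] [CompleteSpace H]
  (c : Ctx n M X Γ I V H) (χ₀ : X → ℝ) (hχ : c.C.Ck ∞ χ₀) (T kχ : H →L[ℂ] H) (b β : ℝ), 1 ≤ n →
  HasCompactSupport χ₀ → (∀ x, 0 ≤ χ₀ x) → (∀ φ, kχ (c.E.e φ) = c.E.e (c.S.mC χ₀ hχ φ)) →
  Nuc T b → 0 ≤ β →
  (∀ φ ψ : Core c.S, ‖⟪c.E.e φ, T (c.E.e ψ)⟫_ℂ‖ ≤
    β * (∫ x, nm c.C (φ : Raw Γ I n V) x ∂c.μ) * ∫ x, nm c.C (ψ : Raw Γ I n V) x ∂c.μ) →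
  ‖trH (T * kχ)‖ ≤ Module.finrank ℂ V * β * ∫ x, χ₀ x ∂c.μ

/-- BLOCK B5 : bound for a window of Taylor coefficients. `N` is a bound for
`(z T)^J : L¹ → L²`. -/
def SpecWin : Prop := ∀ (n : ℕ) (M X Γ I V H : Type) [TopologicalSpace M] [TopologicalSpace X]
  [Group Γ] [MulAction Γ X] [Fintype I] [T2Space X] [ConnectedSpace X] [T2Space M]
  [MeasurableSpace X] [BorelSpace X] [NormedAddCommGroup V] [InnerProductSpace ℂ V]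
  [FiniteDimensional ℂ V] [NormedAddCommGroup H] [InnerProductSpace ℂ H] [CompleteSpace H]
  (c : Ctx n M X Γ I V H) (ι : Type) [Fintype ι] (Φ : SqX c.C ι) (P : PUX c.C ι)
  (a h : Γ × ι → H →L[ℂ] H) (W : H →L[ℂ] H) (χ : I → E n → ℝ) (F : (Fin (n + 1) → Γ) → ℝ)
  (k ε : ℝ) (T : ℝ → Lp ℝ 2 c.μ →L[ℝ] Lp ℝ 2 c.μ), 1 ≤ n → 0 ≤ k → 0 < ε →
  (∀ i x, P.φ i x = Φ.f i x ^ 2) → OpA c.E P a h W → Part c.C χ → Coc F → ScR c.C c.G c.μ k T →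
  -- `q ≤ Δ + ε` and `Scal / 4 ≥ -k`
  (∀ f, Cc c.C f → ∫ x, Φ.q c.G x * f x ^ 2 ∂c.μ ≤ ∫ x, (gsX c.C c.G f x + ε * f x ^ 2) ∂c.μ) →
  ScGe c.G (4 * k) →
  ∃ m₀ : ℝ, 0 < m₀ ∧ ∀ (m : ℝ) (g p : H →L[ℂ] H) (l : ℝ), m₀ ≤ m → Rsv c.E m g p →
    k + ε < l → l < m ^ 2 → ∀ (J : ℕ) (N : ℝ), 1 ≤ J → 0 ≤ N →
    (∀ f : Lp ℝ 2 c.μ, Integrable f c.μ → ‖(((m ^ 2 - l) • T (m ^ 2)) ^ J) f‖ ≤ N * ∫ x, |f x| ∂c.μ) →
    ∀ k₀ k₁ : ℕ, (n + 1) * (2 * J) ≤ k₀ →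
      ∑ j ∈ Finset.Ico k₀ k₁, (m ^ 2 - l) ^ j * ‖rK a h W g F j‖ ≤
        (n + 1) * Module.finrank ℂ V * Vl c.G χ * N ^ 2 * (1 / (l - k - ε)) ^ ((n : ℝ) / 2 + 1)

/-- BLOCK B6 : recursion and asymptotics with universal constants. -/
def SpecAsyU : Prop := ∀ (n d : ℕ), 1 ≤ n → 0 < d → ∃ (k₀ : ℕ) (b : ℂ), b ≠ 0 ∧
  ∀ (M X Γ I V H : Type) [TopologicalSpace M] [TopologicalSpace X]
  [Group Γ] [MulAction Γ X] [Fintype I] [T2Space X] [ConnectedSpace X] [T2Space M]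
  [MeasurableSpace X] [BorelSpace X] [NormedAddCommGroup V] [InnerProductSpace ℂ V]
  [FiniteDimensional ℂ V] [NormedAddCommGroup H] [InnerProductSpace ℂ H] [CompleteSpace H]
  (c : Ctx n M X Γ I V H) (ι : Type) [Fintype ι] (P : PUX c.C ι) (a h : Γ × ι → H →L[ℂ] H)
  (W : H →L[ℂ] H) (χ : I → E n → ℝ) (F : (Fin (n + 1) → Γ) → ℝ), Module.finrank ℂ V = d →
  OpA c.E P a h W → Part c.C χ → Coc F →
  ∃ m₀ : ℝ, 0 < m₀ ∧ ∀ (g p : ℝ → H →L[ℂ] H), (∀ m, m₀ ≤ m → Rsv c.E m (g m) (p m)) →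
    (∀ m, m₀ ≤ m → ∀ k, k₀ ≤ k → ((k : ℂ) + 1) * (m : ℂ) ^ 2 * rK a h W (g m) F (k + 1) =
      ((n : ℂ) / 2 + 1 + k) * rK a h W (g m) F k) ∧
    Filter.Tendsto (fun m : ℝ => (m : ℂ) ^ (n + 2 + 2 * k₀) * rK a h W (g m) F k₀) Filter.atTop
      (nhds (b * ((∑ᶠ l ∈ {l : Fin (n + 1) → Γ × ι | (l 0).1 = 1},
        P.wt χ l * F (fun i => (l i).1) : ℝ) : ℂ)))

/-- BLOCK B7 : the pairing is bounded (from B1 - B6, B9, B10). `d` is the dimension of `V`. -/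
def SpecBd : Prop := ∀ (n d : ℕ), 3 ≤ n → 0 < d → ∃ A : ℝ, 0 < A ∧
  ∀ (M X Γ I V : Type) [TopologicalSpace M] [TopologicalSpace X]
  [Group Γ] [MulAction Γ X] [Fintype I] [T2Space X] [ConnectedSpace X] [T2Space M]
  [MeasurableSpace X] [BorelSpace X] [NormedAddCommGroup V] [InnerProductSpace ℂ V]
  [FiniteDimensional ℂ V] (C : Cov n M X Γ I) (G : I → E n → Matrix (Fin n) (Fin n) ℝ)
  (K : Cliff n V) (_ : SpX C G K) (μ : Measure X) (ι : Type) [Fintype ι] (P : PUX C ι)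
  (χ : I → E n → ℝ) (κ y : ℝ) (F : (Fin (n + 1) → Γ) → ℝ), Module.finrank ℂ V = d →
  (∀ i, C.Ck ∞ (P.φ i)) → VolX C G μ → Part C χ → 0 < κ → 0 < y → ScGe G κ → YamX C G μ y →
  Coc F → |∑ᶠ l ∈ {l : Fin (n + 1) → Γ × ι | (l 0).1 = 1}, P.wt χ l * F (fun k => (l k).1)| ≤
    A * (κ / y) ^ ((n : ℝ) / 2) * Vl G χ

/-- BLOCK B8 : topology. -/
def SpecEndB : Prop := ∀ (n : ℕ) (M X Γ I : Type) [TopologicalSpace M] [TopologicalSpace X]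
  [Group Γ] [MulAction Γ X] [Fintype I] [T2Space X] [SimplyConnectedSpace X] [T2Space M]
  (C : Cov n M X Γ I) (χ : I → E n → ℝ), 1 ≤ n → Part C χ → (∃ s : ℕ → X, MT.Dist Γ s) →
  ∀ (ι : Type) [Fintype ι] (P : PUX C ι) (B : ℝ), 0 ≤ B →
  (∀ F : (Fin (n + 1) → Γ) → ℝ, Coc F →
    |∑ᶠ l ∈ {l : Fin (n + 1) → Γ × ι | (l 0).1 = 1}, P.wt χ l * F (fun k => (l k).1)| ≤ B) →
  svX C ≤ ENNReal.ofReal B

/-- BLOCK B9 (helper850) : the minimax map. -/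
def SpecMmx : Prop := ∀ (n : ℕ) (M X Γ I : Type) [TopologicalSpace M] [TopologicalSpace X]
  [Group Γ] [MulAction Γ X] [Fintype I] [T2Space X] [ConnectedSpace X] [T2Space M]
  [MeasurableSpace X] [BorelSpace X] (C : Cov n M X Γ I)
  (G : I → E n → Matrix (Fin n) (Fin n) ℝ) (μ : Measure X) (ε : ℝ), 1 ≤ n → MetX C G →
  VolX C G μ → 0 < ε → ∃ (ι : Type) (_ : Fintype ι) (Φ : SqX C ι), ∀ f, Cc C f →
    ∫ x, Φ.q G x * f x ^ 2 ∂μ ≤ ∫ x, (gsX C G f x + ε * f x ^ 2) ∂μ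

/-! ## conformal geometry -/

/-- BLOCK B10 : conformal metrics with `Scal ≥ -1` and volume at most `∫ (Scal⁻)^(n/2) + δ`. -/
def SpecCf : Prop := ∀ (n : ℕ) (M : Type) [TopologicalSpace M] [CompactSpace M] [T2Space M]
  [ConnectedSpace M] [MeasurableSpace M] [BorelSpace M] (c : M → J.Ch n M) (g : M → J.Mtx n)
  (μ : Measure M) (δ : ℝ≥0∞), 3 ≤ n → J.Atl c → J.Met c g → J.Vol c g μ → 0 < δ →
  ∃ (f : M → ℝ) (μ' : Measure M), J.Sm c f ∧ J.Vol c (J.conf c f g) μ' ∧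
    (∀ p, -1 ≤ J.scal (J.conf c f g p) (c p p)) ∧ μ' Set.univ ≤ J.L n μ (J.sn c g) + δ

section
variable {n : ℕ} {M X Γ I : Type} [TopologicalSpace M] [TopologicalSpace X] [Group Γ]
    [MulAction Γ X]

/-- locally conformally flat metrics -/
def LcfX (_ : Cov n M X Γ I) (G : I → E n → Matrix (Fin n) (Fin n) ℝ) : Prop :=
  ∀ i (y₀ : E n), ∃ (U : Set (E n)) (f : E n → E n) (h : E n → ℝ), IsOpen U ∧ y₀ ∈ U ∧
    ContDiffOn ℝ ∞ f U ∧ ContDiffOn ℝ ∞ h U ∧ ∀ y ∈ U, ∀ v w : E n,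
      ∑ a, ∑ b, G i y a b * v a * w b =
        Real.exp (2 * h y) * ∑ k, fderiv ℝ f y v k * fderiv ℝ f y w k

/-- Isometric immersions of `X` into the light cone `∑ D_k² = t²`, `t > 0`, in Minkowski space
`ℝ^(n+1,1)`. The map `D / t` is a conformal map to the sphere (developing map). -/
structure DevX (C : Cov n M X Γ I) (G : I → E n → Matrix (Fin n) (Fin n) ℝ)
    (D : Fin (n + 1) → X → ℝ) (t : X → ℝ) : Prop where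
  smooth : ∀ k, C.Ck ∞ (D k)
  smooth_t : C.Ck ∞ t
  pos : ∀ x, 0 < t x
  null : ∀ x, ∑ k, D k x ^ 2 = t x ^ 2
  iso : ∀ (γ : Γ) i y a b, G i y a b = ∑ k, Vale.Agent.P223.H.pd a (C.rep (D k) γ i) y *
    Vale.Agent.P223.H.pd b (C.rep (D k) γ i) y -
      Vale.Agent.P223.H.pd a (C.rep t γ i) y * Vale.Agent.P223.H.pd b (C.rep t γ i) y

end

/-- BLOCK B11 : conformal invariance of the Yamabe inequality. -/
def SpecYc : Prop := ∀ (n : ℕ) (M X Γ I : Type) [TopologicalSpace M] [TopologicalSpace X]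
  [Group Γ] [MulAction Γ X] [Fintype I] [T2Space X] [ConnectedSpace X] [T2Space M]
  [MeasurableSpace X] [BorelSpace X] (C : Cov n M X Γ I)
  (G G' : I → E n → Matrix (Fin n) (Fin n) ℝ) (μ μ' : Measure X) (w : X → ℝ) (y : ℝ), 3 ≤ n →
  MetX C G → VolX C G μ → VolX C G' μ' → C.Ck ∞ w → (∀ (γ : Γ) x, w (γ • x) = w x) →
  (G' = fun i => confm (C.rep w 1 i) (G i)) → YamX C G μ y → YamX C G' μ' y

/-- BLOCK B12a : developing map. (local part: Liouville's theorem, `n ≥ 3`) -/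
def SpecDev : Prop := ∀ (n : ℕ) (M X Γ I : Type) [TopologicalSpace M] [TopologicalSpace X]
  [Group Γ] [MulAction Γ X] [Fintype I] [T2Space X] [SimplyConnectedSpace X] [T2Space M]
  (C : Cov n M X Γ I) (G : I → E n → Matrix (Fin n) (Fin n) ℝ), 3 ≤ n → MetX C G → LcfX C G →
  ∃ (D : Fin (n + 1) → X → ℝ) (t : X → ℝ), DevX C G D t

/-- BLOCK B12b : Sobolev inequality from the developing map. -/
def SpecSob : Prop := ∀ n : ℕ, 3 ≤ n → ∃ y : ℝ, 0 < y ∧ ∀ (M X Γ I : Type) [TopologicalSpace M]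
  [TopologicalSpace X] [Group Γ] [MulAction Γ X] [Fintype I] [T2Space X] [ConnectedSpace X]
  [T2Space M] [MeasurableSpace X] [BorelSpace X] (C : Cov n M X Γ I)
  (G : I → E n → Matrix (Fin n) (Fin n) ℝ) (μ : Measure X) (D : Fin (n + 1) → X → ℝ) (t : X → ℝ),
  MetX C G → VolX C G μ → DevX C G D t → YamX C G μ y

end Vale.Agent.P223.H66
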