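import Vale.Agent.P223.H441.SpinDef
import Mathlib.Topology.Homotopy.Lifting

/-! Definitions for the statements: Sobolev inequality on the universal covering, locally
conformally flat metrics. -/

namespace Vale.Agent.P223.J

open scoped ContDiff
open MeasureTheory

/-- The square of the norm of the differential of `u`. -/
noncomputable def gsq {n : ℕ} (G : Mtx n) (u : E n → ℝ) (x : E n) : ℝ :=
  ∑ i, ∑ j, (G x)⁻¹ i j * pd i u x * pd j u x

/-- The Sobolev inequality
`y (∫ |u|^(2n/(n-2)))^((n-2)/n) ≤ ∫ (|du|² + (a Scal + b) u²)` for all smooth functions `u` with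
compact support on the Riemannian manifold `(X, g)` (`μ` is the Riemannian measure). -/
def Sob {n : ℕ} {X : Type} [TopologicalSpace X] (c : X → Ch n X) (g : X → Mtx n) (a b y : ℝ) :
    Prop :=
  ∀ (_ : MeasurableSpace X) (_ : BorelSpace X) (μ : Measure X), Vol c g μ → ∀ u : X → ℝ,
    Sm c u → HasCompactSupport u →
      y * (∫ q, |u q| ^ (2 * (n : ℝ) / (n - 2)) ∂μ) ^ (((n : ℝ) - 2) / n) ≤
        ∫ q, (gsq (g q) (fun x => u ((c q).symm x)) (c q q) +
          (a * scal (g q) (c q q) + b) * u q ^ 2) ∂μ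

/-- The Sobolev inequality on the universal covering of `(M, g)`. -/
def UCSob {n : ℕ} {M : Type} [TopologicalSpace M] (c : M → Ch n M) (g : M → Mtx n) (a b y : ℝ) :
    Prop :=
  ∀ (X : Type) (_ : TopologicalSpace X) (f : X → M) (c' : X → Ch n X), SimplyConnectedSpace X →
    CovAtl c f c' → Sob c' (fun q => g (f q)) a b y

/-- `g` is locally conformally flat: locally there are a smooth map `f` to `ℝ^n` and a smooth
function `h` such that `g = exp(2 h) ⟨df, df⟩`. -/
def Lcf {n : ℕ} {M : Type} [TopologicalSpace M] (c : M → Ch n M) (g : M → Mtx n) : Prop :=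
  ∀ a, ∀ x₀ ∈ (c a).target, ∃ (U : Set (E n)) (f : E n → E n) (h : E n → ℝ), IsOpen U ∧ x₀ ∈ U ∧
    ContDiffOn ℝ ∞ f U ∧ ContDiffOn ℝ ∞ h U ∧ ∀ x ∈ U, ∀ v w : E n,
      bil (g a x) v w = Real.exp (2 * h x) * ∑ k, fderiv ℝ f x v k * fderiv ℝ f x w k

end Vale.Agent.P223.J
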