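import Vale.Agent.P223.H66.S2
import Vale.Agent.P223.H66.YDef

/-! Stage 2 : block statements, second part (volume form, bridge to the definitions of `YDef`). -/

namespace Vale.Agent.P223.H66

open scoped ContDiff InnerProductSpace ENNReal
open MeasureTheory Vale.Agent.P223.H Vale.Agent.P223.X Vale.Agent.P223.H566

section
variable {n : ℕ} {M X Γ I : Type} [TopologicalSpace M] [TopologicalSpace X] [Group Γ]
    [MulAction Γ X]

/-- The Sobolev inequality on `X` for the form of `Δ + a Scal + b`.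
`YamX C G μ y` is `SobX C G μ ((n-2)/(4(n-1))) 0 y` (up to `+ 0`). -/
def SobX [MeasurableSpace X] (C : Cov n M X Γ I) (G : I → E n → Matrix (Fin n) (Fin n) ℝ)
    (μ : Measure X) (a b y : ℝ) : Prop :=
  ∀ f, Cc C f → y * (∫ x, |f x| ^ (2 * (n : ℝ) / (n - 2)) ∂μ) ^ (((n : ℝ) - 2) / n) ≤
    ∫ x, (gsX C G f x + (a * scX C G x + b) * f x ^ 2) ∂μ

end

/-- BLOCK V (volume form, normalised: `Scal ≥ -1`): the pairing is bounded. `d` is the dimension
of `V`. -/
def SpecV : Prop := ∀ (n d : ℕ), 3 ≤ n → 0 < d → ∃ A : ℝ, 0 < A ∧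
  ∀ (M X Γ I V : Type) [TopologicalSpace M] [TopologicalSpace X]
  [Group Γ] [MulAction Γ X] [Fintype I] [T2Space X] [ConnectedSpace X] [T2Space M]
  [MeasurableSpace X] [BorelSpace X] [NormedAddCommGroup V] [InnerProductSpace ℂ V]
  [FiniteDimensional ℂ V] (C : Cov n M X Γ I) (G : I → E n → Matrix (Fin n) (Fin n) ℝ)
  (K : Cliff n V) (_ : SpX C G K) (μ : Measure X) (ι : Type) [Fintype ι] (P : PUX C ι)
  (χ : I → E n → ℝ) (y : ℝ) (F : (Fin (n + 1) → Γ) → ℝ), Module.finrank ℂ V = d →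
  (∀ i, C.Ck ∞ (P.φ i)) → VolX C G μ → Part C χ → 0 < y → ScGe G 1 →
  SobX C G μ (1 / 4) (1 / 4) y → Coc F →
  |∑ᶠ l ∈ {l : Fin (n + 1) → Γ × ι | (l 0).1 = 1}, P.wt χ l * F (fun k => (l k).1)| ≤
    A * y ^ (-(n : ℝ) / 2) * Vl G χ

/-- BLOCK SCL : scaling of the metric. -/
def SpecScl : Prop := ∀ (n : ℕ) (M X Γ I : Type) [TopologicalSpace M] [TopologicalSpace X]
  [Group Γ] [MulAction Γ X] [Fintype I] [T2Space X] [ConnectedSpace X] [T2Space M]
  [MeasurableSpace X] [BorelSpace X] (C : Cov n M X Γ I)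
  (G : I → E n → Matrix (Fin n) (Fin n) ℝ) (χ : I → E n → ℝ) (μ : Measure X) (κ y : ℝ), 3 ≤ n →
  MetX C G → VolX C G μ → 0 < κ → ScGe G κ → SobX C G μ (1 / 4) (κ / 4) y →
  ∃ μ' : Measure X, MetX C (fun i z => κ • G i z) ∧ VolX C (fun i z => κ • G i z) μ' ∧
    ScGe (fun i z => κ • G i z) 1 ∧ SobX C (fun i z => κ • G i z) μ' (1 / 4) (1 / 4) y ∧
    Vl (fun i z => κ • G i z) χ = κ ^ ((n : ℝ) / 2) * Vl G χ

/-- BLOCK UY : Sobolev inequality on the universal covering, from manifolds to coverings `Cov`. -/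
def SpecUY : Prop := ∀ (n : ℕ) (M X Γ I : Type) [TopologicalSpace M] [TopologicalSpace X]
  [Group Γ] [MulAction Γ X] [Fintype I] [T2Space M] [CompactSpace M] [T2Space X]
  [SimplyConnectedSpace X] [MeasurableSpace X] [BorelSpace X] (c : M → J.Ch n M) (B : Box c I)
  (C : Cov n M X Γ I) (g : M → J.Mtx n) (μ : Measure X) (a b y : ℝ), J.Atl c →
  (∀ i z, C.π (C.ψ i z) = B.β i z) → J.Met c g → VolX C (B.G g) μ → J.UCSob c g a b y →
  SobX C (B.G g) μ a b y

/-- BLOCK UV : the volume -/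
def SpecUV : Prop := ∀ (n : ℕ) (M X Γ I : Type) [TopologicalSpace M] [TopologicalSpace X]
  [Group Γ] [MulAction Γ X] [Fintype I] [T2Space M] [CompactSpace M] [T2Space X]
  [ConnectedSpace X] [MeasurableSpace M] [BorelSpace M] (c : M → J.Ch n M) (B : Box c I)
  (C : Cov n M X Γ I) (g : M → J.Mtx n) (ν : Measure M) (χ : I → E n → ℝ), J.Atl c →
  (∀ i z, C.π (C.ψ i z) = B.β i z) → J.Met c g → J.Vol c g ν → Part C χ →
  ENNReal.ofReal (Vl (B.G g) χ) ≤ ν Set.univ

/-- BLOCK UL : locally conformally flat metrics -/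
def SpecUL : Prop := ∀ (n : ℕ) (M X Γ I : Type) [TopologicalSpace M] [TopologicalSpace X]
  [Group Γ] [MulAction Γ X] (c : M → J.Ch n M) (B : Box c I)
  (C : Cov n M X Γ I) (g : M → J.Mtx n), J.Atl c → (∀ i z, C.π (C.ψ i z) = B.β i z) →
  J.Met c g → J.Lcf c g → LcfX C (B.G g)

/-- BLOCK F2 : simply connected coverings with a developing map are spin. -/
def SpecF2 : Prop := ∀ (n : ℕ) (M X Γ I V : Type) [TopologicalSpace M] [TopologicalSpace X]
  [Group Γ] [MulAction Γ X] [Fintype I] [T2Space X] [SimplyConnectedSpace X] [T2Space M]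
  [NormedAddCommGroup V] [InnerProductSpace ℂ V] [FiniteDimensional ℂ V] (C : Cov n M X Γ I)
  (G : I → E n → Matrix (Fin n) (Fin n) ℝ) (K : Cliff n V) (D : Fin (n + 1) → X → ℝ) (t : X → ℝ),
  3 ≤ n → MetX C G → DevX C G D t → ∀ G', MetX C G' → Nonempty (SpX C G' K)

end Vale.Agent.P223.H66
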