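import Vale.Agent.P223.H66.LocC
import Vale.Agent.P223.H566.Spec

/-! Local spin geometry: the block `SpecLocal`. -/

namespace Vale.Agent.P223.H66

open scoped ContDiff InnerProductSpace
open Finset Vale.Agent.P223.H Vale.Agent.P223.H566
open Vale.Agent.P223.H.Bochner (cd_inv cd_chr chr_symm divg_eq)

section

variable {n : ℕ} {V : Type} [NormedAddCommGroup V] [InnerProductSpace ℂ V]

theorem pd_re_inner {k : Fin n} {φ ψ : E n → V} {y : E n} (hφ : DifferentiableAt ℝ φ y)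
    (hψ : DifferentiableAt ℝ ψ y) : H.pd k (fun z => (⟪φ z, ψ z⟫_ℂ).re) y =
      (⟪pv k φ y, ψ y⟫_ℂ).re + (⟪φ y, pv k ψ y⟫_ℂ).re := by
  have h1 : DifferentiableAt ℝ (fun z => ⟪φ z, ψ z⟫_ℂ) y := hφ.inner ℂ hψ
  have h2 := Complex.reCLM.hasFDerivAt.comp y h1.hasFDerivAt
  have h3 : (fun z => (⟪φ z, ψ z⟫_ℂ).re) = Complex.reCLM ∘ fun z => ⟪φ z, ψ z⟫_ℂ := rfl
  unfold H.pd pv
  rw [h3, h2.fderiv, ContinuousLinearMap.comp_apply, fderiv_inner_apply ℂ hφ hψ]
  simp only [map_add, Complex.reCLM_apply]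
  rw [add_comm]

variable (K : Cliff n V) {G β : E n → Matrix (Fin n) (Fin n) ℝ}
  (hs : ∀ i j, ContDiff ℝ ∞ (fun x => G x i j)) (hp : ∀ x, (G x).PosDef) (hF : Fr G β)

theorem re_symm (v w : V) : (⟪v, w⟫_ℂ).re = (⟪w, v⟫_ℂ).re := by
  rw [← inner_conj_symm v w, Complex.conj_re]

theorem inner_smul_real_left (r : ℝ) (v w : V) : ⟪r • v, w⟫_ℂ = (r : ℂ) * ⟪v, w⟫_ℂ := by
  rw [← Complex.coe_smul, inner_smul_left]; simp

theorem inner_smul_real_right (r : ℝ) (v w : V) : ⟪v, r • w⟫_ℂ = (r : ℂ) * ⟪v, w⟫_ℂ := by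
  rw [← Complex.coe_smul, inner_smul_right]

theorem q_skew (M : Fin n → Fin n → ℝ) (hM : ∀ a b, M a b = -M b a) (v w : V) :
    ⟪q K.c M v, w⟫_ℂ = -⟪v, q K.c M w⟫_ℂ := by
  unfold q
  simp only [_root_.sum_apply, _root_.smul_apply, mul_apply_eq_comp, sum_inner, inner_sum,
    inner_smul_real_left, inner_smul_real_right, K.symm]
  rw [Finset.sum_comm, ← Finset.sum_neg_distrib]
  refine Finset.sum_congr rfl fun a _ => ?_
  rw [← Finset.sum_neg_distrib]
  refine Finset.sum_congr rfl fun b _ => ?_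
  rw [hM b a]; push_cast; ring

include hs hp hF in
theorem spc_skew (y : E n) (k : Fin n) (v w : V) :
    ⟪spc K G β y k v, w⟫_ℂ = -⟪v, spc K G β y k w⟫_ℂ := by
  rw [spc_eq]; exact q_skew K _ (om_antisymm hs hp hF y k) v w

include hs hp hF in
/-- the connection is metric -/
theorem pd_re_nab {k : Fin n} {φ ψ : E n → V} {y : E n} (hφ : DifferentiableAt ℝ φ y)
    (hψ : DifferentiableAt ℝ ψ y) : H.pd k (fun z => (⟪φ z, ψ z⟫_ℂ).re) y =
      (⟪nab K G β k φ y, ψ y⟫_ℂ).re + (⟪φ y, nab K G β k ψ y⟫_ℂ).re := by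
  rw [pd_re_inner hφ hψ, nab_eq, nab_eq, inner_add_left, inner_add_right,
    spc_skew K hs hp hF y k]
  simp only [Complex.add_re, Complex.neg_re]
  ring

theorem cl_symm (y : E n) (k : Fin n) (v w : V) : ⟪cl K β y k v, w⟫_ℂ = ⟪v, cl K β y k w⟫_ℂ := by
  rw [cl_eq]
  simp only [_root_.sum_apply, _root_.smul_apply, sum_inner, inner_sum, inner_smul_real_left,
    inner_smul_real_right, K.symm]

include hs hp hF in
theorem skew {φ ψ : E n → V} (hφ : ContDiff ℝ ∞ φ) (hψ : ContDiff ℝ ∞ ψ) (y : E n) :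
    (⟪dir K G β φ y, ψ y⟫_ℂ).re + (⟪φ y, dir K G β ψ y⟫_ℂ).re =
      H.divg G (fun z k => (⟪cl K β z k (φ z), ψ z⟫_ℂ).re) y := by
  have dφ : DifferentiableAt ℝ φ y := hφ.differentiable (by simp) y
  have dψ : DifferentiableAt ℝ ψ y := hψ.differentiable (by simp) y
  have dcl : ∀ k, DifferentiableAt ℝ (fun z => cl K β z k (φ z)) y := fun k =>
    (cd_apply (cd_cl K hF k) hφ).differentiable (by simp) y
  have dz : ∀ k, DifferentiableAt ℝ (fun z => (⟪cl K β z k (φ z), ψ z⟫_ℂ).re) y := fun k =>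
    Complex.reCLM.differentiableAt.comp y ((dcl k).inner ℂ dψ)
  rw [divg_eq hs hp y dz]
  unfold Bochner.nab
  have e1 : ∀ k, H.pd k (fun z => (⟪cl K β z k (φ z), ψ z⟫_ℂ).re) y =
      (⟪cl K β y k (nab K G β k φ y), ψ y⟫_ℂ).re -
        ∑ m, H.chr G y k k m * (⟪cl K β y m (φ y), ψ y⟫_ℂ).re +
        (⟪φ y, cl K β y k (nab K G β k ψ y)⟫_ℂ).re := by
    intro k
    rw [pd_re_nab K hs hp hF (dcl k) dψ, nab_cl K hs hp hF dφ k k, inner_sub_left, sum_inner,
      Complex.sub_re, Complex.re_sum, cl_symm K y k (φ y)]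
    congr 2
    refine Finset.sum_congr rfl fun m _ => ?_
    rw [inner_smul_real_left, Complex.re_ofReal_mul]
  simp only [e1, Finset.sum_add_distrib, Finset.sum_sub_distrib]
  unfold dir
  rw [sum_inner, inner_sum, Complex.re_sum, Complex.re_sum]
  ring

include hs hp hF in
theorem lap_normSq {φ : E n → V} (hφ : ContDiff ℝ ∞ φ) (y : E n) :
    H.lap G (fun z => ‖φ z‖ ^ 2) y =
      2 * (∑ i, ∑ j, (G y)⁻¹ i j * (⟪Hs K G β i j φ y, φ y⟫_ℂ).re) + 2 * nsq K G β φ y := by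
  have dφ : ∀ y, DifferentiableAt ℝ φ y := hφ.differentiable (by simp)
  have dn : ∀ k y, DifferentiableAt ℝ (nab K G β k φ) y := fun k =>
    (cd_nab' K hs hp hF (m := 1) (k' := ∞) hφ (by
      exact WithTop.coe_le_coe.2 (le_top : (1 + 1 : ℕ∞) ≤ ⊤)) k).differentiable (by simp)
  have e0 : (fun z => ‖φ z‖ ^ 2) = fun z => (⟪φ z, φ z⟫_ℂ).re := by
    funext z; exact (norm_sq_eq_re_inner (𝕜 := ℂ) (φ z))
  have hre : ∀ v w : V, (⟪v, w⟫_ℂ).re = (⟪w, v⟫_ℂ).re := re_symm
  have e1 : ∀ k y, H.pd k (fun z => (⟪φ z, φ z⟫_ℂ).re) y = 2 * (⟪nab K G β k φ y, φ y⟫_ℂ).re := by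
    intro k y
    rw [pd_re_nab K hs hp hF (dφ y) (dφ y), hre (φ y)]; ring
  have e2 : ∀ i j, H.pd i (fun y => H.pd j (fun z => (⟪φ z, φ z⟫_ℂ).re) y) y =
      2 * ((⟪nab K G β i (nab K G β j φ) y, φ y⟫_ℂ).re +
        (⟪nab K G β j φ y, nab K G β i φ y⟫_ℂ).re) := by
    intro i j
    have : (fun y => H.pd j (fun z => (⟪φ z, φ z⟫_ℂ).re) y) =
        fun y => 2 * (⟪nab K G β j φ y, φ y⟫_ℂ).re := by funext y; exact e1 j y
    have d3 : DifferentiableAt ℝ (fun y => (⟪nab K G β j φ y, φ y⟫_ℂ).re) y :=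
      Complex.reCLM.differentiableAt.comp y ((dn j y).inner ℂ (dφ y))
    rw [this, Bridge.pd_mul (differentiableAt_const _) d3, Bridge.pd_const,
      pd_re_nab K hs hp hF (dn j y) (dφ y)]
    ring
  rw [e0]
  unfold H.lap nsq Hs
  simp only [e2]
  simp only [e1]
  rw [Finset.mul_sum, Finset.mul_sum, ← Finset.sum_add_distrib]
  refine Finset.sum_congr rfl fun i _ => ?_
  rw [Finset.mul_sum, Finset.mul_sum, ← Finset.sum_add_distrib]
  refine Finset.sum_congr rfl fun j _ => ?_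
  rw [inner_sub_left, Complex.sub_re, sum_inner, Complex.re_sum,
    hre (nab K G β j φ y) (nab K G β i φ y)]
  have : ∑ x, (⟪H.chr G y x i j • nab K G β x φ y, φ y⟫_ℂ).re =
      ∑ x, H.chr G y x i j * (⟪nab K G β x φ y, φ y⟫_ℂ).re := by
    refine Finset.sum_congr rfl fun x _ => ?_
    rw [inner_smul_real_left, Complex.re_ofReal_mul]
  rw [this]
  have h2 : ∑ k, H.chr G y k i j * (2 * (⟪nab K G β k φ y, φ y⟫_ℂ).re) =
      2 * ∑ x, H.chr G y x i j * (⟪nab K G β x φ y, φ y⟫_ℂ).re := by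
    rw [Finset.mul_sum]
    exact Finset.sum_congr rfl fun x _ => by ring
  rw [h2]; ring

include hs hp hF in
theorem lich_re {φ : E n → V} (hφ : ContDiff ℝ ∞ φ) (y : E n) :
    -2 * (⟪dir K G β (dir K G β φ) y, φ y⟫_ℂ).re =
      -H.lap G (fun z => ‖φ z‖ ^ 2) y + 2 * nsq K G β φ y + H.scal G y / 2 * ‖φ y‖ ^ 2 := by
  rw [lich K hs hp hF (hφ.of_le (WithTop.coe_le_coe.2 (le_top : (2 : ℕ∞) ≤ ⊤))) y,
    lap_normSq K hs hp hF hφ y, inner_sub_left, Complex.sub_re, inner_smul_real_left,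
    Complex.re_ofReal_mul, sum_inner, Complex.re_sum]
  have : ∑ i, (⟪∑ j, (G y)⁻¹ i j • Hs K G β i j φ y, φ y⟫_ℂ).re =
      ∑ i, ∑ j, (G y)⁻¹ i j * (⟪Hs K G β i j φ y, φ y⟫_ℂ).re := by
    refine Finset.sum_congr rfl fun i _ => ?_
    rw [sum_inner, Complex.re_sum]
    refine Finset.sum_congr rfl fun j _ => ?_
    rw [inner_smul_real_left, Complex.re_ofReal_mul]
  rw [this]
  have h3 : (⟪φ y, φ y⟫_ℂ).re = ‖φ y‖ ^ 2 := (norm_sq_eq_re_inner (𝕜 := ℂ) (φ y)).symm
  rw [h3]; ring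

include hF in
theorem sum_ginv {F : Type} [AddCommGroup F] [Module ℝ F] (y : E n) (f : Fin n → Fin n → F) :
    ∑ k, ∑ l, (G y)⁻¹ k l • f k l = ∑ a, ∑ k, ∑ l, (β y a k * β y a l) • f k l := by
  calc ∑ k, ∑ l, (G y)⁻¹ k l • f k l = ∑ k, ∑ l, ∑ a, (β y a k * β y a l) • f k l := by
        refine Finset.sum_congr rfl fun k _ => Finset.sum_congr rfl fun l _ => ?_
        rw [← beta_sq hF, Finset.sum_smul]
    _ = ∑ k, ∑ a, ∑ l, (β y a k * β y a l) • f k l :=
        Finset.sum_congr rfl fun k _ => Finset.sum_comm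
    _ = _ := Finset.sum_comm

include hF in
theorem nsq_eq (φ : E n → V) (y : E n) :
    nsq K G β φ y = ∑ a, ‖∑ k, β y a k • nab K G β k φ y‖ ^ 2 := by
  unfold nsq
  have := sum_ginv hF y (fun k l => (⟪nab K G β k φ y, nab K G β l φ y⟫_ℂ).re)
  simp only [smul_eq_mul] at this
  rw [this]
  refine Finset.sum_congr rfl fun a _ => ?_
  rw [norm_sq_eq_re_inner (𝕜 := ℂ), sum_inner, map_sum]
  refine Finset.sum_congr rfl fun k _ => ?_
  rw [inner_sum, map_sum]
  refine Finset.sum_congr rfl fun l _ => ?_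
  rw [inner_smul_real_left, inner_smul_real_right]
  simp only [RCLike.re_to_complex, Complex.re_ofReal_mul]
  ring

include hs hp hF in
theorem kato {φ : E n → V} (hφ : ContDiff ℝ ∞ φ) (y : E n) : 0 ≤ nsq K G β φ y ∧
    H.gradSq G (fun z => ‖φ z‖ ^ 2) y ≤ 4 * ‖φ y‖ ^ 2 * nsq K G β φ y := by
  have dφ : DifferentiableAt ℝ φ y := hφ.differentiable (by simp) y
  have hre : ∀ v w : V, (⟪v, w⟫_ℂ).re = (⟪w, v⟫_ℂ).re := re_symm
  have e0 : (fun z => ‖φ z‖ ^ 2) = fun z => (⟪φ z, φ z⟫_ℂ).re := by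
    funext z; exact (norm_sq_eq_re_inner (𝕜 := ℂ) (φ z))
  have e1 : ∀ k, H.pd k (fun z => (⟪φ z, φ z⟫_ℂ).re) y = 2 * (⟪nab K G β k φ y, φ y⟫_ℂ).re := by
    intro k
    rw [pd_re_nab K hs hp hF dφ dφ, hre (φ y)]; ring
  rw [nsq_eq K hF]
  refine ⟨Finset.sum_nonneg fun a _ => by positivity, ?_⟩
  rw [e0]
  unfold H.gradSq H.gradIp
  simp only [e1]
  have h1 := sum_ginv hF y (fun k l => (2 * (⟪nab K G β k φ y, φ y⟫_ℂ).re) *
    (2 * (⟪nab K G β l φ y, φ y⟫_ℂ).re))
  simp only [smul_eq_mul] at h1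
  have h2 : ∑ i, ∑ j, (G y)⁻¹ i j * (2 * (⟪nab K G β i φ y, φ y⟫_ℂ).re) *
      (2 * (⟪nab K G β j φ y, φ y⟫_ℂ).re) = ∑ a, 4 * (⟪∑ k, β y a k • nab K G β k φ y, φ y⟫_ℂ).re ^ 2 := by
    simp only [mul_assoc] at h1 ⊢
    rw [h1]
    refine Finset.sum_congr rfl fun a _ => ?_
    rw [sum_inner, Complex.re_sum, sq, Finset.sum_mul_sum, Finset.mul_sum]
    refine Finset.sum_congr rfl fun k _ => ?_
    rw [Finset.mul_sum]
    refine Finset.sum_congr rfl fun l _ => ?_
    rw [inner_smul_real_left, inner_smul_real_left, Complex.re_ofReal_mul, Complex.re_ofReal_mul]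
    ring
  rw [h2, Finset.mul_sum]
  refine Finset.sum_le_sum fun a _ => ?_
  set v := ∑ k, β y a k • nab K G β k φ y
  have h3 : |(⟪v, φ y⟫_ℂ).re| ≤ ‖v‖ * ‖φ y‖ :=
    (Complex.abs_re_le_norm _).trans (norm_inner_le_norm v (φ y))
  have h4 : (⟪v, φ y⟫_ℂ).re ^ 2 ≤ (‖v‖ * ‖φ y‖) ^ 2 := by
    rw [← sq_abs]; exact pow_le_pow_left₀ (abs_nonneg _) h3 2
  nlinarith [h4]

/-! ### volume element -/

theorem c_sq (a : Fin n) : K.c a * K.c a = 1 := by
  have h := rel' K.c K.rel a a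
  have h2 : (2 : ℝ) • (K.c a * K.c a) = (2 : ℝ) • (1 : V →L[ℂ] V) := by
    rw [two_smul]
    nth_rewrite 1 [h]
    simp [dl]
  exact smul_right_injective (V →L[ℂ] V) (two_ne_zero' ℝ) h2

theorem c_anti {a b : Fin n} (h : a ≠ b) : K.c a * K.c b = -(K.c b * K.c a) := by
  have := K.rel a b
  rw [if_neg h] at this
  exact eq_neg_of_add_eq_zero_left this

theorem c_prod (a : Fin n) : ∀ l : List (Fin n), l.Nodup →
    (a ∉ l → K.c a * (l.map K.c).prod = (-1 : ℂ) ^ l.length • ((l.map K.c).prod * K.c a)) ∧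
    (a ∈ l → K.c a * (l.map K.c).prod = (-1 : ℂ) ^ (l.length + 1) • ((l.map K.c).prod * K.c a)) := by
  intro l
  induction l with
  | nil => intro _; simp
  | cons b t ih =>
    intro hd
    rw [List.nodup_cons] at hd
    obtain ⟨i1, i2⟩ := ih hd.2
    refine ⟨fun ha => ?_, fun ha => ?_⟩
    · rw [List.mem_cons, not_or] at ha
      rw [List.map_cons, List.prod_cons, ← mul_assoc, c_anti K ha.1, neg_mul, mul_assoc, i1 ha.2,
        mul_smul_comm, List.length_cons, pow_succ, mul_neg_one, neg_smul, mul_assoc]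
    · by_cases hab : a = b
      · subst hab
        rw [List.map_cons, List.prod_cons, List.length_cons]
        have e := i1 hd.1
        calc K.c a * (K.c a * (t.map K.c).prod)
            = K.c a * ((-1 : ℂ) ^ t.length • ((t.map K.c).prod * K.c a)) := by rw [e]
          _ = (-1 : ℂ) ^ t.length • (K.c a * (t.map K.c).prod * K.c a) := by
              rw [mul_smul_comm, mul_assoc]
          _ = _ := by congr 1; rw [pow_succ, pow_succ]; ring
      · have hat : a ∈ t := by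
          rcases List.mem_cons.1 ha with h | h
          · exact absurd h hab
          · exact h
        rw [List.map_cons, List.prod_cons, ← mul_assoc, c_anti K hab, neg_mul, mul_assoc, i2 hat,
          mul_smul_comm, List.length_cons, pow_succ _ (t.length + 1), mul_neg_one, neg_smul,
          mul_assoc]

theorem vol_eq : K.vol = ((List.finRange n).reverse.map K.c).prod := by
  unfold Cliff.vol
  rw [List.ofFn_eq_map, List.map_reverse]

theorem c_vol (a : Fin n) : K.c a * K.vol = (-1 : ℂ) ^ (n + 1) • (K.vol * K.c a) := by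
  rw [vol_eq]
  have h := (c_prod K a (List.finRange n).reverse
    (List.nodup_reverse.2 (List.nodup_finRange n))).2 (by simp)
  simpa using h

theorem neg_one_sq (n : ℕ) : ((-1 : ℂ) ^ (n + 1)) * (-1 : ℂ) ^ (n + 1) = 1 := by
  rw [← pow_add, ← two_mul, pow_mul]; norm_num

theorem vol_c (a : Fin n) : K.vol * K.c a = (-1 : ℂ) ^ (n + 1) • (K.c a * K.vol) := by
  rw [c_vol, smul_smul, neg_one_sq, one_smul]

theorem real_smul_clm (r : ℝ) (A B : V →L[ℂ] V) (c : ℂ) : r • (c • (A * B)) = c • (r • (A * B)) :=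
  smul_comm r c _

theorem vol_cl (y : E n) (k : Fin n) :
    K.vol * cl K β y k = (-1 : ℂ) ^ (n + 1) • (cl K β y k * K.vol) := by
  rw [cl_eq, Finset.mul_sum, Finset.sum_mul, Finset.smul_sum]
  refine Finset.sum_congr rfl fun a _ => ?_
  rw [mul_smul_comm, smul_mul_assoc, vol_c, smul_comm]

theorem vol_cc (a b : Fin n) : K.vol * (K.c a * K.c b) = K.c a * K.c b * K.vol := by
  rw [← mul_assoc, vol_c, smul_mul_assoc, mul_assoc, vol_c, mul_smul_comm, smul_smul, neg_one_sq,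
    one_smul, mul_assoc]

theorem vol_spc (y : E n) (k : Fin n) : K.vol * spc K G β y k = spc K G β y k * K.vol := by
  rw [spc_eq]; unfold q
  rw [Finset.mul_sum, Finset.sum_mul]
  refine Finset.sum_congr rfl fun a _ => ?_
  rw [Finset.mul_sum, Finset.sum_mul]
  refine Finset.sum_congr rfl fun b _ => ?_
  rw [mul_smul_comm, smul_mul_assoc, vol_cc]

theorem dir_vol {φ : E n → V} (hφ : ContDiff ℝ ∞ φ) (y : E n) :
    dir K G β (fun z => K.vol (φ z)) y = (-1 : ℂ) ^ (n + 1) • K.vol (dir K G β φ y) := by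
  have dφ : DifferentiableAt ℝ φ y := hφ.differentiable (by simp) y
  have e1 : ∀ k, nab K G β k (fun z => K.vol (φ z)) y = K.vol (nab K G β k φ y) := by
    intro k
    have h1 : pv k (fun z => K.vol (φ z)) y = K.vol (pv k φ y) := by
      rw [pv_apply (A := fun _ => K.vol) (differentiableAt_const _) dφ, pv_const]; simp
    have h2 := congrArg (fun A : V →L[ℂ] V => A (φ y)) (vol_spc K (G := G) (β := β) y k)
    simp only [mul_apply_eq_comp] at h2
    rw [nab_eq, nab_eq, h1, map_add, h2]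
  unfold dir
  simp only [e1]
  rw [map_sum, Finset.smul_sum]
  refine Finset.sum_congr rfl fun k _ => ?_
  have h3 := congrArg (fun A : V →L[ℂ] V => A (nab K G β k φ y)) (vol_cl K (β := β) y k)
  simp only [mul_apply_eq_comp, _root_.smul_apply] at h3
  rw [h3, smul_smul, neg_one_sq, one_smul]

theorem cdf_eq (f : E n → ℝ) (y : E n) : cdf K β f y = ∑ k, H.pd k f y • cl K β y k := by
  unfold cdf; simp only [rs_eq]

theorem cdf_symm (f : E n → ℝ) (y : E n) (v w : V) :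
    ⟪cdf K β f y v, w⟫_ℂ = ⟪v, cdf K β f y w⟫_ℂ := by
  rw [cdf_eq]
  simp only [_root_.sum_apply, _root_.smul_apply, sum_inner, inner_sum, inner_smul_real_left,
    inner_smul_real_right, cl_symm]

include hF in
theorem cdf_sq (f : E n → ℝ) (y : E n) :
    cdf K β f y * cdf K β f y = H.gradSq G f y • (1 : V →L[ℂ] V) := by
  have h0 : cdf K β f y * cdf K β f y =
      ∑ k, ∑ l, (H.pd k f y * H.pd l f y) • (cl K β y k * cl K β y l) := by
    rw [cdf_eq, Finset.sum_mul_sum]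
    refine Finset.sum_congr rfl fun k _ => Finset.sum_congr rfl fun l _ => ?_
    rw [smul_mul_smul_comm]
  have h1 : cdf K β f y * cdf K β f y =
      ∑ k, ∑ l, (H.pd k f y * H.pd l f y) • (cl K β y l * cl K β y k) := by
    rw [h0, Finset.sum_comm]
    refine Finset.sum_congr rfl fun k _ => Finset.sum_congr rfl fun l _ => ?_
    rw [mul_comm (H.pd l f y)]
  have h2 : (2 : ℝ) • (cdf K β f y * cdf K β f y) =
      (2 : ℝ) • (H.gradSq G f y • (1 : V →L[ℂ] V)) := by
    rw [two_smul]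
    nth_rewrite 1 [h0]
    rw [h1, ← Finset.sum_add_distrib]
    have : ∀ k, ∑ l, (H.pd k f y * H.pd l f y) • (cl K β y k * cl K β y l) +
        ∑ l, (H.pd k f y * H.pd l f y) • (cl K β y l * cl K β y k) =
        (∑ l, 2 * ((G y)⁻¹ k l * H.pd k f y * H.pd l f y)) • (1 : V →L[ℂ] V) := by
      intro k
      rw [← Finset.sum_add_distrib, Finset.sum_smul]
      refine Finset.sum_congr rfl fun l _ => ?_
      rw [← smul_add, cl_anti K hF, smul_smul]
      congr 1; ring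
    simp only [this]
    rw [← Finset.sum_smul, smul_smul]
    congr 1
    unfold H.gradSq H.gradIp
    rw [Finset.mul_sum]
    refine Finset.sum_congr rfl fun k _ => ?_
    rw [Finset.mul_sum]
  exact smul_right_injective (V →L[ℂ] V) (two_ne_zero' ℝ) h2

include hF in
theorem cdf_norm (f : E n → ℝ) (y : E n) (v : V) :
    ‖cdf K β f y v‖ ^ 2 = H.gradSq G f y * ‖v‖ ^ 2 := by
  rw [norm_sq_eq_re_inner (𝕜 := ℂ), cdf_symm]
  have h := congrArg (fun A : V →L[ℂ] V => A v) (cdf_sq K hF f y)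
  simp only [mul_apply_eq_comp, _root_.smul_apply, one_apply_eq_self] at h
  rw [h, inner_smul_real_right, RCLike.re_to_complex, Complex.re_ofReal_mul,
    norm_sq_eq_re_inner (𝕜 := ℂ) v]
  rfl

theorem vol_cdf (f : E n → ℝ) (y : E n) (v : V) :
    K.vol (cdf K β f y v) = (-1 : ℂ) ^ (n + 1) • cdf K β f y (K.vol v) := by
  have : K.vol * cdf K β f y = (-1 : ℂ) ^ (n + 1) • (cdf K β f y * K.vol) := by
    rw [cdf_eq, Finset.mul_sum, Finset.sum_mul, Finset.smul_sum]
    refine Finset.sum_congr rfl fun a _ => ?_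
    rw [mul_smul_comm, smul_mul_assoc, vol_cl, smul_comm]
  have h := congrArg (fun A : V →L[ℂ] V => A v) this
  simpa only [mul_apply_eq_comp, _root_.smul_apply] using h

theorem c_unit (a : Fin n) (v w : V) : ⟪K.c a v, K.c a w⟫_ℂ = ⟪v, w⟫_ℂ := by
  rw [K.symm]
  have h := congrArg (fun A : V →L[ℂ] V => A w) (c_sq K a)
  simp only [mul_apply_eq_comp, one_apply_eq_self] at h
  rw [h]

theorem vol_unit (v w : V) : ⟪K.vol v, K.vol w⟫_ℂ = ⟪v, w⟫_ℂ := by
  rw [vol_eq]
  have : ∀ (l : List (Fin n)) (v w : V),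
      ⟪(l.map K.c).prod v, (l.map K.c).prod w⟫_ℂ = ⟪v, w⟫_ℂ := by
    intro l
    induction l with
    | nil => intro v w; simp
    | cons a t ih =>
      intro v w
      rw [List.map_cons, List.prod_cons, mul_apply_eq_comp, mul_apply_eq_comp, c_unit, ih]
  exact this _ v w

/-! ### the square of the Dirac operator -/

include hs hp in
theorem cd_scal : ContDiff ℝ ∞ fun y => H.scal G y := by
  have h1 : ∀ k i j, ContDiff ℝ ∞ fun y => H.chr G y k i j := fun k i j => cd_chr hs hp k i j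
  have h2 : ∀ a k i j, ContDiff ℝ ∞ fun y => H.pd a (fun z => H.chr G z k i j) y :=
    fun a k i j => Bridge.contDiff_pd (h1 k i j) (by simp) a
  unfold H.scal H.ric
  exact ContDiff.sum fun i _ => ContDiff.sum fun j _ => (cd_inv hs hp i j).mul
    ((ContDiff.sum fun k _ => (h2 _ _ _ _).sub (h2 _ _ _ _)).add
      (ContDiff.sum fun k _ => ContDiff.sum fun l _ => ((h1 _ _ _).mul (h1 _ _ _)).sub
        ((h1 _ _ _).mul (h1 _ _ _))))

/-- first order coefficient -/
noncomputable def cB (G β : E n → Matrix (Fin n) (Fin n) ℝ) (k : Fin n) (y : E n) : V →L[ℂ] V :=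
  ∑ j, (2 * (G y)⁻¹ j k) • spc K G β y j - (∑ i, ∑ j, (G y)⁻¹ i j * H.chr G y k i j) • 1

/-- zeroth order coefficient -/
noncomputable def cA (G β : E n → Matrix (Fin n) (Fin n) ℝ) (y : E n) : V →L[ℂ] V :=
  ∑ k, ∑ l, (G y)⁻¹ k l • (pv k (fun z => spc K G β z l) y + spc K G β y k * spc K G β y l -
    ∑ m, H.chr G y m k l • spc K G β y m) - (H.scal G y / 4) • 1

include hs hp hF in
theorem dirsq {φ : E n → V} (hφ : ContDiff ℝ ∞ φ) (y : E n) : dir K G β (dir K G β φ) y =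
      (∑ j, ∑ k, (((G y)⁻¹ j k : ℝ) : ℂ) •
        fderiv ℝ (fun z => fderiv ℝ φ z (Pi.single k 1)) y (Pi.single j 1)) +
      (∑ k, cB K G β k y (fderiv ℝ φ y (Pi.single k 1))) + cA K G β y (φ y) := by
  have h2 : ContDiff ℝ 2 φ := hφ.of_le (WithTop.coe_le_coe.2 (le_top : (2 : ℕ∞) ≤ ⊤))
  have dφ : DifferentiableAt ℝ φ y := hφ.differentiable (by simp) y
  have dsp : ∀ l, DifferentiableAt ℝ (fun z => spc K G β z l) y := fun l =>
    (cd_spc K hs hp hF l).differentiable (by simp) y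
  have e1 : ∀ k l, nab K G β k (nab K G β l φ) y = pv k (fun z => pv l φ z) y +
      ((pv k (fun z => spc K G β z l) y) (φ y) + spc K G β y l (pv k φ y)) +
      (spc K G β y k (pv l φ y) + spc K G β y k (spc K G β y l (φ y))) := by
    intro k l
    rw [nab_eq]
    have : nab K G β l φ = fun z => pv l φ z + spc K G β z l (φ z) := rfl
    rw [this, pv_add ((contDiff_pv h2 (k := 1) (by norm_num) l).differentiable (by simp) y)
      ((cd_apply ((cd_spc K hs hp hF l).of_le (m := 1) (by simp)) (h2.of_le (by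
        norm_num))).differentiable (by simp) y), pv_apply (dsp l) dφ, map_add]
  rw [lich K hs hp hF h2 y]
  unfold Hs
  simp only [e1, nab_eq]
  have e2 : ∀ j k, (((G y)⁻¹ j k : ℝ) : ℂ) •
        fderiv ℝ (fun z => fderiv ℝ φ z (Pi.single k 1)) y (Pi.single j 1) =
      (G y)⁻¹ j k • pv j (fun z => pv k φ z) y := fun j k => Complex.coe_smul _ _
  simp only [e2]
  have e3 : ∀ k, cB K G β k y (fderiv ℝ φ y (Pi.single k 1)) =
      ∑ j, (2 * (G y)⁻¹ j k) • spc K G β y j (pv k φ y) -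
        (∑ i, ∑ j, (G y)⁻¹ i j * H.chr G y k i j) • pv k φ y := by
    intro k
    unfold cB
    simp only [_root_.sub_apply, _root_.sum_apply, _root_.smul_apply, one_apply_eq_self]
    rfl
  have e4 : cA K G β y (φ y) = ∑ k, ∑ l, (G y)⁻¹ k l •
      ((pv k (fun z => spc K G β z l) y) (φ y) + spc K G β y k (spc K G β y l (φ y)) -
        ∑ m, H.chr G y m k l • spc K G β y m (φ y)) - (H.scal G y / 4) • φ y := by
    unfold cA
    simp only [_root_.sub_apply, _root_.sum_apply, _root_.smul_apply, one_apply_eq_self,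
      _root_.add_apply, mul_apply_eq_comp]
  simp only [e3]
  rw [e4]
  have e5 : ∑ k, ∑ j, (2 * (G y)⁻¹ j k) • spc K G β y j (pv k φ y) =
      ∑ k, ∑ l, ((G y)⁻¹ k l • spc K G β y l (pv k φ y) + (G y)⁻¹ k l • spc K G β y k (pv l φ y)) := by
    simp only [Finset.sum_add_distrib]
    rw [Finset.sum_comm (f := fun k l => (G y)⁻¹ k l • spc K G β y k (pv l φ y)),
      ← Finset.sum_add_distrib]
    refine Finset.sum_congr rfl fun k _ => ?_
    rw [← Finset.sum_add_distrib]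
    refine Finset.sum_congr rfl fun j _ => ?_
    rw [ConfScal.gi_symm hp y k j, ← add_smul]; congr 1; ring
  have e6 : ∑ k, (∑ i, ∑ j, (G y)⁻¹ i j * H.chr G y k i j) • pv k φ y =
      ∑ i, ∑ j, (G y)⁻¹ i j • ∑ m, H.chr G y m i j • pv m φ y := by
    simp only [Finset.sum_smul, Finset.smul_sum, smul_smul]
    rw [Finset.sum_comm]
    refine Finset.sum_congr rfl fun i _ => ?_
    rw [Finset.sum_comm]
  rw [Finset.sum_sub_distrib, e5, e6]
  have e7 : ∀ k l, (G y)⁻¹ k l • (pv k (fun z => pv l φ z) y +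
      ((pv k (fun z => spc K G β z l) y) (φ y) + spc K G β y l (pv k φ y)) +
      (spc K G β y k (pv l φ y) + spc K G β y k (spc K G β y l (φ y))) -
      ∑ m, H.chr G y m k l • (pv m φ y + spc K G β y m (φ y))) =
      (G y)⁻¹ k l • pv k (fun z => pv l φ z) y +
      ((G y)⁻¹ k l • spc K G β y l (pv k φ y) + (G y)⁻¹ k l • spc K G β y k (pv l φ y)) -
      (G y)⁻¹ k l • ∑ m, H.chr G y m k l • pv m φ y +
      (G y)⁻¹ k l • ((pv k (fun z => spc K G β z l) y) (φ y) + spc K G β y k (spc K G β y l (φ y)) -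
        ∑ m, H.chr G y m k l • spc K G β y m (φ y)) := by
    intro k l
    simp only [smul_add, smul_sub, Finset.sum_add_distrib]
    abel
  simp only [e7, Finset.sum_add_distrib, Finset.sum_sub_distrib]
  abel

include hs hp hF in
theorem cd_cB (k : Fin n) : ContDiff ℝ ∞ (cB K G β k) := by
  unfold cB
  refine ContDiff.sub (ContDiff.sum fun j _ => ContDiff.smul (contDiff_const.mul
    (cd_inv hs hp j k)) (cd_spc K hs hp hF j)) (ContDiff.smul (ContDiff.sum fun i _ =>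
      ContDiff.sum fun j _ => (cd_inv hs hp i j).mul (cd_chr hs hp k i j)) contDiff_const)

include hs hp hF in
theorem cd_cA : ContDiff ℝ ∞ (cA K G β) := by
  unfold cA
  refine ContDiff.sub (ContDiff.sum fun k _ => ContDiff.sum fun l _ => ContDiff.smul
    (cd_inv hs hp k l) (ContDiff.sub (ContDiff.add ?_ ?_) (ContDiff.sum fun m _ =>
      ContDiff.smul (cd_chr hs hp m k l) (cd_spc K hs hp hF m)))) (ContDiff.smul
        ((cd_scal hs hp).div_const 4) contDiff_const)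
  · exact contDiff_pv (cd_spc K hs hp hF l) (by simp) k
  · exact (cd_spc K hs hp hF k).mul (cd_spc K hs hp hF l)

end

/-- BLOCK L -/
theorem specLocal : SpecLocal := by
  intro n V _ _ _ K G β hs hp hF
  refine ⟨fun φ ψ hφ hψ y => skew K hs hp hF hφ hψ y, fun φ hφ y => lich_re K hs hp hF hφ y,
    fun φ hφ y => kato K hs hp hF hφ y, fun φ hφ y => dir_vol K hφ y, fun f y v w =>
    ⟨cdf_symm K f y v w, cdf_norm K hF f y v, vol_cdf K f y v⟩, vol_unit K,
    cB K G β, cA K G β, cd_cB K hs hp hF, cd_cA K hs hp hF, fun φ hφ y => dirsq K hs hp hF hφ y⟩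

end Vale.Agent.P223.H66
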