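import Vale.Agent.P223.H765.Assembly
import Vale.Agent.P223.H66.S2

/-! P223, Stage 2: the simplicial volume is bounded by the pairings with bounded cocycles. -/

namespace Vale.Agent.P223.H66

open scoped ContDiff
open MeasureTheory Vale.Agent.P223.H Vale.Agent.P223.X Vale.Agent.P223.H765

/-- If all bounded alternating cocycles have a pairing with the weights of absolute value at most
`B` then the simplicial volume is at most `B`. -/
theorem svX_le {n : ℕ} {M X Γ I : Type} [TopologicalSpace M] [TopologicalSpace X] [Group Γ]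
    [MulAction Γ X] [Fintype I] [T2Space X] [SimplyConnectedSpace X] [T2Space M]
    (C : Cov n M X Γ I) (hn : 1 ≤ n) (hinf : ∃ s : ℕ → X, MT.Dist Γ s) {χ : I → E n → ℝ}
    (hχ : Part C χ) {ι : Type} [Fintype ι] (Q : PUX C ι) {B : ℝ} (hB : 0 ≤ B)
    (h : ∀ F : (Fin (n + 1) → Γ) → ℝ, H566.Coc F →
      |∑ᶠ l ∈ {l : Fin (n + 1) → Γ × ι | (l 0).1 = 1}, Q.wt χ l * F (fun k => (l k).1)| ≤ B) :
    svX C ≤ ENNReal.ofReal B := by
  classical
  have : ContinuousConstSMul Γ X := ⟨C.cont⟩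
  refine ENNReal.le_of_forall_pos_le_add fun δ hδ _ => ?_
  have hδ2 : (0 : ℝ) < (δ : ℝ) := by positivity
  obtain ⟨ι', _, P₀, q, S, hq, hinj, hvert, hfund⟩ := Vale.Agent.P223.X.fund n M X Γ I C χ hn hχ
  set T : Set (Fin (n + 1) → Γ × ι') := {l | (l 0).1 = 1} with hT
  set z₀ := ∑ᶠ l ∈ T, Finsupp.single (C.π.comp (S l)) (P₀.wt χ l) with hz₀
  have hfin := FinX.main n M X Γ I C χ ι' P₀
  -- the chain as a finitely supported function
  let a : (Fin (n + 1) → Γ × ι') →₀ ℝ := Finsupp.onFinset hfin.toFinset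
    (fun l => if (l 0).1 = 1 then P₀.wt χ l else 0) (by
      intro l hl
      rw [Set.Finite.mem_toFinset]
      by_cases h : (l 0).1 = 1
      · rw [if_pos h] at hl; exact ⟨h, hl⟩
      · rw [if_neg h] at hl; exact absurd rfl hl)
  have ha : ∀ l, a l = if (l 0).1 = 1 then P₀.wt χ l else 0 := fun l => rfl
  have ha1 : ∀ l ∈ T, P₀.wt χ l = a l := fun l hl => (if_pos hl).symm
  have ha0 : ∀ l, l ∉ T → a l = 0 := fun l hl => if_neg hl
  have haw : ∀ l ∈ a.support, P₀.wt χ l ≠ 0 := by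
    intro l hl h
    rw [Finsupp.mem_support_iff, ha, h, ite_self] at hl
    exact hl rfl
  have hz : z₀ = a.sum fun l r => Finsupp.single (C.π.comp (S l)) r :=
    Vale.Agent.P223.X.Main.finsum_eq T _ a (fun l r => Finsupp.single (C.π.comp (S l)) r) ha0
      (fun l => Finsupp.single_zero _) fun l hl => by rw [ha1 l hl]
  have key : ∀ c : Chain (n + 1) M →ₗ[ℝ] ℝ, (∀ σ, |c (Finsupp.single σ 1)| ≤ 1) →
      (∀ w, c (bd (n + 1) w) = 0) → |c z₀| ≤ B := by
    intro c hc1 hc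
    obtain ⟨F, hF1, hFi, hFc, hF⟩ := MT.mt M X Γ C.π C.orb hinf n c hn hc1 hc
    have h1 := hF ι' q (fun i j ⟨γ, h⟩ => (hq i j γ h).1) a S (fun l hl => hinj l (haw l hl))
      (fun l hl i => hvert l (haw l hl) i) (by rw [← hz]; exact hfund.1) (fun β hβ => by
        rw [← Form.mainA n M X Γ I C χ hn hχ ι' P₀ β hβ]
        exact (Vale.Agent.P223.X.Main.finsum_eq T _ a
          (fun l r => r * ∑ i : Fin (n + 1), (-1 : ℝ) ^ (i : ℕ) * β (l ∘ i.succAbove)) ha0
          (fun l => zero_mul _) fun l hl => by rw [ha1 l hl]).symm)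
    rw [hz, h1]
    have h2 := Form.main n M X Γ I C χ F hn hχ hFi hFc ι' ι P₀ Q
    have h3 : (a.sum fun l r => r * F fun i => (l i).1) =
        ∑ᶠ l ∈ T, P₀.wt χ l * F fun k => (l k).1 :=
      (Vale.Agent.P223.X.Main.finsum_eq T _ a (fun l r => r * F fun i => (l i).1) ha0 (fun l => zero_mul _)
        fun l hl => by rw [ha1 l hl]).symm
    rw [h3, h2, ← pair_altF hn hχ Q F hFi]
    exact h _ (cocG_altF hF1 hFi hFc)
  obtain ⟨w, hw⟩ := MT.dual M n z₀ B key δ hδ2
  have h1 : svX C ≤ ENNReal.ofReal (l1 (z₀ + bd (n + 1) w)) :=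
    iInf₂_le _ (Vale.Agent.P223.X.Main.isFund_add hfund w)
  calc svX C ≤ _ := h1
    _ ≤ ENNReal.ofReal (B + δ) := ENNReal.ofReal_le_ofReal hw
    _ = ENNReal.ofReal B + δ := by
      rw [ENNReal.ofReal_add hB hδ2.le, ENNReal.ofReal_coe_nnreal]

theorem specEndB : SpecEndB := fun _ _ _ _ _ _ _ _ _ _ _ _ _ C _ hn hχ hinf _ _ P _ hB h =>
  svX_le C hn hinf hχ P hB h

end Vale.Agent.P223.H66
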