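import Mathlib

/-! P223, index theory paired with bounded cocycles: abstract part.

`X` is a measure space with an action of a countable group `Γ`, `A` is a finite dimensional normed
algebra, kernels are functions `K : X → X → A`. -/

namespace Vale.Agent.P223.H66

open MeasureTheory
open scoped ENNReal

section defs

variable {X A : Type} [MeasurableSpace X] [NormedRing A] [NormedAlgebra ℝ A]

/-- composition of kernels -/
noncomputable def comp (μ : Measure X) (K L : X → X → A) (x z : X) : A :=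
  ∫ y, K x y * L y z ∂μ

/-- action of a kernel on a function -/
noncomputable def act (μ : Measure X) (K : X → X → A) (f : X → A) (x : X) : A :=
  ∫ y, K x y * f y ∂μ

/-- all rows and columns of the kernel have `L^p` norm at most `B` -/
structure Nb (μ : Measure X) (p : ℝ) (B : ℝ≥0∞) (K : X → X → A) : Prop where
  row : ∀ x, (∫⁻ y, ‖K x y‖ₑ ^ p ∂μ) ^ (1 / p) ≤ B
  col : ∀ y, (∫⁻ x, ‖K x y‖ₑ ^ p ∂μ) ^ (1 / p) ≤ B

/-- the exponent `(n + 1) / n` -/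
noncomputable def ex (n : ℕ) : ℝ := ((n : ℝ) + 1) / n

/-- `B` bounds the kernel in the norms `1` and `(n + 1) / n`. -/
structure Ker (n : ℕ) (μ : Measure X) (B : ℝ≥0∞) (K : X → X → A) : Prop where
  meas : StronglyMeasurable (Function.uncurry K)
  one : Nb μ 1 B K
  two : Nb μ (ex n) B K

/-- equality almost everywhere on `X × X` -/
def Eae (μ : Measure X) (K L : X → X → A) : Prop :=
  ∀ᵐ z ∂(μ.prod μ), K z.1 z.2 = L z.1 z.2

/-- the cyclic product `K_0(x_0,x_1) K_1(x_1,x_2) ⋯ K_n(x_n,x_0)` -/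
noncomputable def cyc {n : ℕ} (K : Fin (n + 1) → X → X → A) (x : Fin (n + 1) → X) : A :=
  (List.ofFn fun i => K i (x i) (x (i + 1))).prod

/-- `∫ w(x_0) c(x) tr (Ω K_0(x_0,x_1) ⋯ K_n(x_n,x_0)) dx` -/
noncomputable def TT {n : ℕ} (μ : Measure X) (w : X → ℝ) (tr : A →L[ℝ] ℝ) (Ω : A)
    (c : (Fin (n + 1) → X) → ℝ) (K : Fin (n + 1) → X → X → A) : ℝ :=
  ∫ x, w (x 0) * c x * tr (Ω * cyc K x) ∂(Measure.pi fun _ : Fin (n + 1) => μ)

end defs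

section

variable (X Γ : Type) [MeasurableSpace X] [Group Γ] [MulAction Γ X]

/-- The action: measurable, measure preserving; `w` is a nonnegative integrable function whose
translates have sum `1`. -/
structure Actn (μ : Measure X) (w : X → ℝ) : Prop where
  cnt : Countable Γ
  meas : ∀ γ : Γ, Measurable fun x : X => γ • x
  pres : ∀ γ : Γ, MeasurePreserving (fun x : X => γ • x) μ μ
  wmeas : Measurable w
  wpos : ∀ x, 0 ≤ w x
  wint : ∫⁻ x, ENNReal.ofReal (w x) ∂μ ≠ ∞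
  wsum : ∀ x, HasSum (fun γ : Γ => w (γ • x)) 1

variable {X}

/-- bounded alternating invariant cocycles (Alexander-Spanier) on `X` -/
structure Coc (n : ℕ) (c : (Fin (n + 1) → X) → ℝ) : Prop where
  meas : Measurable c
  bdd : ∃ B, ∀ x, |c x| ≤ B
  inv : ∀ (γ : Γ) x, c (fun i => γ • x i) = c x
  alt : ∀ (σ : Equiv.Perm (Fin (n + 1))) x, c (x ∘ σ) = (Equiv.Perm.sign σ : ℤ) * c x
  coc : ∀ x : Fin (n + 2) → X, ∑ k : Fin (n + 2), (-1 : ℝ) ^ (k : ℕ) * c (x ∘ k.succAbove) = 0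

end

section

variable {X Γ A : Type} [MeasurableSpace X] [Group Γ] [MulAction Γ X] [NormedRing A]
  [NormedAlgebra ℝ A]

/-- equivariance up to signs -/
def Equi (u : Γ → X → ℝ) (K : X → X → A) : Prop :=
  ∀ (γ : Γ) x y, K (γ • x) (γ • y) = (u γ x * u γ y) • K x y

/-- the algebraic data: a trace `tr`, `ε² = 1`, `Ω ε = (-1)^n ε Ω` -/
structure Alg (n : ℕ) (tr : A →L[ℝ] ℝ) (Ω ε : A) : Prop where
  comm : ∀ a b, tr (a * b) = tr (b * a)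
  sq : ε * ε = 1
  par : Ω * ε = (-1 : ℝ) ^ n • (ε * Ω)

end

/-- BLOCK ALG. Invariance of the pairing. `R l` plays the role of `(D + l ε)⁻¹`. -/
def SpecALG : Prop := ∀ (n : ℕ) (X Γ A : Type) [MeasurableSpace X] [Group Γ] [MulAction Γ X]
  [NormedRing A] [NormedAlgebra ℝ A] [FiniteDimensional ℝ A] (μ : Measure X) [SigmaFinite μ]
  (w : X → ℝ) (c : (Fin (n + 1) → X) → ℝ) (tr : A →L[ℝ] ℝ) (Ω ε : A) (u : Γ → X → ℝ)
  (R : ℝ → X → X → A) (a b : ℝ) (B : ℝ≥0∞), 1 ≤ n → 0 < a → a ≤ b → B ≠ ∞ →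
  Actn X Γ μ w → Coc Γ n c → Alg n tr Ω ε → (∀ γ x, u γ x * u γ x = 1) →
  (∀ l, a ≤ l → l ≤ b → Ker n μ B (R l)) →
  (∀ l, a ≤ l → l ≤ b → Equi u (R l)) →
  (∀ l, a ≤ l → l ≤ b → ∀ x y, Ω * R l x y = (-1 : ℝ) ^ n • (R l x y * Ω)) →
  (∀ l m, a ≤ l → l ≤ b → a ≤ m → m ≤ b →
    Eae μ (fun x y => R l x y - R m x y) fun x y => (m - l) • comp μ (R l) (fun x y => ε * R m x y) x y) →
  (∀ l, a ≤ l → l ≤ b →
    Eae μ (fun x y => ε * R l x y + R l x y * ε) fun x y => (2 * l) • comp μ (R l) (R l) x y) →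
  a ^ (n + 1) * TT μ w tr Ω c (fun _ => R a) = b ^ (n + 1) * TT μ w tr Ω c (fun _ => R b)

/-! ## partitions of unity -/

section

variable {X Γ ι A : Type} [MeasurableSpace X] [Group Γ] [MulAction Γ X] [NormedRing A]
  [NormedAlgebra ℝ A]

/-- `a l`, `l ∈ Γ × ι`, is an equivariant, uniformly locally finite partition of unity on `X` and
`a' l : X → A` are its derivatives. -/
structure Pou (a : Γ × ι → X → ℝ) (a' : Γ × ι → X → A) : Prop where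
  meas : ∀ l, Measurable (a l)
  meas' : ∀ l, StronglyMeasurable (a' l)
  bdd : ∃ B, ∀ l x, |a l x| ≤ B ∧ ‖a' l x‖ ≤ B
  fin : ∃ m : ℕ, ∀ x, {l | a l x ≠ 0 ∨ a' l x ≠ 0}.Finite ∧
    {l | a l x ≠ 0 ∨ a' l x ≠ 0}.ncard ≤ m
  sum : ∀ x, ∑ᶠ l, a l x = 1
  inv : ∀ (γ : Γ) l x, a (γ * l.1, l.2) (γ • x) = a l x
  inv' : ∀ (γ : Γ) l x, a' (γ * l.1, l.2) (γ • x) = a' l x

/-- bounded alternating invariant cocycles on `Γ` -/
structure CocG (Γ : Type) [Group Γ] (n : ℕ) (F : (Fin (n + 1) → Γ) → ℝ) : Prop where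
  bdd : ∀ g, |F g| ≤ 1
  inv : ∀ (γ : Γ) g, F (fun i => γ * g i) = F g
  alt : ∀ (σ : Equiv.Perm (Fin (n + 1))) g, F (g ∘ σ) = (Equiv.Perm.sign σ : ℤ) * F g
  coc : ∀ g : Fin (n + 2) → Γ, ∑ k : Fin (n + 2), (-1 : ℝ) ^ (k : ℕ) * F (g ∘ k.succAbove) = 0

/-- `c(x) = ∑_l F(l) ∏ a_{l_i}(x_i)` -/
noncomputable def cF {n : ℕ} (F : (Fin (n + 1) → Γ) → ℝ) (a : Γ × ι → X → ℝ)
    (x : Fin (n + 1) → X) : ℝ :=
  ∑ᶠ l : Fin (n + 1) → Γ × ι, F (fun i => (l i).1) * ∏ i, a (l i) (x i)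

/-- `a'_{l_1}(x_1) K(x_1,x_2) a'_{l_2}(x_2) K(x_2,x_3) ⋯ a'_{l_n}(x_n) K(x_n,x_0)` -/
noncomputable def chn {n : ℕ} (K : X → X → A) (a' : Γ × ι → X → A) (l : Fin (n + 1) → Γ × ι)
    (x : Fin (n + 1) → X) : A :=
  (List.ofFn fun i : Fin n => a' (l i.succ) (x i.succ) * K (x i.succ) (x (i.succ + 1))).prod

/-- `∑_l F(l) ∫ w(x_0) a_{l_0}(x_0) tr (Ω K(x_0,x_1) a'_{l_1}(x_1) G(x_1,x_2) ⋯ G(x_n,x_0)) dx` -/
noncomputable def TA {n : ℕ} (μ : Measure X) (w : X → ℝ) (tr : A →L[ℝ] ℝ) (Ω : A)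
    (F : (Fin (n + 1) → Γ) → ℝ) (a : Γ × ι → X → ℝ) (a' : Γ × ι → X → A) (K G : X → X → A) : ℝ :=
  ∫ x, w (x 0) * ∑ᶠ l : Fin (n + 1) → Γ × ι, F (fun i => (l i).1) * a (l 0) (x 0) *
    tr (Ω * (K (x 0) (x 1) * chn G a' l x)) ∂(Measure.pi fun _ : Fin (n + 1) => μ)

end

/-- BLOCK COC : `cF` is a bounded alternating invariant cocycle on `X`. -/
def SpecCOC : Prop := ∀ (n : ℕ) (X Γ ι A : Type) [MeasurableSpace X] [Group Γ] [MulAction Γ X]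
  [Countable Γ] [Finite ι] [NormedRing A] [NormedAlgebra ℝ A]
  (a : Γ × ι → X → ℝ) (a' : Γ × ι → X → A) (F : (Fin (n + 1) → Γ) → ℝ),
  Pou a a' → CocG Γ n F → Coc Γ n (cF F a : (Fin (n + 1) → X) → ℝ)

/-- BLOCK CONV : conversion. `R = (D + l ε)⁻¹`, `[R, a] = - R a' R`. -/
def SpecCONV : Prop := ∀ (n : ℕ) (X Γ ι A : Type) [MeasurableSpace X] [Group Γ] [MulAction Γ X]
  [Countable Γ] [Finite ι] [NormedRing A] [NormedAlgebra ℝ A] [FiniteDimensional ℝ A]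
  (μ : Measure X) [SigmaFinite μ] (w : X → ℝ) (F : (Fin (n + 1) → Γ) → ℝ)
  (tr : A →L[ℝ] ℝ) (Ω ε : A) (u : Γ → X → ℝ) (a : Γ × ι → X → ℝ) (a' : Γ × ι → X → A)
  (R : X → X → A) (B : ℝ≥0∞), 1 ≤ n → B ≠ ∞ → Actn X Γ μ w → CocG Γ n F → Alg n tr Ω ε →
  (∀ γ x, u γ x * u γ x = 1) → Pou a a' → Ker n μ B R → Equi u R →
  (∀ l, Eae μ (fun x y => (a l y - a l x) • R x y)
    fun x y => - comp μ R (fun x y => a' l x * R x y) x y) →
  TT μ w tr Ω (cF F a) (fun _ => R) =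
    (-1 : ℝ) ^ n * TA μ w tr Ω F a a' R (comp μ R R)

/-! ## Dirac operators (abstract) -/

section

variable {X A : Type} [MeasurableSpace X] [NormedRing A] [NormedAlgebra ℝ A]

/-- `dm` is a space of functions (smooth sections with compact support), `D` a linear operator on
it, which anticommutes with `ε`, `ε² = 1`. -/
structure Dir (μ : Measure X) (dm : Set (X → A)) (D : (X → A) → X → A) (ε : A) : Prop where
  meas : ∀ f ∈ dm, StronglyMeasurable f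
  integ : ∀ f ∈ dm, Integrable f μ
  bdd : ∀ f ∈ dm, ∃ B, ∀ x, ‖f x‖ ≤ B
  add : ∀ f ∈ dm, ∀ g ∈ dm, f + g ∈ dm
  smul : ∀ (r : ℝ), ∀ f ∈ dm, r • f ∈ dm
  D_mem : ∀ f ∈ dm, D f ∈ dm
  D_add : ∀ f ∈ dm, ∀ g ∈ dm, D (f + g) = D f + D g
  D_smul : ∀ (r : ℝ), ∀ f ∈ dm, D (r • f) = r • D f
  sq : ε * ε = 1
  eps_mem : ∀ f ∈ dm, (fun x => ε * f x) ∈ dm
  D_eps : ∀ f ∈ dm, D (fun x => ε * f x) = fun x => -(ε * D f x)

/-- `st` is an isometric linear anti-involution, and `tr (st a * b)` is the inner product which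
gives the norm of `A`. -/
structure Star (tr : A →L[ℝ] ℝ) (st : A →ₗ[ℝ] A) : Prop where
  st_st : ∀ a, st (st a) = a
  st_mul : ∀ a b, st (a * b) = st b * st a
  tr_comm : ∀ a b, tr (a * b) = tr (b * a)
  tr_st : ∀ a, tr (st a) = tr a
  norm_sq : ∀ a, tr (st a * a) = ‖a‖ ^ 2

/-- `D` is symmetric, `st ε = ε` -/
structure Symm (μ : Measure X) (dm : Set (X → A)) (D : (X → A) → X → A) (ε : A)
    (tr : A →L[ℝ] ℝ) (st : A →ₗ[ℝ] A) : Prop where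
  st_eps : st ε = ε
  sym : ∀ f ∈ dm, ∀ g ∈ dm, ∫ x, tr (st (f x) * D g x) ∂μ = ∫ x, tr (st (D f x) * g x) ∂μ

/-- `R = (D + l ε)⁻¹` (note that `(D + l ε)² = D² + l²`). -/
structure Res (n : ℕ) (μ : Measure X) (dm : Set (X → A)) (D : (X → A) → X → A) (ε : A) (l : ℝ)
    (B : ℝ≥0∞) (R : X → X → A) : Prop where
  ker : Ker n μ B R
  left : ∀ f ∈ dm, act μ R (fun x => D f x + l • (ε * f x)) =ᵐ[μ] f
  dense : ∀ f : X → A, Integrable f μ → ∀ δ : ℝ, 0 < δ → ∃ φ ∈ dm,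
    ∫ x, ‖f x - (D (D φ) x + l ^ 2 • φ x)‖ ∂μ ≤ δ

end

/-- BLOCK RES1 : resolvent identity and square relation -/
def SpecRES1 : Prop := ∀ (n : ℕ) (X A : Type) [MeasurableSpace X] [NormedRing A]
  [NormedAlgebra ℝ A] [FiniteDimensional ℝ A] (μ : Measure X) [SigmaFinite μ] (dm : Set (X → A))
  (D : (X → A) → X → A) (ε : A) (l m : ℝ) (B : ℝ≥0∞) (R S : X → X → A), 1 ≤ n → B ≠ ∞ →
  Dir μ dm D ε → Res n μ dm D ε l B R → Res n μ dm D ε m B S →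
  Eae μ (fun x y => R x y - S x y) (fun x y => (m - l) • comp μ R (fun x y => ε * S x y) x y) ∧
  Eae μ (fun x y => ε * R x y + R x y * ε) (fun x y => (2 * l) • comp μ R R x y)

/-- BLOCK RES2 : commutators with functions, and with elements `k` of `A` which (anti)commute with
`D` and `ε`. -/
def SpecRES2 : Prop := ∀ (n : ℕ) (X A : Type) [MeasurableSpace X] [NormedRing A]
  [NormedAlgebra ℝ A] [FiniteDimensional ℝ A] (μ : Measure X) [SigmaFinite μ] (dm : Set (X → A))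
  (D : (X → A) → X → A) (ε : A) (l : ℝ) (B : ℝ≥0∞) (R : X → X → A), 1 ≤ n → B ≠ ∞ →
  Dir μ dm D ε → Res n μ dm D ε l B R →
  (∀ (a : X → ℝ) (a' : X → A), Measurable a → StronglyMeasurable a' →
    (∃ b, ∀ x, |a x| ≤ b ∧ ‖a' x‖ ≤ b) → (∀ f ∈ dm, (fun x => a x • f x) ∈ dm) →
    (∀ f ∈ dm, D (fun x => a x • f x) = fun x => a x • D f x + a' x * f x) →
    Eae μ (fun x y => (a y - a x) • R x y) fun x y => - comp μ R (fun x y => a' x * R x y) x y) ∧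
  (∀ (k : A), (∀ f ∈ dm, (fun x => k * f x) ∈ dm) →
    (∀ f ∈ dm, D (fun x => k * f x) = fun x => k * D f x) → k * ε = -(ε * k) →
    Eae μ (fun x y => k * (R x y - l • (ε * comp μ R R x y)))
      (fun x y => (R x y - l • (ε * comp μ R R x y)) * k) ∧
    Eae μ (fun x y => k * comp μ R R x y) (fun x y => comp μ R R x y * k))

/-- BLOCK RES3 : symmetry -/
def SpecRES3 : Prop := ∀ (n : ℕ) (X A : Type) [MeasurableSpace X] [NormedRing A]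
  [NormedAlgebra ℝ A] [FiniteDimensional ℝ A] (μ : Measure X) [SigmaFinite μ] (dm : Set (X → A))
  (D : (X → A) → X → A) (ε : A) (tr : A →L[ℝ] ℝ) (st : A →ₗ[ℝ] A) (l : ℝ) (B : ℝ≥0∞)
  (R : X → X → A), 1 ≤ n → B ≠ ∞ → Dir μ dm D ε → Star tr st → Symm μ dm D ε tr st →
  Res n μ dm D ε l B R → Eae μ R fun x y => st (R y x)

/-- BLOCK EXT : extension to small `l` if `D² ≥ s > 0` on `L¹` (positive scalar curvature). -/
def SpecEXT : Prop := ∀ (n : ℕ) (X A : Type) [MeasurableSpace X] [NormedRing A]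
  [NormedAlgebra ℝ A] [FiniteDimensional ℝ A] (μ : Measure X) [SigmaFinite μ] (dm : Set (X → A))
  (D : (X → A) → X → A) (ε : A) (tr : A →L[ℝ] ℝ) (st : A →ₗ[ℝ] A) (m s : ℝ) (B : ℝ≥0∞)
  (S : X → X → A), 1 ≤ n → B ≠ ∞ → 0 < m →
  0 < s → Dir μ dm D ε → Star tr st → Symm μ dm D ε tr st → Res n μ dm D ε m B S →
  (∀ f ∈ dm, (m ^ 2 + s) * ∫ x, ‖f x‖ ∂μ ≤ ∫ x, ‖D (D f) x + m ^ 2 • f x‖ ∂μ) →
  ∃ (B' : ℝ≥0∞) (R : ℝ → X → X → A), B' ≠ ∞ ∧ R m = S ∧ (∀ l, 0 < l → l ≤ m →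
    Res n μ dm D ε l B' (R l)) ∧
  (∀ (Γ : Type) [Group Γ] [MulAction Γ X] (u : Γ → X → ℝ),
    (∀ γ : Γ, MeasurePreserving (fun x : X => γ • x) μ μ) → (∀ γ x, u γ x * u γ x = 1) →
    (∀ γ : Γ, Measurable (u γ)) → Equi u S → ∀ l, 0 < l → l ≤ m → Equi u (R l)) ∧
  (∀ (Ω : A), Ω * ε = (-1 : ℝ) ^ n • (ε * Ω) → (∀ x y, Ω * S x y = (-1 : ℝ) ^ n • (S x y * Ω)) →
    ∀ l, 0 < l → l ≤ m → ∀ x y, Ω * R l x y = (-1 : ℝ) ^ n • (R l x y * Ω))

end Vale.Agent.P223.H66
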