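import Vale.Agent.P223.H441.Final
import Vale.Agent.P223.H440.KerX
import Vale.Agent.P223.H66.S3
import Vale.Agent.P223.H66.EndB

/-! Stage 2 : the final theorem, from the blocks. -/

namespace Vale.Agent.P223.H66

open scoped ContDiff InnerProductSpace ENNReal
open MeasureTheory Vale.Agent.P223.H Vale.Agent.P223.X Vale.Agent.P223.H566

/-- all blocks -/
structure Blk3 : Prop where
  v : SpecV
  scl : SpecScl
  cf : SpecCf
  yc : SpecYc
  dev : SpecDev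
  sob : SpecSob
  f2 : SpecF2
  uy : SpecUY
  uv : SpecUV
  ul : SpecUL

section
variable {n : ℕ}

/-- the constant of the volume form -/
def IsA (n : ℕ) (A : ℝ) : Prop := 0 < A ∧
  ∀ (M X Γ I : Type) [TopologicalSpace M] [TopologicalSpace X]
  [Group Γ] [MulAction Γ X] [Fintype I] [T2Space X] [ConnectedSpace X] [T2Space M]
  [MeasurableSpace X] [BorelSpace X] (C : Cov n M X Γ I)
  (G : I → E n → Matrix (Fin n) (Fin n) ℝ)
  (_ : SpX C G (H441.Kex n)) (μ : Measure X) (ι : Type) [Fintype ι] (P : PUX C ι)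
  (χ : I → E n → ℝ) (y : ℝ) (F : (Fin (n + 1) → Γ) → ℝ),
  (∀ i, C.Ck ∞ (P.φ i)) → VolX C G μ → Part C χ → 0 < y → ScGe G 1 →
  SobX C G μ (1 / 4) (1 / 4) y → Coc F →
  |∑ᶠ l ∈ {l : Fin (n + 1) → Γ × ι | (l 0).1 = 1}, P.wt χ l * F (fun k => (l k).1)| ≤
    A * y ^ (-(n : ℝ) / 2) * Vl G χ

theorem exists_A (hb : Blk3) (hn : 3 ≤ n) : ∃ A, IsA n A := by
  obtain ⟨A, hA, h⟩ := hb.v n (Module.finrank ℂ (H441.Sp n)) hn
    (Nat.pos_of_ne_zero H441.finrank_Sp)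
  exact ⟨A, hA, fun M X Γ I _ _ _ _ _ _ _ _ _ _ C G S μ ι _ P χ y F =>
    h M X Γ I (H441.Sp n) C G (H441.Kex n) S μ ι P χ y F rfl⟩

section cov
variable {M X Γ I : Type} [TopologicalSpace M] [TopologicalSpace X] [Group Γ] [MulAction Γ X]
  [Fintype I] [T2Space X] [SimplyConnectedSpace X] [T2Space M]
  [MeasurableSpace X] [BorelSpace X] {C : Cov n M X Γ I}
  {G : I → E n → Matrix (Fin n) (Fin n) ℝ} {χ : I → E n → ℝ}

theorem Vl_nonneg (hχ : Part C χ) : 0 ≤ Vl G χ := by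
  refine Finset.sum_nonneg fun i _ => integral_nonneg fun y => ?_
  exact mul_nonneg (hχ.nonneg i y) (Real.sqrt_nonneg _)

/-- volume form, `Scal ≥ -1` -/
theorem svX_one {A : ℝ} (hA : IsA n A) (hn : 3 ≤ n) (hinf : ∃ s : ℕ → X, MT.Dist Γ s)
    (S : SpX C G (H441.Kex n)) {μ : Measure X} (hμ : VolX C G μ) (hχ : Part C χ) {y : ℝ}
    (hy : 0 < y) (hs : ScGe G 1) (hsob : SobX C G μ (1 / 4) (1 / 4) y) :
    svX C ≤ ENNReal.ofReal (A * y ^ (-(n : ℝ) / 2) * Vl G χ) := by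
  obtain ⟨Q, -, hQ⟩ := H765.exists_pus C hχ
  have h0 : 0 ≤ A * y ^ (-(n : ℝ) / 2) * Vl G χ :=
    mul_nonneg (mul_nonneg hA.1.le (Real.rpow_nonneg hy.le _)) (Vl_nonneg hχ)
  exact specEndB n M X Γ I C χ (by omega) hχ hinf I Q _ h0 fun F hF =>
    hA.2 M X Γ I C G S μ I Q χ y F hQ hμ hχ hy hs hsob hF

/-- volume form -/
theorem svX_vol (hb : Blk3) {A : ℝ} (hA : IsA n A) (hn : 3 ≤ n)
    (hinf : ∃ s : ℕ → X, MT.Dist Γ s) (hG : MetX C G)
    (hS : ∀ G', MetX C G' → Nonempty (SpX C G' (H441.Kex n))) {μ : Measure X} (hμ : VolX C G μ)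
    (hχ : Part C χ) {y κ : ℝ} (hy : 0 < y) (hκ : 0 < κ) (hs : ScGe G κ)
    (hsob : SobX C G μ (1 / 4) (κ / 4) y) :
    svX C ≤ ENNReal.ofReal (A * (κ / y) ^ ((n : ℝ) / 2)) * ENNReal.ofReal (Vl G χ) := by
  obtain ⟨μ', h1, h2, h3, h4, h5⟩ := hb.scl n M X Γ I C G χ μ κ y hn hG hμ hκ hs hsob
  obtain ⟨S⟩ := hS _ h1
  have h6 := svX_one hA hn hinf S h2 hχ hy h3 h4
  rw [h5] at h6
  refine h6.trans (le_of_eq ?_)
  rw [← ENNReal.ofReal_mul (mul_nonneg hA.1.le (Real.rpow_nonneg (div_pos hκ hy).le _)),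
    Real.div_rpow hκ.le hy.le, neg_div, Real.rpow_neg hy.le]
  congr 1
  ring

end cov

section man
variable {M : Type} [TopologicalSpace M] [CompactSpace M] [T2Space M] [ConnectedSpace M]
  [MeasurableSpace M] [BorelSpace M] {c : M → J.Ch n M} {g : M → J.Mtx n}

/-- the hypothesis on spin structures -/
def HS (d : FinalM.Data c) : Prop :=
  ∀ G', MetX d.C G' → Nonempty (SpX d.C G' (H441.Kex n))

theorem scal_eq (hc : J.Atl c) (d : FinalM.Data c) (hg : J.Met c g) (i : d.I) (y : E n) :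
    H.scal (d.B.G g i) y = J.scal (g (d.C.π (d.C.ψ i y))) (c (d.C.π (d.C.ψ i y))
      (d.C.π (d.C.ψ i y))) := by
  have hu := Vale.Agent.P223.X.hu
  rw [← FinalM.scM_eq hu hc d hg, Final.scM_eq ((hu.met n M d.X d.Γ d.I c d.B d.C hc d.hCB).1 g hg)]

theorem scGe_of (hc : J.Atl c) (d : FinalM.Data c) (hg : J.Met c g) {κ : ℝ}
    (h : ∀ p, -κ ≤ J.scal (g p) (c p p)) : ScGe (d.B.G g) κ := fun i y => by
  rw [scal_eq hc d hg]
  exact h _

/-- volume form for manifolds -/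
theorem sv_vol (hb : Blk3) {A : ℝ} (hA : IsA n A) (hn : 3 ≤ n) (hc : J.Atl c)
    (d : FinalM.Data c) (hS : HS d) (hg : J.Met c g) {ν : Measure M} (hν : J.Vol c g ν)
    [MeasurableSpace d.X] [BorelSpace d.X] {μ : Measure d.X} (hμ : VolX d.C (d.B.G g) μ)
    {y κ : ℝ} (hy : 0 < y) (hκ : 0 < κ) (hs : ∀ p, -κ ≤ J.scal (g p) (c p p))
    (hsob : SobX d.C (d.B.G g) μ (1 / 4) (κ / 4) y) :
    J.sv c ≤ ENNReal.ofReal (A * (κ / y) ^ ((n : ℝ) / 2)) * ν Set.univ := by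
  have hu := Vale.Agent.P223.X.hu
  obtain ⟨χ, hχ⟩ := Vale.Agent.P223.X.hb.part n M d.X d.Γ d.I d.C
  have h1 := hu.sv n M d.X d.Γ d.I c d.B d.C hc d.hCB
  have h2 := svX_vol hb hA hn d.inf ((hu.met n M d.X d.Γ d.I c d.B d.C hc d.hCB).1 g hg) hS hμ hχ
    hy hκ (scGe_of hc d hg hs) hsob
  have h3 := hb.uv n M d.X d.Γ d.I c d.B d.C g ν χ hc d.hCB hg hν hχ
  exact h1.trans (h2.trans (by gcongr))

/-- integral form for manifolds -/
theorem sv_int (hb : Blk3) {A : ℝ} (hA : IsA n A) (hn : 3 ≤ n) (hc : J.Atl c)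
    (d : FinalM.Data c) (hS : HS d) (hg : J.Met c g) {ν : Measure M} (hν : J.Vol c g ν)
    [MeasurableSpace d.X] [BorelSpace d.X] {μ : Measure d.X} (hμ : VolX d.C (d.B.G g) μ)
    {y : ℝ} (hy : 0 < y) (hY : YamX d.C (d.B.G g) μ y) :
    J.sv c ≤ ENNReal.ofReal (A * y ^ (-(n : ℝ) / 2)) * J.L n ν (J.sn c g) := by
  have hu := Vale.Agent.P223.X.hu
  have hM := hu.met n M d.X d.Γ d.I c d.B d.C hc d.hCB
  set a : ℝ≥0∞ := ENNReal.ofReal (A * y ^ (-(n : ℝ) / 2)) with ha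
  have ha0 : a ≠ 0 := by
    rw [ha, Ne, ENNReal.ofReal_eq_zero, not_le]
    exact mul_pos hA.1 (Real.rpow_pos_of_pos hy _)
  have hat : a ≠ ⊤ := ENNReal.ofReal_ne_top
  have key : ∀ δ : ℝ≥0∞, 0 < δ → J.sv c ≤ a * (J.L n ν (J.sn c g) + δ) := by
    intro δ hδ
    obtain ⟨f, ν', hf, hν', hs, hv⟩ := hb.cf n M c g ν δ hn hc hg hν hδ
    obtain ⟨h1, h2, h3⟩ := hu.conf n M d.X d.Γ d.I c d.B d.C g f hc d.hCB hg hf
    have hm := hM.1 _ h1
    obtain ⟨-, ⟨μ', hμ'⟩, -⟩ := Vale.Agent.P223.X.hb.vol n M d.X d.Γ d.I d.C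
      (d.B.G (J.conf c f g)) hm
    have hY' : YamX d.C (d.B.G (J.conf c f g)) μ' y :=
      hb.yc n M d.X d.Γ d.I d.C (d.B.G g) (d.B.G (J.conf c f g)) μ μ' (fun x => f (d.C.π x)) y hn
        (hM.1 g hg) hμ hμ' h2
        (fun γ x => congrArg f ((d.C.orb _ _).2 ⟨γ⁻¹, inv_smul_smul γ x⟩)) h3 hY
    have hsc := scGe_of hc d h1 hs
    have h4 := H440.sobX_of_yam hm hμ' hn zero_le_one hsc hY'
    refine (sv_vol hb hA hn hc d hS h1 hν' hμ' hy one_pos hs h4).trans ?_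
    have h5 : A * (1 / y) ^ ((n : ℝ) / 2) = A * y ^ (-(n : ℝ) / 2) := by
      rw [one_div, Real.inv_rpow hy.le, neg_div, Real.rpow_neg hy.le]
    rw [h5]
    exact mul_le_mul_right hv _
  refine ENNReal.le_of_forall_pos_le_add fun ε hε _ => ?_
  have hε' : (0 : ℝ≥0∞) < ε / a := ENNReal.div_pos (by exact_mod_cast hε.ne') hat
  refine (key _ hε').trans (le_of_eq ?_)
  rw [mul_add, ENNReal.mul_div_cancel ha0 hat]

omit [CompactSpace M] [T2Space M] [ConnectedSpace M] [BorelSpace M] in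
/-- constant scalar curvature (or `Scal ≤ -s`) -/
theorem conf_le (hn : 3 ≤ n) (hc : J.Atl c) [CompactSpace M] [T2Space M] [ConnectedSpace M]
    [BorelSpace M] (g : M → J.Mtx n)
    (μ : Measure M) (hg : J.Met c g) (hμ : J.Vol c g μ) (s : ℝ) (hs : 0 < s)
    (h : ∀ p, J.scal (g p) (c p p) ≤ -s) (f : M → ℝ) (μ' : Measure M) (hf : J.Sm c f)
    (hμ' : J.Vol c (J.conf c f g) μ') :
    ENNReal.ofReal (s ^ ((n : ℝ) / 2)) * μ Set.univ ≤ J.L n μ' (J.sn c (J.conf c f g)) := by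
  have hu := Vale.Agent.P223.X.hu
  obtain ⟨d⟩ := FinalM.exists_data hu (by omega) c hc
  have hM := hu.met n M d.X d.Γ d.I c d.B d.C hc d.hCB
  have hV := hu.vol n M d.X d.Γ d.I c d.B d.C
  obtain ⟨h1, h2, h3⟩ := hu.conf n M d.X d.Γ d.I c d.B d.C g f hc d.hCB hg hf
  have hν' := hV (J.conf c f g) μ' hc d.hCB h1 hμ'
  rw [h3] at hν'
  have h4 := Vale.Agent.P223.X.hb.conf n M d.X d.Γ d.I d.C (d.B.G g) μ μ' s
    (fun x => f (d.C.π x)) hn (hM.1 g hg) (hV g μ hc d.hCB hg hμ) hs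
    (fun i y => by rw [scal_eq hc d hg]; exact h _) h2
    (fun γ x => congrArg f ((d.C.orb _ _).2 ⟨γ⁻¹, inv_smul_smul γ x⟩)) hν'
  rwa [← h3, FinalM.IS_eq hu hc d h1] at h4

theorem hS_of (hc : J.Atl c) (d : FinalM.Data c) (h : ∃ g₀, J.Met c g₀ ∧ J.CovSpin c g₀) :
    HS d := fun _ hG' => by
  obtain ⟨g₀, hg₀, hS⟩ := h
  exact H441.exists_SpX_of_covSpin' hc d.hCB (H441.Kex n) hg₀ hS hG'

end man

end

/-- The final theorem, from the blocks. -/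
theorem final (hb : Blk3) (n : ℕ) (hn : 3 ≤ n) : ∃ A : ℝ, 0 < A ∧
    ∀ (M : Type) [TopologicalSpace M] [CompactSpace M] [T2Space M] [ConnectedSpace M]
      [MeasurableSpace M] [BorelSpace M] (c : M → J.Ch n M), J.Atl c →
      ∀ (g : M → J.Mtx n) (μ : Measure M), J.Met c g → J.Vol c g μ →
      (J.Lcf c g → J.sv c ≤ ENNReal.ofReal A * J.L n μ (J.sn c g)) ∧
      ((∃ g₀, J.Met c g₀ ∧ J.CovSpin c g₀) → ∀ y : ℝ, 0 < y →
        (J.UCSob c g (((n : ℝ) - 2) / (4 * (n - 1))) 0 y →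
          J.sv c ≤ ENNReal.ofReal (A * y ^ (-(n : ℝ) / 2)) * J.L n μ (J.sn c g)) ∧
        ∀ κ : ℝ, 0 < κ → (∀ p, -κ ≤ J.scal (g p) (c p p)) → J.UCSob c g (1 / 4) (κ / 4) y →
          J.sv c ≤ ENNReal.ofReal (A * (κ / y) ^ ((n : ℝ) / 2)) * μ Set.univ ∧
          ∀ s : ℝ, 0 < s → (∀ p, J.scal (g p) (c p p) ≤ -s) → ∀ (f : M → ℝ) (μ' : Measure M),
            J.Sm c f → J.Vol c (J.conf c f g) μ' →
            J.sv c ≤ ENNReal.ofReal (A * (κ / (s * y)) ^ ((n : ℝ) / 2)) *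
              J.L n μ' (J.sn c (J.conf c f g))) := by
  obtain ⟨A, hA⟩ := exists_A hb hn
  obtain ⟨y₁, hy₁, hsob⟩ := hb.sob n hn
  set r := y₁ ^ (-(n : ℝ) / 2) with hr
  have hr0 : 0 < r := Real.rpow_pos_of_pos hy₁ _
  have hAr : A * r ≤ A * max 1 r := mul_le_mul_of_nonneg_left (le_max_right _ _) hA.1.le
  have hA1 : A ≤ A * max 1 r := le_mul_of_one_le_right hA.1.le (le_max_left _ _)
  refine ⟨A * max 1 r, mul_pos hA.1 (lt_max_of_lt_left one_pos), ?_⟩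
  intro M _ _ _ _ _ _ c hc g ν hg hν
  have hu := Vale.Agent.P223.X.hu
  obtain ⟨d⟩ := FinalM.exists_data hu (by omega) c hc
  have hM := hu.met n M d.X d.Γ d.I c d.B d.C hc d.hCB
  have hm := hM.1 g hg
  let _ : MeasurableSpace d.X := borel d.X
  have : BorelSpace d.X := ⟨rfl⟩
  obtain ⟨-, ⟨μ, hμ⟩, -⟩ := Vale.Agent.P223.X.hb.vol n M d.X d.Γ d.I d.C (d.B.G g) hm
  refine ⟨fun hL => ?_, fun hS y hy => ⟨fun hY => ?_, fun κ hκ hs hY => ?_⟩⟩
  · have h1 := hb.ul n M d.X d.Γ d.I c d.B d.C g hc d.hCB hg hL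
    obtain ⟨D, t, h2⟩ := hb.dev n M d.X d.Γ d.I d.C (d.B.G g) hn hm h1
    have h3 := hsob M d.X d.Γ d.I d.C (d.B.G g) μ D t hm hμ h2
    have hS : HS d := fun G' hG' =>
      hb.f2 n M d.X d.Γ d.I (H441.Sp n) d.C (d.B.G g) (H441.Kex n) D t hn hm h2 G' hG'
    refine (sv_int hb hA hn hc d hS hg hν hμ hy₁ h3).trans ?_
    exact mul_le_mul_left (ENNReal.ofReal_le_ofReal hAr) _
  · have h1 := hb.uy n M d.X d.Γ d.I c d.B d.C g μ _ _ y hc d.hCB hg hμ hY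
    have h2 : YamX d.C (d.B.G g) μ y := by
      intro f hf
      refine (h1 f hf).trans (le_of_eq ?_)
      simp only [add_zero]
    refine (sv_int hb hA hn hc d (hS_of hc d hS) hg hν hμ hy h2).trans ?_
    refine mul_le_mul_left (ENNReal.ofReal_le_ofReal ?_) _
    exact mul_le_mul_of_nonneg_right hA1 (Real.rpow_nonneg hy.le _)
  · have h1 := hb.uy n M d.X d.Γ d.I c d.B d.C g μ _ _ y hc d.hCB hg hμ hY
    have h2 := sv_vol hb hA hn hc d (hS_of hc d hS) hg hν hμ hy hκ hs h1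
    have h3 : J.sv c ≤ ENNReal.ofReal (A * max 1 r * (κ / y) ^ ((n : ℝ) / 2)) * ν Set.univ :=
      h2.trans (mul_le_mul_left (ENNReal.ofReal_le_ofReal
        (mul_le_mul_of_nonneg_right hA1 (Real.rpow_nonneg (div_pos hκ hy).le _))) _)
    refine ⟨h3, fun s hs0 hs' f μ' hf hμ' => ?_⟩
    have h4 := conf_le hn hc g ν hg hν s hs0 hs' f μ' hf hμ'
    have h5 : A * max 1 r * (κ / y) ^ ((n : ℝ) / 2) =
        A * max 1 r * (κ / (s * y)) ^ ((n : ℝ) / 2) * s ^ ((n : ℝ) / 2) := by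
      rw [mul_assoc (A * max 1 r), ← Real.mul_rpow (by positivity) hs0.le]
      congr 2
      field_simp
    refine h3.trans ?_
    rw [h5, ENNReal.ofReal_mul (mul_nonneg (mul_pos hA.1 (lt_max_of_lt_left one_pos)).le
      (Real.rpow_nonneg (by positivity) _)), mul_assoc]
    exact mul_le_mul_right h4 _

end Vale.Agent.P223.H66
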