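import Vale.Agent.P223.X.SpecY
import Vale.Agent.P223.H66.Abs

/-! P223, index theory paired with bounded cocycles: spin geometry on the covering `X → M`. -/

namespace Vale.Agent.P223.H66

open MeasureTheory Vale.Agent.P223.H Vale.Agent.P223.X
open scoped ENNReal ContDiff

/-! ## Clifford data -/

/-- A finite dimensional algebra `A` with generators `g k` of the Clifford algebra of `ℝ^n`
(`g k ^ 2 = -1`), a grading operator `ε`, a volume element `Ω` (up to signs the inverse of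
`ε g_1 ⋯ g_n`) and an element `κ` which commutes with the `g k` and anticommutes with `ε`. -/
structure Clf (n : ℕ) (A : Type) [NormedRing A] [NormedAlgebra ℝ A] where
  tr : A →L[ℝ] ℝ
  st : A →ₗ[ℝ] A
  g : Fin n → A
  ε : A
  Ω : A
  κ : A
  N : ℝ
  star : Star tr st
  g_sq : ∀ i, g i * g i = -1
  g_anti : ∀ i j, i ≠ j → g i * g j = -(g j * g i)
  st_g : ∀ i, st (g i) = -g i
  ε_sq : ε * ε = 1
  st_ε : st ε = ε
  ε_g : ∀ i, ε * g i = -(g i * ε)
  Ω_g : ∀ i, Ω * g i = (-1 : ℝ) ^ n • (g i * Ω)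
  Ω_ε : Ω * ε = (-1 : ℝ) ^ n • (ε * Ω)
  κ_unit : IsUnit κ
  κ_g : ∀ i, κ * g i = g i * κ
  κ_ε : κ * ε = -(ε * κ)
  κ_Ω : κ * Ω = -(Ω * κ)
  N_ne : N ≠ 0
  vol : ∀ v : Fin n → Fin n → ℝ,
    tr (Ω * ε * (List.ofFn fun i => ∑ k, v i k • g k).prod) = N * (Matrix.of v).det

section
variable {n : ℕ} {A : Type} [NormedRing A] [NormedAlgebra ℝ A] (cl : Clf n A)

/-- Clifford multiplication by a vector -/
noncomputable def Clf.v (v : Fin n → ℝ) : A := ∑ k, v k • cl.g k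

/-- the spin group: products of an even number of unit vectors -/
def Clf.Spin : Submonoid A := Submonoid.closure
  {a | ∃ v w : Fin n → ℝ, ∑ k, v k ^ 2 = 1 ∧ ∑ k, w k ^ 2 = 1 ∧ a = cl.v v * cl.v w}

/-- Clifford multiplication by `dx^k`, in the frame `e` -/
noncomputable def Clf.up (e : E n → Matrix (Fin n) (Fin n) ℝ) (k : Fin n) (y : E n) : A :=
  ∑ a, e y k a • cl.g a

/-- Clifford multiplication by `∂_k` -/
noncomputable def Clf.dn (G e : E n → Matrix (Fin n) (Fin n) ℝ) (k : Fin n) (y : E n) : A :=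
  ∑ l, G y k l • cl.up e l y

/-- partial derivatives of `A`-valued functions -/
noncomputable def pA (k : Fin n) (s : E n → A) (y : E n) : A := fderiv ℝ s y (Pi.single k 1)

/-- the spin connection -/
noncomputable def Clf.cn (G e : E n → Matrix (Fin n) (Fin n) ℝ) (k : Fin n) (y : E n) : A :=
  -((1 / 4 : ℝ) • ∑ l, cl.dn G e l y * (pA k (cl.up e l) y + ∑ m, chr G y l k m • cl.up e m y))

/-- the covariant derivative -/
noncomputable def Clf.nb (G e : E n → Matrix (Fin n) (Fin n) ℝ) (k : Fin n) (s : E n → A)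
    (y : E n) : A := pA k s y + cl.cn G e k y * s y

/-- the Dirac operator on `ℝ^n` with the metric `G` and the orthonormal frame `e` -/
noncomputable def Clf.dir (G e : E n → Matrix (Fin n) (Fin n) ℝ) (s : E n → A) (y : E n) : A :=
  ∑ k, cl.up e k y * cl.nb G e k s y

end

/-! ## Spin structures on `X` -/

section
variable {n : ℕ} {M X Γ I A : Type} [TopologicalSpace M] [TopologicalSpace X] [Group Γ]
    [MulAction Γ X] [NormedRing A] [NormedAlgebra ℝ A]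

/-- the point with coordinates `y` in the chart `a` of `X`, `a ∈ Γ × I` -/
def pt (C : Cov n M X Γ I) (a : Γ × I) (y : E n) : X := a.1 • C.ψ a.2 y

/-- the coordinates of `x` in the chart `a` -/
noncomputable def cx (C : Cov n M X Γ I) (a : Γ × I) (x : X) : E n := C.co a.2 (a.1⁻¹ • x)

/-- A spin structure on `X`, in terms of the charts of `M`: orthonormal frames `e i` and lifts
`σ i j γ` of the changes of frames (defined on `C.dom i j γ`) to the spin group. They form a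
cocycle up to signs `β γ' γ` (`β` is a cocycle of `Γ`). If `β = 1`, this is a spin structure
on `M`. -/
structure Spn (C : Cov n M X Γ I) (G : I → E n → Matrix (Fin n) (Fin n) ℝ) (cl : Clf n A) where
  e : I → E n → Matrix (Fin n) (Fin n) ℝ
  σ : I → I → Γ → E n → A
  β : Γ → Γ → ℝ
  e_smooth : ∀ i k a, ContDiff ℝ ∞ fun y => e i y k a
  e_orth : ∀ i y, (e i y).transpose * G i y * e i y = 1
  e_or : ∀ i y, 0 < (e i y).det
  σ_smooth : ∀ i j γ, ContDiffOn ℝ ∞ (σ i j γ) (C.dom i j γ)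
  σ_spin : ∀ i j γ, ∀ y ∈ C.dom i j γ, σ i j γ y ∈ cl.Spin
  σ_cov : ∀ i j γ, ∀ y ∈ C.dom i j γ, ∀ v w : Fin n → ℝ,
    fderiv ℝ (C.tr i j γ) y ((e i y).mulVec v) = (e j (C.tr i j γ y)).mulVec w →
    σ i j γ y * cl.v v = cl.v w * σ i j γ y
  β_sq : ∀ a b, β a b * β a b = 1
  β_one : ∀ a, β a 1 = 1 ∧ β 1 a = 1
  β_coc : ∀ a b c, β a b * β (a * b) c = β b c * β a (b * c)
  coc : ∀ i j k γ γ', ∀ y ∈ C.dom i j γ, C.tr i j γ y ∈ C.dom j k γ' →
    σ j k γ' (C.tr i j γ y) * σ i j γ y = β γ' γ • σ i k (γ' * γ) y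

/-- A measurable equivariant choice of a chart around each point of `X`. -/
structure Sel [MeasurableSpace X] (C : Cov n M X Γ I) (ix : X → Γ × I) : Prop where
  mem : ∀ x, ∃ y : E n, (∀ k, |y k| < 1) ∧ pt C (ix x) y = x
  meas : ∀ a, MeasurableSet {x | ix x = a}
  inv : ∀ (γ : Γ) x, ix (γ • x) = (γ * (ix x).1, (ix x).2)

variable {C : Cov n M X Γ I} {G : I → E n → Matrix (Fin n) (Fin n) ℝ} {cl : Clf n A}

/-- change of frames from the chart `a` to the chart `b` at the point `x` -/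
noncomputable def Spn.S (P : Spn C G cl) (a b : Γ × I) (x : X) : A :=
  P.β b.1 (b.1⁻¹ * a.1) • P.σ a.2 b.2 (b.1⁻¹ * a.1) (cx C a x)

/-- Spinors (with values in `A`) are functions `f : X → A`; the value at `x` refers to the frame of
the chart `ix x`. `P.loc ix a f` is `f` in the frame of the chart `a`. -/
noncomputable def Spn.loc (P : Spn C G cl) (ix : X → Γ × I) (a : Γ × I) (f : X → A) (y : E n) :
    A := P.S (ix (pt C a y)) a (pt C a y) * f (pt C a y)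

/-- smooth spinors with compact support -/
def Spn.dm (P : Spn C G cl) (ix : X → Γ × I) : Set (X → A) :=
  {f | (∀ a, ContDiff ℝ ∞ (P.loc ix a f)) ∧ ∃ K : Set X, IsCompact K ∧ ∀ x, x ∉ K → f x = 0}

/-- the Dirac operator -/
noncomputable def Spn.D (P : Spn C G cl) (ix : X → Γ × I) (f : X → A) (x : X) : A :=
  cl.dir (G (ix x).2) (P.e (ix x).2) (P.loc ix (ix x) f) (cx C (ix x) x)

/-- Clifford multiplication by the differential of a function -/
noncomputable def Spn.cd (P : Spn C G cl) (ix : X → Γ × I) (f : X → ℝ) (x : X) : A :=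
  ∑ k, pd k (C.rep f (ix x).1 (ix x).2) (cx C (ix x) x) • cl.up (P.e (ix x).2) k (cx C (ix x) x)

/-- the signs in the equivariance -/
def Spn.u (P : Spn C G cl) (ix : X → Γ × I) (γ : Γ) (x : X) : ℝ := P.β γ (ix x).1

end

/-- BLOCK SEL -/
def SpecSEL : Prop := ∀ (n : ℕ) (M X Γ I : Type) [TopologicalSpace M] [TopologicalSpace X]
  [Group Γ] [MulAction Γ X] [Fintype I] [T2Space X] [MeasurableSpace X] [BorelSpace X]
  (C : Cov n M X Γ I), ∃ ix, Sel C ix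

/-- BLOCK CLF -/
def SpecCLF : Prop := ∀ n : ℕ, ∃ (A : Type) (_ : NormedRing A) (_ : NormedAlgebra ℝ A)
  (_ : FiniteDimensional ℝ A), Nonempty (Clf n A)

/-- BLOCK GEO1 : the Dirac operator is independent of the frame. -/
def SpecGEO1 : Prop := ∀ (n : ℕ) (M X Γ I A : Type) [TopologicalSpace M] [TopologicalSpace X]
  [Group Γ] [MulAction Γ X] [Fintype I] [T2Space X] [MeasurableSpace X] [BorelSpace X]
  [NormedRing A] [NormedAlgebra ℝ A] [FiniteDimensional ℝ A] (C : Cov n M X Γ I)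
  (G : I → E n → Matrix (Fin n) (Fin n) ℝ) (cl : Clf n A) (P : Spn C G cl) (ix : X → Γ × I),
  MetX C G → Sel C ix →
  (∀ f ∈ P.dm ix, P.D ix f ∈ P.dm ix ∧
    ∀ a y, P.loc ix a (P.D ix f) y = cl.dir (G a.2) (P.e a.2) (P.loc ix a f) y) ∧
  (∀ f ∈ P.dm ix, ∀ h : X → ℝ, C.Ck ∞ h → (fun x => h x • f x) ∈ P.dm ix ∧
    P.D ix (fun x => h x • f x) = fun x => h x • P.D ix f x + P.cd ix h x * f x) ∧
  (∀ k : A, (∀ i, k * cl.g i = cl.g i * k) → ∀ f ∈ P.dm ix, (fun x => k * f x) ∈ P.dm ix ∧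
    P.D ix (fun x => k * f x) = fun x => k * P.D ix f x)

/-- BLOCK GEO2 : `D` is symmetric -/
def SpecGEO2 : Prop := ∀ (n : ℕ) (M X Γ I A : Type) [TopologicalSpace M] [TopologicalSpace X]
  [Group Γ] [MulAction Γ X] [Fintype I] [T2Space X] [ConnectedSpace X] [MeasurableSpace X]
  [BorelSpace X] [T2Space M] [NormedRing A] [NormedAlgebra ℝ A] [FiniteDimensional ℝ A]
  (C : Cov n M X Γ I) (G : I → E n → Matrix (Fin n) (Fin n) ℝ) (cl : Clf n A) (P : Spn C G cl)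
  (ix : X → Γ × I) (μ : Measure X), MetX C G → Sel C ix → VolX C G μ →
  Dir μ (P.dm ix) (P.D ix) cl.ε ∧ Symm μ (P.dm ix) (P.D ix) cl.ε cl.tr cl.st

/-- BLOCK GEO3 : Lichnerowicz formula and Kato inequality -/
def SpecGEO3 : Prop := ∀ (n : ℕ) (M X Γ I A : Type) [TopologicalSpace M] [TopologicalSpace X]
  [Group Γ] [MulAction Γ X] [Fintype I] [T2Space X] [ConnectedSpace X] [MeasurableSpace X]
  [BorelSpace X] [T2Space M] [NormedRing A] [NormedAlgebra ℝ A] [FiniteDimensional ℝ A]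
  (C : Cov n M X Γ I) (G : I → E n → Matrix (Fin n) (Fin n) ℝ) (cl : Clf n A) (P : Spn C G cl)
  (ix : X → Γ × I) (μ : Measure X) (m s : ℝ), MetX C G → Sel C ix → VolX C G μ →
  (∀ i y, 4 * s ≤ scal (G i) y) → 0 < m ^ 2 + s → ∀ f ∈ P.dm ix,
  (m ^ 2 + s) * ∫ x, ‖f x‖ ∂μ ≤ ∫ x, ‖P.D ix (P.D ix f) x + m ^ 2 • f x‖ ∂μ

/-- BLOCK LICH : Lichnerowicz formula on `ℝ^n` -/
def SpecLICH : Prop := ∀ (n : ℕ) (A : Type) [NormedRing A] [NormedAlgebra ℝ A]
  [FiniteDimensional ℝ A] (cl : Clf n A) (G e : E n → Matrix (Fin n) (Fin n) ℝ)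
  (s : E n → A), (∀ a b, ContDiff ℝ ∞ fun y => G y a b) → (∀ a b, ContDiff ℝ ∞ fun y => e y a b) →
  (∀ y, (G y).PosDef) → (∀ y, (e y).transpose * G y * e y = 1) → ContDiff ℝ ∞ s → ∀ y,
  cl.dir G e (cl.dir G e s) y = (scal G y / 4) • s y - ∑ k, ∑ l, (G y)⁻¹ k l •
    (cl.nb G e k (cl.nb G e l s) y - ∑ m, chr G y m k l • cl.nb G e m s y)

/-- BLOCK PAR : the resolvent for large `l` -/
def SpecPAR : Prop := ∀ (n : ℕ) (M X Γ I A : Type) [TopologicalSpace M] [TopologicalSpace X]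
  [Group Γ] [MulAction Γ X] [Fintype I] [T2Space X] [ConnectedSpace X] [MeasurableSpace X]
  [BorelSpace X] [T2Space M] [NormedRing A] [NormedAlgebra ℝ A] [FiniteDimensional ℝ A]
  (C : Cov n M X Γ I) (G : I → E n → Matrix (Fin n) (Fin n) ℝ) (cl : Clf n A) (P : Spn C G cl)
  (ix : X → Γ × I) (μ : Measure X), 1 ≤ n → MetX C G → Sel C ix → VolX C G μ →
  ∃ (m B : ℝ), 0 < m ∧ 0 < B ∧ ∃ R : ℝ → X → X → A, ∀ l, m ≤ l →
    Res n μ (P.dm ix) (P.D ix) cl.ε l (ENNReal.ofReal B) (R l) ∧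
    Equi (P.u ix) (R l) ∧ (∀ x y, cl.Ω * R l x y = (-1 : ℝ) ^ n • (R l x y * cl.Ω)) ∧
    Nb μ 1 (ENNReal.ofReal (B / l)) (R l) ∧
    Nb μ (ex n) (ENNReal.ofReal (B * l ^ (-(1 / ((n : ℝ) + 1))))) (R l)

/-- BLOCK LIM : the limit for `l → ∞`. -/
def SpecLIM : Prop := ∀ (n : ℕ) (A : Type) [NormedRing A] [NormedAlgebra ℝ A]
  [FiniteDimensional ℝ A] (cl : Clf n A), 1 ≤ n → ∃ c : ℝ, c ≠ 0 ∧
  ∀ (M X Γ I ι : Type) [TopologicalSpace M] [TopologicalSpace X]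
  [Group Γ] [MulAction Γ X] [Fintype I] [T2Space X] [ConnectedSpace X] [MeasurableSpace X]
  [BorelSpace X] [T2Space M] [Fintype ι]
  (C : Cov n M X Γ I) (G : I → E n → Matrix (Fin n) (Fin n) ℝ) (P : Spn C G cl)
  (ix : X → Γ × I) (μ : Measure X) (χ : I → E n → ℝ) (m B : ℝ) (R : ℝ → X → X → A)
  (Q : PUX C ι) (F : (Fin (n + 1) → Γ) → ℝ),
  MetX C G → Sel C ix → VolX C G μ → Part C χ → 0 < m → 0 < B →
  (∀ l, m ≤ l → Res n μ (P.dm ix) (P.D ix) cl.ε l (ENNReal.ofReal B) (R l) ∧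
    Equi (P.u ix) (R l) ∧ (∀ x y, cl.Ω * R l x y = (-1 : ℝ) ^ n • (R l x y * cl.Ω)) ∧
    Nb μ 1 (ENNReal.ofReal (B / l)) (R l) ∧
    Nb μ (ex n) (ENNReal.ofReal (B * l ^ (-(1 / ((n : ℝ) + 1))))) (R l)) →
  (∀ j, C.Ck ∞ (Q.φ j)) → CocG Γ n F →
  Filter.Tendsto (fun l : ℝ => l ^ (n + 1) * TA μ (fun x => ∑ i, C.ex i (χ i) x) cl.tr cl.Ω F Q.fn
      (fun l => P.cd ix (Q.fn l)) (R l) (comp μ (R l) (R l))) Filter.atTop
    (nhds (c * ∑ᶠ l ∈ {l : Fin (n + 1) → Γ × ι | (l 0).1 = 1},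
      Q.wt χ l * F (fun k => (l k).1)))

/-- BLOCK ALT : alternation of bounded cocycles of `Γ` -/
def SpecALT : Prop := ∀ (n : ℕ) (Γ : Type) [Group Γ] (F : (Fin (n + 1) → Γ) → ℝ),
  (∀ g, |F g| ≤ 1) → (∀ (γ : Γ) g, F (fun i => γ * g i) = F g) →
  (∀ g : Fin (n + 2) → Γ, ∑ k : Fin (n + 2), (-1 : ℝ) ^ (k : ℕ) * F (g ∘ k.succAbove) = 0) →
  ∃ F' : (Fin (n + 1) → Γ) → ℝ, CocG Γ n F' ∧
    ∀ (M X I ι : Type) [TopologicalSpace M] [TopologicalSpace X] [MulAction Γ X] [Fintype I]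
      [T2Space X] [Fintype ι] (C : Cov n M X Γ I) (χ : I → E n → ℝ) (Q : PUX C ι), Part C χ →
      ∑ᶠ l ∈ {l : Fin (n + 1) → Γ × ι | (l 0).1 = 1}, Q.wt χ l * F' (fun k => (l k).1) =
        ∑ᶠ l ∈ {l : Fin (n + 1) → Γ × ι | (l 0).1 = 1}, Q.wt χ l * F (fun k => (l k).1)

/-- BLOCK PUS : there is a smooth equivariant partition of unity. -/
def SpecPUS : Prop := ∀ (n : ℕ) (M X Γ I : Type) [TopologicalSpace M] [TopologicalSpace X]
  [Group Γ] [MulAction Γ X] [Fintype I] [T2Space X] (C : Cov n M X Γ I),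
  ∃ (ι : Type) (_ : Fintype ι) (Q : PUX C ι), ∀ j, C.Ck ∞ (Q.φ j)

end Vale.Agent.P223.H66
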