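import Mathlib.Algebra.Algebra.Basic
import Mathlib.Data.Real.Basic
import Mathlib.Tactic

/-! Clifford algebra computations. -/

namespace Vale.Agent.P223.H66

open Finset

section alg

variable {n : ℕ} {R : Type} [Ring R] [Algebra ℝ R] (c : Fin n → R)
  (rel : ∀ a b, c a * c b + c b * c a = if a = b then 2 else 0)

/-- `δ_ab` -/
def dl (a b : Fin n) : ℝ := if a = b then 1 else 0

include rel in
theorem rel' (a b : Fin n) : c a * c b = (2 * dl a b) • (1 : R) - c b * c a := by
  have h := rel a b
  have : (2 * dl a b) • (1 : R) = if a = b then 2 else 0 := by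
    unfold dl; split_ifs
    · rw [mul_one, two_smul, one_add_one_eq_two]
    · simp
  rw [this, ← h]; abel

include rel in
theorem comm3 (a b d : Fin n) : c a * c b * c d - c d * (c a * c b) =
    (2 * dl b d) • c a - (2 * dl a d) • c b := by
  have h1 := rel' c rel b d
  have h2 := rel' c rel a d
  calc c a * c b * c d - c d * (c a * c b)
      = c a * (c b * c d) - c d * c a * c b := by noncomm_ring
    _ = c a * ((2 * dl b d) • (1 : R) - c d * c b) - c d * c a * c b := by rw [h1]
    _ = (2 * dl b d) • c a - (c a * c d) * c b - c d * c a * c b := by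
        rw [mul_sub, mul_smul_comm, mul_one]; noncomm_ring
    _ = (2 * dl b d) • c a - ((2 * dl a d) • (1 : R) - c d * c a) * c b - c d * c a * c b := by
        rw [h2]
    _ = _ := by rw [sub_mul, smul_mul_assoc, one_mul]; noncomm_ring

theorem sum_dl_left {F : Type} [AddCommGroup F] [Module ℝ F] (a : Fin n) (f : Fin n → F) :
    ∑ b, dl a b • f b = f a := by
  unfold dl
  simp [ite_smul]

theorem sum_dl_right {F : Type} [AddCommGroup F] [Module ℝ F] (a : Fin n) (f : Fin n → F) :
    ∑ b, dl b a • f b = f a := by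
  unfold dl
  simp [ite_smul]

/-- `¼ ∑ M_ab c_a c_b` -/
noncomputable def q (M : Fin n → Fin n → ℝ) : R := ∑ a, ∑ b, (M a b / 4) • (c a * c b)

include rel in
theorem q_comm (M : Fin n → Fin n → ℝ) (hM : ∀ a b, M a b = -M b a) (d : Fin n) :
    q c M * c d - c d * q c M = ∑ a, M a d • c a := by
  unfold q
  have h : (∑ a, ∑ b, (M a b / 4) • (c a * c b)) * c d -
      c d * (∑ a, ∑ b, (M a b / 4) • (c a * c b)) =
      ∑ a, ∑ b, (M a b / 4) • ((2 * dl b d) • c a - (2 * dl a d) • c b) := by
    simp only [Finset.sum_mul, Finset.mul_sum, ← Finset.sum_sub_distrib]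
    refine Finset.sum_congr rfl fun a _ => Finset.sum_congr rfl fun b _ => ?_
    rw [← comm3 c rel, smul_sub, smul_mul_assoc, mul_smul_comm]
  rw [h]
  simp only [smul_sub, Finset.sum_sub_distrib]
  have h1 : ∑ a, ∑ b, (M a b / 4) • (2 * dl b d) • c a = ∑ a, (M a d / 2) • c a := by
    refine Finset.sum_congr rfl fun a _ => ?_
    rw [show ∑ b, (M a b / 4) • (2 * dl b d) • c a = ∑ b, dl b d • ((M a b / 2) • c a) from
      Finset.sum_congr rfl fun b _ => by rw [smul_smul, smul_smul]; congr 1; ring]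
    exact sum_dl_right d _
  have h2 : ∑ a, ∑ b, (M a b / 4) • (2 * dl a d) • c b = -∑ a, (M a d / 2) • c a := by
    rw [Finset.sum_comm, ← Finset.sum_neg_distrib]
    refine Finset.sum_congr rfl fun b _ => ?_
    rw [show ∑ a, (M a b / 4) • (2 * dl a d) • c b = ∑ a, dl a d • ((M a b / 2) • c b) from
      Finset.sum_congr rfl fun a _ => by rw [smul_smul, smul_smul]; congr 1; ring]
    rw [sum_dl_right d (fun a => (M a b / 2) • c b), hM d b, neg_div, neg_smul]
  rw [h1, h2, sub_neg_eq_add, ← Finset.sum_add_distrib]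
  refine Finset.sum_congr rfl fun a _ => ?_
  rw [← add_smul]; congr 1; ring

include rel in
theorem q_q (M N : Fin n → Fin n → ℝ) (hM : ∀ a b, M a b = -M b a) :
    q c M * q c N - q c N * q c M =
      q c (fun a b => ∑ e, (M a e * N e b - N a e * M e b)) := by
  have h0 : ∀ a b, q c M * (c a * c b) - (c a * c b) * q c M =
      ∑ e, (M e a • (c e * c b) + M e b • (c a * c e)) := by
    intro a b
    have h1 := q_comm c rel M hM a
    have h2 := q_comm c rel M hM b
    calc q c M * (c a * c b) - (c a * c b) * q c M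
        = (q c M * c a - c a * q c M) * c b + c a * (q c M * c b - c b * q c M) := by
          noncomm_ring
      _ = (∑ e, M e a • c e) * c b + c a * ∑ e, M e b • c e := by rw [h1, h2]
      _ = _ := by
          rw [Finset.sum_mul, Finset.mul_sum, ← Finset.sum_add_distrib]
          refine Finset.sum_congr rfl fun e _ => ?_
          rw [smul_mul_assoc, mul_smul_comm]
  have h1 : q c M * q c N - q c N * q c M =
      ∑ a, ∑ b, (N a b / 4) • ∑ e, (M e a • (c e * c b) + M e b • (c a * c e)) := by
    conv_lhs => rw [show q c N = ∑ a, ∑ b, (N a b / 4) • (c a * c b) from rfl]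
    simp only [Finset.sum_mul, Finset.mul_sum, ← Finset.sum_sub_distrib]
    refine Finset.sum_congr rfl fun a _ => Finset.sum_congr rfl fun b _ => ?_
    rw [mul_smul_comm, smul_mul_assoc, ← smul_sub, h0]
  rw [h1]
  unfold q
  simp only [Finset.smul_sum, smul_add, smul_smul, Finset.sum_add_distrib]
  have e1 : ∑ a, ∑ b, ∑ e, (N a b / 4 * M e a) • (c e * c b) =
      ∑ a, ∑ b, (∑ e, M a e * N e b / 4) • (c a * c b) := by
    calc ∑ a, ∑ b, ∑ e, (N a b / 4 * M e a) • (c e * c b)
        = ∑ a, ∑ e, ∑ b, (N a b / 4 * M e a) • (c e * c b) :=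
          Finset.sum_congr rfl fun a _ => Finset.sum_comm
      _ = ∑ e, ∑ a, ∑ b, (N a b / 4 * M e a) • (c e * c b) := Finset.sum_comm
      _ = ∑ e, ∑ b, ∑ a, (N a b / 4 * M e a) • (c e * c b) :=
          Finset.sum_congr rfl fun e _ => Finset.sum_comm
      _ = _ := by
          refine Finset.sum_congr rfl fun e _ => Finset.sum_congr rfl fun b _ => ?_
          rw [← Finset.sum_smul]; congr 1
          exact Finset.sum_congr rfl fun a _ => by ring
  have e2 : ∑ a, ∑ b, ∑ e, (N a b / 4 * M e b) • (c a * c e) =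
      ∑ a, ∑ b, (∑ e, -(N a e * M e b) / 4) • (c a * c b) := by
    refine Finset.sum_congr rfl fun a _ => ?_
    rw [Finset.sum_comm]
    refine Finset.sum_congr rfl fun e _ => ?_
    rw [← Finset.sum_smul]; congr 1
    refine Finset.sum_congr rfl fun b _ => ?_
    rw [hM e b]; ring
  rw [e1, e2, ← Finset.sum_add_distrib]
  refine Finset.sum_congr rfl fun a _ => ?_
  rw [← Finset.sum_add_distrib]
  refine Finset.sum_congr rfl fun b _ => ?_
  rw [← add_smul, ← Finset.sum_add_distrib, Finset.sum_div]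
  congr 1
  exact Finset.sum_congr rfl fun e _ => by ring

theorem sum3_rot {F : Type} [AddCommMonoid F] (f : Fin n → Fin n → Fin n → F) :
    ∑ a, ∑ b, ∑ d, f a b d = ∑ a, ∑ b, ∑ d, f b d a := by
  calc ∑ a, ∑ b, ∑ d, f a b d = ∑ a, ∑ d, ∑ b, f a b d :=
        Finset.sum_congr rfl fun a _ => Finset.sum_comm
    _ = ∑ d, ∑ a, ∑ b, f a b d := Finset.sum_comm

include rel in
/-- contraction of a tensor with the first Bianchi identity -/
theorem bianchi3 (S : Fin n → Fin n → Fin n → ℝ) (h1 : ∀ x y b, S x y b = -S y x b)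
    (h2 : ∀ x y b, S x y b + S y b x + S b x y = 0) :
    ∑ x, ∑ y, ∑ b, S x y b • (c x * c y * c b) = (2 : ℝ) • ∑ y, (∑ b, S y b b) • c y := by
  set U := ∑ x, ∑ y, ∑ b, S x y b • (c x * c y * c b) with hU
  have rot1 : ∀ x y b, c y * c b * c x =
      c x * c y * c b + (2 * dl b x) • c y - (2 * dl x y) • c b := by
    intro x y b
    have e1 := rel' c rel b x
    have e2 := rel' c rel y x
    calc c y * c b * c x = c y * (c b * c x) := by noncomm_ring
      _ = c y * ((2 * dl b x) • (1 : R) - c x * c b) := by rw [e1]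
      _ = (2 * dl b x) • c y - (c y * c x) * c b := by
          rw [mul_sub, mul_smul_comm, mul_one]; noncomm_ring
      _ = (2 * dl b x) • c y - ((2 * dl y x) • (1 : R) - c x * c y) * c b := by rw [e2]
      _ = _ := by
          rw [sub_mul, smul_mul_assoc, one_mul]
          have : dl y x = dl x y := by unfold dl; simp only [eq_comm]
          rw [this]; noncomm_ring
  have A1 : U = ∑ x, ∑ y, ∑ b, S y b x • (c y * c b * c x) := sum3_rot _
  have A2 : U = ∑ x, ∑ y, ∑ b, S b x y • (c b * c x * c y) := by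
    rw [A1]; exact sum3_rot (fun x y b => S y b x • (c y * c b * c x))
  have B1 : U = ∑ x, ∑ y, ∑ b, S y b x • (c x * c y * c b) +
      (4 : ℝ) • ∑ y, (∑ b, S y b b) • c y := by
    rw [A1]
    have : ∀ x y b, S y b x • (c y * c b * c x) = S y b x • (c x * c y * c b) +
        (dl b x • ((2 * S y b x) • c y) - dl x y • ((2 * S y b x) • c b)) := by
      intro x y b
      rw [rot1 x y b, smul_sub, smul_add, smul_smul, smul_smul, smul_smul, smul_smul,
        show S y b x * (2 * dl b x) = dl b x * (2 * S y b x) by ring,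
        show S y b x * (2 * dl x y) = dl x y * (2 * S y b x) by ring]
      abel
    simp only [this, Finset.sum_add_distrib, Finset.sum_sub_distrib]
    congr 1
    have t1 : ∑ x, ∑ y, ∑ b, dl b x • ((2 * S y b x) • c y) = (2 : ℝ) • ∑ y, (∑ b, S y b b) • c y := by
      rw [Finset.sum_comm, Finset.smul_sum]
      refine Finset.sum_congr rfl fun y _ => ?_
      rw [show ∑ x, ∑ b, dl b x • ((2 * S y b x) • c y) = ∑ x, (2 * S y x x) • c y from
        Finset.sum_congr rfl fun x _ => sum_dl_right x fun b => (2 * S y b x) • c y]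
      rw [← Finset.sum_smul, smul_smul, ← Finset.mul_sum]
    have t2 : ∑ x, ∑ y, ∑ b, dl x y • ((2 * S y b x) • c b) = -((2 : ℝ) • ∑ y, (∑ b, S y b b) • c y) := by
      have : ∀ x, ∑ y, ∑ b, dl x y • ((2 * S y b x) • c b) = ∑ b, (2 * S x b x) • c b := by
        intro x
        rw [Finset.sum_comm]
        exact Finset.sum_congr rfl fun b _ => sum_dl_left x fun y => (2 * S y b x) • c b
      simp only [this]
      rw [Finset.sum_comm, Finset.smul_sum, ← Finset.sum_neg_distrib]
      refine Finset.sum_congr rfl fun b _ => ?_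
      rw [← Finset.sum_smul, smul_smul, ← neg_smul]; congr 1
      rw [← Finset.mul_sum, ← mul_neg, ← Finset.sum_neg_distrib]
      congr 1
      exact Finset.sum_congr rfl fun x _ => h1 x b x
    rw [t1, t2, sub_neg_eq_add, ← add_smul]; norm_num
  have B2 : U = ∑ x, ∑ y, ∑ b, S b x y • (c x * c y * c b) +
      (2 : ℝ) • ∑ y, (∑ b, S y b b) • c y := by
    rw [A2]
    have rot2 : ∀ x y b, c b * c x * c y =
        c x * c y * c b - (2 * dl y b) • c x + (2 * dl b x) • c y := by
      intro x y b
      have := rot1 b x y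
      rw [this]; abel
    have : ∀ x y b, S b x y • (c b * c x * c y) = S b x y • (c x * c y * c b) +
        (dl b x • ((2 * S b x y) • c y) - dl y b • ((2 * S b x y) • c x)) := by
      intro x y b
      rw [rot2 x y b, smul_add, smul_sub, smul_smul, smul_smul, smul_smul, smul_smul,
        show S b x y * (2 * dl b x) = dl b x * (2 * S b x y) by ring,
        show S b x y * (2 * dl y b) = dl y b * (2 * S b x y) by ring]
      abel
    simp only [this, Finset.sum_add_distrib, Finset.sum_sub_distrib]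
    congr 1
    have t1 : ∑ x, ∑ y, ∑ b, dl b x • ((2 * S b x y) • c y) = 0 := by
      refine Finset.sum_eq_zero fun x _ => Finset.sum_eq_zero fun y _ => ?_
      rw [sum_dl_right x fun b => (2 * S b x y) • c y]
      have : S x x y = 0 := by have := h1 x x y; linarith
      rw [this]; simp
    have t2 : ∑ x, ∑ y, ∑ b, dl y b • ((2 * S b x y) • c x) = -((2 : ℝ) • ∑ y, (∑ b, S y b b) • c y) := by
      rw [Finset.smul_sum, ← Finset.sum_neg_distrib]
      refine Finset.sum_congr rfl fun x _ => ?_
      rw [show ∑ y, ∑ b, dl y b • ((2 * S b x y) • c x) = ∑ y, (2 * S y x y) • c x from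
        Finset.sum_congr rfl fun y _ => sum_dl_left y fun b => (2 * S b x y) • c x]
      rw [← Finset.sum_smul, smul_smul, ← neg_smul]; congr 1
      rw [← Finset.mul_sum, ← mul_neg, ← Finset.sum_neg_distrib]
      congr 1
      exact Finset.sum_congr rfl fun y _ => h1 y x y
    rw [t1, t2]; simp
  have B0 : ∑ x, ∑ y, ∑ b, S x y b • (c x * c y * c b) + ∑ x, ∑ y, ∑ b, S y b x • (c x * c y * c b) +
      ∑ x, ∑ y, ∑ b, S b x y • (c x * c y * c b) = 0 := by
    simp only [← Finset.sum_add_distrib, ← add_smul]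
    refine Finset.sum_eq_zero fun x _ => Finset.sum_eq_zero fun y _ => Finset.sum_eq_zero fun b _ => ?_
    rw [h2, zero_smul]
  have e3 : (3 : ℝ) • U = (6 : ℝ) • ∑ y, (∑ b, S y b b) • c y := by
    have : (3 : ℝ) • U = U + U + U := by
      rw [show (3 : ℝ) = 1 + 1 + 1 by norm_num, add_smul, add_smul, one_smul]
    rw [this]
    nth_rewrite 2 [B1]
    nth_rewrite 2 [B2]
    rw [← hU] at B0
    have h6 : (6 : ℝ) • ∑ y, (∑ b, S y b b) • c y = (4 : ℝ) • ∑ y, (∑ b, S y b b) • c y +
        (2 : ℝ) • ∑ y, (∑ b, S y b b) • c y := by rw [← add_smul]; norm_num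
    rw [h6]
    calc U + (∑ x, ∑ y, ∑ b, S y b x • (c x * c y * c b) +
          (4 : ℝ) • ∑ y, (∑ b, S y b b) • c y) +
          (∑ x, ∑ y, ∑ b, S b x y • (c x * c y * c b) + (2 : ℝ) • ∑ y, (∑ b, S y b b) • c y)
        = (U + ∑ x, ∑ y, ∑ b, S y b x • (c x * c y * c b) +
          ∑ x, ∑ y, ∑ b, S b x y • (c x * c y * c b)) + ((4 : ℝ) • ∑ y, (∑ b, S y b b) • c y +
          (2 : ℝ) • ∑ y, (∑ b, S y b b) • c y) := by abel
      _ = _ := by rw [B0, zero_add]
  have := congrArg (fun z => (1 / 3 : ℝ) • z) e3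
  simp only [smul_smul] at this
  norm_num at this
  exact this

/-- pair symmetry of curvature tensors -/
theorem pair_symm (S : Fin n → Fin n → Fin n → Fin n → ℝ) (h1 : ∀ x y a b, S x y a b = -S y x a b)
    (h2 : ∀ x y a b, S x y a b = -S x y b a)
    (h3 : ∀ x y a b, S x y a b + S y b a x + S b x a y = 0) (x y a b : Fin n) :
    S x y a b = S a b x y := by
  have a1 := h3 x y a b
  have a2 := h3 x y b a
  have a3 := h3 a b x y
  have a4 := h3 a b y x
  have b1 := h1 x y a b
  have b2 := h2 x y a b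
  have b3 := h1 y b a x
  have b4 := h2 y b a x
  have b5 := h1 b x a y
  have b6 := h2 b x a y
  have b7 := h1 y a b x
  have b8 := h2 y a b x
  have b9 := h1 a x b y
  have b10 := h2 a x b y
  have b11 := h1 a b x y
  have b12 := h2 a b x y
  have b13 := h1 b y x a
  have b14 := h2 b y x a
  have b15 := h1 y a x b
  have b16 := h2 y a x b
  have b17 := h1 b x y a
  have b18 := h2 b x y a
  have b19 := h1 x a y b
  have b20 := h2 x a y b
  have b21 := h1 a x y b
  have b22 := h1 y b x a
  linarith

include rel in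
/-- `∑ S_xyab c_x c_y c_a c_b = - 2 ∑ S_abab` for curvature tensors -/
theorem curv_contr (S : Fin n → Fin n → Fin n → Fin n → ℝ)
    (h1 : ∀ x y a b, S x y a b = -S y x a b) (h2 : ∀ x y a b, S x y a b = -S x y b a)
    (h3 : ∀ x y a b, S x y a b + S y b a x + S b x a y = 0) :
    ∑ x, ∑ y, ∑ a, ∑ b, S x y a b • (c x * c y * (c a * c b)) =
      (-2 * ∑ a, ∑ b, S a b a b) • (1 : R) := by
  -- rename `a ↔ b`
  have e1 : ∑ x, ∑ y, ∑ a, ∑ b, S x y a b • (c x * c y * (c a * c b)) =
      -∑ a, (∑ x, ∑ y, ∑ b, S x y a b • (c x * c y * c b)) * c a := by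
    have : ∀ x y, ∑ a, ∑ b, S x y a b • (c x * c y * (c a * c b)) =
        ∑ a, -((∑ b, S x y a b • (c x * c y * c b)) * c a) := by
      intro x y
      rw [Finset.sum_comm]
      refine Finset.sum_congr rfl fun a _ => ?_
      rw [Finset.sum_mul, ← Finset.sum_neg_distrib]
      refine Finset.sum_congr rfl fun b _ => ?_
      rw [h2 x y b a, smul_mul_assoc, neg_smul]
      congr 2; noncomm_ring
    simp only [this]
    calc ∑ x, ∑ y, ∑ a, -((∑ b, S x y a b • (c x * c y * c b)) * c a)
        = ∑ x, ∑ a, ∑ y, -((∑ b, S x y a b • (c x * c y * c b)) * c a) :=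
          Finset.sum_congr rfl fun x _ => Finset.sum_comm
      _ = ∑ a, ∑ x, ∑ y, -((∑ b, S x y a b • (c x * c y * c b)) * c a) := Finset.sum_comm
      _ = _ := by
          rw [← Finset.sum_neg_distrib]
          refine Finset.sum_congr rfl fun a _ => ?_
          simp only [Finset.sum_mul, Finset.sum_neg_distrib]
  rw [e1]
  have e2 : ∀ a, ∑ x, ∑ y, ∑ b, S x y a b • (c x * c y * c b) =
      (2 : ℝ) • ∑ y, (∑ b, S y b a b) • c y := fun a =>
    bianchi3 c rel (fun x y b => S x y a b) (fun x y b => h1 x y a b) (fun x y b => h3 x y a b)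
  simp only [e2]
  set r : Fin n → Fin n → ℝ := fun y a => ∑ b, S y b a b with hr
  have hrs : ∀ y a, r y a = r a y := by
    intro y a
    refine Finset.sum_congr rfl fun b _ => ?_
    rw [pair_symm S h1 h2 h3 y b a b]
  have e3 : ∑ a, ((2 : ℝ) • ∑ y, r y a • c y) * c a = (2 * ∑ a, r a a) • (1 : R) := by
    have t : ∑ a, ((2 : ℝ) • ∑ y, r y a • c y) * c a = ∑ a, ∑ y, (2 * r y a) • (c y * c a) := by
      refine Finset.sum_congr rfl fun a _ => ?_
      rw [smul_mul_assoc, Finset.sum_mul, Finset.smul_sum]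
      refine Finset.sum_congr rfl fun y _ => ?_
      rw [smul_mul_assoc, smul_smul]
    rw [t]
    set Z := ∑ a, ∑ y, (2 * r y a) • (c y * c a) with hZ
    have z1 : Z = ∑ a, ∑ y, (2 * r y a) • (c a * c y) := by
      rw [hZ, Finset.sum_comm]
      refine Finset.sum_congr rfl fun a _ => Finset.sum_congr rfl fun y _ => ?_
      rw [hrs a y]
    have z2 : Z + Z = ((2 : ℝ) * (2 * ∑ a, r a a)) • (1 : R) := by
      nth_rewrite 2 [z1]
      rw [hZ]
      simp only [← Finset.sum_add_distrib, ← smul_add]
      have : ∀ a y, (2 * r y a) • (c y * c a + c a * c y) = dl a y • ((4 * r y a) • (1 : R)) := by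
        intro a y
        rw [rel' c rel y a, sub_add_cancel, smul_smul, smul_smul]
        congr 1
        have : dl a y = dl y a := by unfold dl; simp only [eq_comm]
        rw [this]; ring
      simp only [this, sum_dl_left]
      rw [← Finset.sum_smul, ← Finset.mul_sum]; congr 1; ring
    have z3 : (2 : ℝ) • Z = (2 : ℝ) • ((2 * ∑ a, r a a) • (1 : R)) := by
      rw [two_smul, z2, smul_smul]
    have h := congrArg (fun z => (1 / 2 : ℝ) • z) z3
    simp only [smul_smul] at h
    rw [show (1 / 2 : ℝ) * 2 = 1 by norm_num, one_smul] at h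
    rw [h]; congr 1; ring
  rw [e3, ← neg_smul]; congr 1
  rw [hr]; ring

end alg

end Vale.Agent.P223.H66
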