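import Vale.Agent.P223.H566.Def
import Vale.Agent.P223.H.B4a
import Vale.Agent.P223.H66.LocA

/-! Local spin geometry: frames, connection form, curvature. -/

namespace Vale.Agent.P223.H66

open scoped ContDiff InnerProductSpace
open Finset Vale.Agent.P223.H Vale.Agent.P223.H566
open Vale.Agent.P223.H.Bochner (cd_inv cd_chr chr_symm)

section pv

variable {n : ℕ} {W : Type} [NormedAddCommGroup W] [NormedSpace ℝ W]

/-- partial derivative of a vector valued function -/
noncomputable def pv (k : Fin n) (F : E n → W) (y : E n) : W := fderiv ℝ F y (Pi.single k 1)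

theorem pv_real (k : Fin n) (f : E n → ℝ) (y : E n) : pv k f y = H.pd k f y := rfl

theorem pv_add {k : Fin n} {F F' : E n → W} {y : E n} (hF : DifferentiableAt ℝ F y)
    (hF' : DifferentiableAt ℝ F' y) : pv k (fun z => F z + F' z) y = pv k F y + pv k F' y := by
  unfold pv; rw [fderiv_fun_add hF hF']; rfl

theorem pv_sub {k : Fin n} {F F' : E n → W} {y : E n} (hF : DifferentiableAt ℝ F y)
    (hF' : DifferentiableAt ℝ F' y) : pv k (fun z => F z - F' z) y = pv k F y - pv k F' y := by
  unfold pv; rw [fderiv_fun_sub hF hF']; rfl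

theorem pv_sum {ι : Type} {s : Finset ι} {k : Fin n} {F : ι → E n → W} {y : E n}
    (hF : ∀ i ∈ s, DifferentiableAt ℝ (F i) y) :
    pv k (fun z => ∑ i ∈ s, F i z) y = ∑ i ∈ s, pv k (F i) y := by
  unfold pv; rw [fderiv_fun_sum hF, _root_.sum_apply]

theorem pv_smul {k : Fin n} {f : E n → ℝ} {F : E n → W} {y : E n} (hf : DifferentiableAt ℝ f y)
    (hF : DifferentiableAt ℝ F y) :
    pv k (fun z => f z • F z) y = H.pd k f y • F y + f y • pv k F y := by
  unfold pv H.pd
  rw [fderiv_fun_smul hf hF]
  simp only [_root_.add_apply, _root_.smul_apply,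
    ContinuousLinearMap.smulRight_apply]
  rw [add_comm]

theorem pv_const {k : Fin n} (w : W) (y : E n) : pv k (fun _ : E n => w) y = 0 := by
  unfold pv; simp

theorem pv_smul_const {k : Fin n} {f : E n → ℝ} (w : W) {y : E n} (hf : DifferentiableAt ℝ f y) :
    pv k (fun z => f z • w) y = H.pd k f y • w := by
  rw [pv_smul hf (differentiableAt_const w), pv_const]; simp

theorem pv_comm {F : E n → W} (hF : ContDiff ℝ 2 F) (k l : Fin n) (y : E n) :
    pv k (fun z => pv l F z) y = pv l (fun z => pv k F z) y := by
  have h1 : Differentiable ℝ (fderiv ℝ F) := (hF.fderiv_right (m := 1) (by norm_num)).differentiable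
    (by simp)
  have h2 : ∀ v w : E n, fderiv ℝ (fun z => fderiv ℝ F z v) y w = fderiv ℝ (fderiv ℝ F) y w v := by
    intro v w
    rw [fderiv_clm_apply (h1 y) (differentiableAt_const v)]
    simp
  unfold pv
  rw [h2, h2]
  exact (hF.contDiffAt.isSymmSndFDerivAt (by simp)).eq _ _

theorem pv_mul {R : Type} [NormedRing R] [NormedAlgebra ℝ R] {k : Fin n} {F F' : E n → R} {y : E n}
    (hF : DifferentiableAt ℝ F y) (hF' : DifferentiableAt ℝ F' y) :
    pv k (fun z => F z * F' z) y = pv k F y * F' y + F y * pv k F' y := by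
  unfold pv
  rw [fderiv_fun_mul' hF hF']
  simp only [_root_.add_apply, _root_.smul_apply,
    smul_eq_mul, MulOpposite.smul_eq_mul_unop, MulOpposite.unop_op]
  rw [add_comm]

theorem contDiff_pv {m k : WithTop ℕ∞} {F : E n → W} (hF : ContDiff ℝ m F) (hmk : k + 1 ≤ m)
    (c : Fin n) : ContDiff ℝ k fun y => pv c F y := by
  unfold pv
  exact (hF.fderiv_right hmk).clm_apply contDiff_const

end pv

section frames

variable {n : ℕ} {G β : E n → Matrix (Fin n) (Fin n) ℝ}
  (hs : ∀ i j, ContDiff ℝ ∞ (fun x => G x i j)) (hp : ∀ x, (G x).PosDef) (hF : Fr G β)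

include hF in
theorem beta_inv (y : E n) : (G y * (β y).transpose) * β y = 1 := by
  have h := hF.orth y
  rw [Matrix.mul_assoc] at h
  exact mul_eq_one_comm.1 h

include hF in
theorem beta_sq (y : E n) (k l : Fin n) : ∑ a, β y a k * β y a l = (G y)⁻¹ k l := by
  have h := beta_inv hF y
  rw [Matrix.mul_assoc] at h
  have h2 : (G y)⁻¹ = (β y).transpose * β y := by
    exact Matrix.inv_eq_right_inv h
  rw [h2]
  simp [Matrix.mul_apply, Matrix.transpose_apply]

include hF in
theorem beta_inv' (y : E n) (m l : Fin n) : ∑ a, (∑ p, G y m p * β y a p) * β y a l =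
    if m = l then 1 else 0 := by
  have h := congrFun (congrFun (beta_inv hF y) m) l
  rw [Matrix.mul_apply] at h
  simp only [Matrix.mul_apply, Matrix.transpose_apply, Matrix.one_apply] at h
  exact h

/-- covariant derivative of the frame -/
noncomputable def Wf (G β : E n → Matrix (Fin n) (Fin n) ℝ) (y : E n) (k b m : Fin n) : ℝ :=
  H.pd k (fun z => β z b m) y + ∑ l, H.chr G y m k l * β y b l

theorem om_eq (y : E n) (k a b : Fin n) :
    H566.om G β y k a b = ∑ m, (∑ p, β y a p * G y p m) * Wf G β y k b m := rfl

include hp hF in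
theorem Wf_eq (y : E n) (k b l : Fin n) : Wf G β y k b l = ∑ a, H566.om G β y k a b * β y a l := by
  simp only [om_eq]
  have hsy := ConfScal.g_symm hp y
  calc Wf G β y k b l = ∑ m, (if m = l then 1 else 0) * Wf G β y k b m := by simp
    _ = ∑ m, (∑ a, (∑ p, G y m p * β y a p) * β y a l) * Wf G β y k b m := by
        refine Finset.sum_congr rfl fun m _ => ?_
        rw [beta_inv' hF y m l]
    _ = ∑ m, ∑ a, (∑ p, G y m p * β y a p) * β y a l * Wf G β y k b m := by
        simp only [Finset.sum_mul]
    _ = ∑ a, ∑ m, (∑ p, G y m p * β y a p) * β y a l * Wf G β y k b m := Finset.sum_comm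
    _ = _ := by
        refine Finset.sum_congr rfl fun a _ => ?_
        rw [Finset.sum_mul]
        refine Finset.sum_congr rfl fun m _ => ?_
        have : ∑ p, G y m p * β y a p = ∑ p, β y a p * G y p m :=
          Finset.sum_congr rfl fun p _ => by rw [hsy m p]; ring
        rw [this]; ring

include hs in
theorem dG (i j : Fin n) (y : E n) : DifferentiableAt ℝ (fun y => G y i j) y :=
  (hs i j).differentiable (by simp) y

include hF in
theorem dβ (i j : Fin n) (y : E n) : DifferentiableAt ℝ (fun y => β y i j) y :=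
  (hF.smooth i j).differentiable (by simp) y

include hs hp hF in
theorem om_antisymm (y : E n) (k a b : Fin n) : H566.om G β y k a b = -H566.om G β y k b a := by
  have hsy := ConfScal.g_symm hp
  -- derivative of the orthonormality relation
  have h0 : H.pd k (fun z => ∑ p, ∑ m, β z a p * G z p m * β z b m) y = 0 := by
    have : (fun z => ∑ p, ∑ m, β z a p * G z p m * β z b m) = fun _ => (if a = b then 1 else 0 : ℝ) := by
      funext z
      have h := congrFun (congrFun (hF.orth z) a) b
      simp only [Matrix.mul_apply, Matrix.transpose_apply, Matrix.one_apply] at h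
      rw [← h, Finset.sum_comm]
      exact Finset.sum_congr rfl fun m _ => by rw [Finset.sum_mul]
    rw [this]; exact Bridge.pd_const _
  have d1 : ∀ p m, DifferentiableAt ℝ (fun z => β z a p * G z p m) y := fun p m =>
    (dβ hF a p y).fun_mul (dG hs p m y)
  have d2 : ∀ p m, DifferentiableAt ℝ (fun z => β z a p * G z p m * β z b m) y := fun p m =>
    (d1 p m).fun_mul (dβ hF b m y)
  rw [Bridge.pd_sum fun p _ => DifferentiableAt.fun_sum fun m _ => d2 p m] at h0
  have e1 : ∀ p, H.pd k (fun z => ∑ m, β z a p * G z p m * β z b m) y =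
      ∑ m, ((H.pd k (fun z => β z a p) y * G y p m + β y a p * H.pd k (fun z => G z p m) y) * β y b m +
        β y a p * G y p m * H.pd k (fun z => β z b m) y) := by
    intro p
    rw [Bridge.pd_sum fun m _ => d2 p m]
    refine Finset.sum_congr rfl fun m _ => ?_
    rw [Bridge.pd_mul (d1 p m) (dβ hF b m y), Bridge.pd_mul (dβ hF a p y) (dG hs p m y)]
  simp only [e1] at h0
  have e2 : ∀ p m, H.pd k (fun z => G z p m) y =
      ∑ q, G y p q * H.chr G y q k m + ∑ q, G y m q * H.chr G y q k p := fun p m =>
    ConfScal.compat hp y k p m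
  simp only [e2] at h0
  have f1 : H566.om G β y k a b = ∑ p, ∑ m, (β y a p * G y p m * H.pd k (fun z => β z b m) y +
      β y a p * (∑ q, G y p q * H.chr G y q k m) * β y b m) := by
    rw [om_eq]
    unfold Wf
    simp only [mul_add, Finset.sum_add_distrib]
    congr 1
    · rw [Finset.sum_comm (f := fun p m => β y a p * G y p m * H.pd k (fun z => β z b m) y)]
      exact Finset.sum_congr rfl fun m _ => by rw [Finset.sum_mul]
    · calc ∑ m, (∑ p, β y a p * G y p m) * ∑ l, H.chr G y m k l * β y b l
          = ∑ m, ∑ p, ∑ l, β y a p * G y p m * (H.chr G y m k l * β y b l) := by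
            refine Finset.sum_congr rfl fun m _ => ?_
            rw [Finset.sum_mul_sum]
        _ = ∑ p, ∑ m, ∑ l, β y a p * G y p m * (H.chr G y m k l * β y b l) := Finset.sum_comm
        _ = ∑ p, ∑ l, ∑ m, β y a p * G y p m * (H.chr G y m k l * β y b l) :=
            Finset.sum_congr rfl fun p _ => Finset.sum_comm
        _ = _ := by
            refine Finset.sum_congr rfl fun p _ => Finset.sum_congr rfl fun l _ => ?_
            rw [Finset.mul_sum, Finset.sum_mul]
            exact Finset.sum_congr rfl fun m _ => by ring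
  have f2 : H566.om G β y k b a = ∑ p, ∑ m, (H.pd k (fun z => β z a p) y * G y p m * β y b m +
      β y a p * (∑ q, G y m q * H.chr G y q k p) * β y b m) := by
    rw [om_eq]
    unfold Wf
    simp only [mul_add, Finset.sum_add_distrib]
    congr 1
    · refine Finset.sum_congr rfl fun p _ => ?_
      rw [Finset.sum_mul]
      exact Finset.sum_congr rfl fun m _ => by rw [hsy y m p]; ring
    · calc ∑ m, (∑ p, β y b p * G y p m) * ∑ l, H.chr G y m k l * β y a l
          = ∑ m, ∑ p, ∑ l, β y b p * G y p m * (H.chr G y m k l * β y a l) := by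
            refine Finset.sum_congr rfl fun m _ => ?_
            rw [Finset.sum_mul_sum]
        _ = ∑ p, ∑ m, ∑ l, β y b p * G y p m * (H.chr G y m k l * β y a l) := Finset.sum_comm
        _ = ∑ p, ∑ l, ∑ m, β y b p * G y p m * (H.chr G y m k l * β y a l) :=
            Finset.sum_congr rfl fun p _ => Finset.sum_comm
        _ = ∑ l, ∑ p, ∑ m, β y b p * G y p m * (H.chr G y m k l * β y a l) := Finset.sum_comm
        _ = _ := by
            refine Finset.sum_congr rfl fun p _ => Finset.sum_congr rfl fun l _ => ?_
            rw [Finset.mul_sum, Finset.sum_mul]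
            exact Finset.sum_congr rfl fun m _ => by ring
  rw [f1, f2, ← Finset.sum_neg_distrib]
  have h3 : ∑ p, ∑ m, (β y a p * G y p m * H.pd k (fun z => β z b m) y +
      β y a p * (∑ q, G y p q * H.chr G y q k m) * β y b m) +
      ∑ p, ∑ m, (H.pd k (fun z => β z a p) y * G y p m * β y b m +
      β y a p * (∑ q, G y m q * H.chr G y q k p) * β y b m) = 0 := by
    rw [← h0, ← Finset.sum_add_distrib]
    refine Finset.sum_congr rfl fun p _ => ?_
    rw [← Finset.sum_add_distrib]
    exact Finset.sum_congr rfl fun m _ => by ring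
  rw [Finset.sum_neg_distrib]
  linarith

include hs hp hF in
theorem cd_om (k a b : Fin n) : ContDiff ℝ ∞ fun y => H566.om G β y k a b := by
  unfold H566.om
  refine ContDiff.sum fun m _ => ContDiff.mul (ContDiff.sum fun p _ => (hF.smooth a p).mul (hs p m))
    (ContDiff.add ?_ (ContDiff.sum fun l _ => ContDiff.mul ?_ (hF.smooth b l)))
  · exact Bridge.contDiff_pd (hF.smooth b m) (by simp) k
  · exact cd_chr hs hp m k l

include hs hp hF in
theorem pd_beta (y : E n) (k b l : Fin n) : H.pd k (fun z => β z b l) y =
    -(∑ a, H566.om G β y k b a * β y a l) - ∑ m, β y b m * H.chr G y l k m := by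
  have h := Wf_eq hp hF y k b l
  unfold Wf at h
  have e : ∑ a, H566.om G β y k a b * β y a l = -∑ a, H566.om G β y k b a * β y a l := by
    rw [← Finset.sum_neg_distrib]
    exact Finset.sum_congr rfl fun a _ => by rw [om_antisymm hs hp hF y k a b]; ring
  rw [e] at h
  have e2 : ∑ m, β y b m * H.chr G y l k m = ∑ m, H.chr G y l k m * β y b m :=
    Finset.sum_congr rfl fun m _ => mul_comm _ _
  rw [e2]; linarith

/-- curvature of the connection form -/
noncomputable def Rw (G β : E n → Matrix (Fin n) (Fin n) ℝ) (y : E n) (k l a b : Fin n) : ℝ :=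
  H.pd k (fun z => H566.om G β z l a b) y - H.pd l (fun z => H566.om G β z k a b) y +
    ∑ e, (H566.om G β y k a e * H566.om G β y l e b - H566.om G β y l a e * H566.om G β y k e b)

/-- Riemann tensor `R^p_{q k l}` -/
noncomputable def Rm (G : E n → Matrix (Fin n) (Fin n) ℝ) (y : E n) (k l p q : Fin n) : ℝ :=
  H.pd k (fun z => H.chr G z p l q) y - H.pd l (fun z => H.chr G z p k q) y +
    ∑ m, (H.chr G y p k m * H.chr G y m l q - H.chr G y p l m * H.chr G y m k q)

include hs hp hF in
theorem Rw_antisymm (y : E n) (k l a b : Fin n) : Rw G β y k l a b = -Rw G β y k l b a := by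
  have h := om_antisymm hs hp hF
  have e : ∀ k l, H.pd k (fun z => H566.om G β z l a b) y = -H.pd k (fun z => H566.om G β z l b a) y := by
    intro k l
    have : (fun z => H566.om G β z l a b) = fun z => (-1) * H566.om G β z l b a := by
      funext z; rw [h z l a b]; ring
    rw [this, Bridge.pd_mul (differentiableAt_const _)
      (((cd_om hs hp hF l b a).differentiable (by simp)) y), Bridge.pd_const]
    ring
  unfold Rw
  rw [e k l, e l k]
  have : ∑ e, (H566.om G β y k a e * H566.om G β y l e b - H566.om G β y l a e * H566.om G β y k e b) =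
      -∑ e, (H566.om G β y k b e * H566.om G β y l e a - H566.om G β y l b e * H566.om G β y k e a) := by
    rw [← Finset.sum_neg_distrib]
    refine Finset.sum_congr rfl fun e _ => ?_
    rw [h y k a e, h y l e b, h y l a e, h y k e b]; ring
  rw [this]; ring

theorem Rw_antisymm' (y : E n) (k l a b : Fin n) : Rw G β y k l a b = -Rw G β y l k a b := by
  unfold Rw
  have : ∑ e, (H566.om G β y k a e * H566.om G β y l e b - H566.om G β y l a e * H566.om G β y k e b) =
      -∑ e, (H566.om G β y l a e * H566.om G β y k e b - H566.om G β y k a e * H566.om G β y l e b) := by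
    rw [← Finset.sum_neg_distrib]
    exact Finset.sum_congr rfl fun e _ => by ring
  rw [this]; ring

include hs hp in
theorem Rm_bianchi (y : E n) (k l p q : Fin n) :
    Rm G y k l p q + Rm G y l q p k + Rm G y q k p l = 0 := by
  have hc := chr_symm hs hp
  have e : ∀ a k i j, H.pd a (fun z => H.chr G z k i j) y = H.pd a (fun z => H.chr G z k j i) y := by
    intro a k i j
    congr 1; funext z; exact hc z k i j
  unfold Rm
  rw [e k p l q, e l p q k, e q p k l]
  have h1 : ∀ m, H.chr G y m l q = H.chr G y m q l := fun m => hc y m l q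
  have h2 : ∀ m, H.chr G y m k q = H.chr G y m q k := fun m => hc y m k q
  have h3 : ∀ m, H.chr G y m k l = H.chr G y m l k := fun m => hc y m k l
  simp only [h1, h2, h3, Finset.sum_sub_distrib]
  ring

include hs hp hF in
/-- relation between the curvature of the connection form and the Riemann tensor -/
theorem Rw_Rm (y : E n) (k l b p : Fin n) : ∑ a, Rw G β y k l b a * β y a p =
    -∑ q, β y b q * Rm G y k l p q := by
  set B : Matrix (Fin n) (Fin n) ℝ := β y with hB
  set Om : Fin n → Matrix (Fin n) (Fin n) ℝ := fun k => Matrix.of fun a b => H566.om G β y k a b with hOm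
  set Ga : Fin n → Matrix (Fin n) (Fin n) ℝ := fun k => Matrix.of fun m l => H.chr G y l k m with hGa
  set dO : Fin n → Fin n → Matrix (Fin n) (Fin n) ℝ := fun k l => Matrix.of fun a b =>
    H.pd k (fun z => H566.om G β z l a b) y with hdO
  set dGa : Fin n → Fin n → Matrix (Fin n) (Fin n) ℝ := fun k l => Matrix.of fun m p =>
    H.pd k (fun z => H.chr G z p l m) y with hdGa
  set Dm : Fin n → Matrix (Fin n) (Fin n) ℝ := fun k => Matrix.of fun b l =>
    H.pd k (fun z => β z b l) y with hDm
  have hD : ∀ k, Dm k = -(Om k * B) - B * Ga k := by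
    intro k
    ext b l
    simp only [hDm, hOm, hGa, Matrix.of_apply, Matrix.sub_apply, Matrix.neg_apply, Matrix.mul_apply]
    exact pd_beta hs hp hF y k b l
  have dom : ∀ k a b, DifferentiableAt ℝ (fun z => H566.om G β z k a b) y := fun k a b =>
    ((cd_om hs hp hF k a b).differentiable (by simp)) y
  have dch : ∀ k a b, DifferentiableAt ℝ (fun z => H.chr G z k a b) y := fun k i j =>
    (cd_chr hs hp (m := 1) k i j).differentiable (by simp) y
  have h2 : ∀ k l, (Matrix.of fun b p => H.pd k (fun z => H.pd l (fun x => β x b p) z) y) =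
      -(dO k l * B + Om l * Dm k) - (Dm k * Ga l + B * dGa k l) := by
    intro k l
    ext b p
    simp only [Matrix.of_apply, Matrix.sub_apply, Matrix.neg_apply, Matrix.add_apply,
      Matrix.mul_apply, hdO, hOm, hDm, hGa, hdGa]
    have : (fun z => H.pd l (fun x => β x b p) z) = fun z =>
        (-1) * (∑ a, H566.om G β z l b a * β z a p) - ∑ m, β z b m * H.chr G z p l m := by
      funext z; rw [pd_beta hs hp hF z l b p]; ring
    rw [this, Bridge.pd_sub ((differentiableAt_const _).fun_mul
      (DifferentiableAt.fun_sum fun a _ => (dom l b a).fun_mul (dβ hF a p y)))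
      (DifferentiableAt.fun_sum fun m _ => (dβ hF b m y).fun_mul (dch p l m)),
      Bridge.pd_mul (differentiableAt_const _)
        (DifferentiableAt.fun_sum fun a _ => (dom l b a).fun_mul (dβ hF a p y)),
      Bridge.pd_const, Bridge.pd_sum fun a _ => (dom l b a).fun_mul (dβ hF a p y),
      Bridge.pd_sum fun m _ => (dβ hF b m y).fun_mul (dch p l m)]
    have e1 : ∀ a, H.pd k (fun z => H566.om G β z l b a * β z a p) y =
        H.pd k (fun z => H566.om G β z l b a) y * β y a p + H566.om G β y l b a * H.pd k (fun z => β z a p) y :=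
      fun a => Bridge.pd_mul (dom l b a) (dβ hF a p y)
    have e2 : ∀ m, H.pd k (fun z => β z b m * H.chr G z p l m) y =
        H.pd k (fun z => β z b m) y * H.chr G y p l m + β y b m * H.pd k (fun z => H.chr G z p l m) y :=
      fun m => Bridge.pd_mul (dβ hF b m y) (dch p l m)
    simp only [e1, e2, Finset.sum_add_distrib]
    ring
  have h3 : ∀ k l, (Matrix.of fun b p => H.pd k (fun z => H.pd l (fun x => β x b p) z) y) =
      Matrix.of fun b p => H.pd l (fun z => H.pd k (fun x => β x b p) z) y := by
    intro k l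
    ext b p
    simp only [Matrix.of_apply]
    exact Bridge.pd_comm ((hF.smooth b p).of_le
      (WithTop.coe_le_coe.2 (le_top : (2 : ℕ∞) ≤ ⊤))) k l
  have h4 : (dO k l - dO l k + (Om k * Om l - Om l * Om k)) * B =
      -(B * (dGa k l - dGa l k + (Ga l * Ga k - Ga k * Ga l))) := by
    have e := h3 k l
    rw [h2 k l, h2 l k, hD k, hD l] at e
    have e' := sub_eq_zero.2 e
    rw [← sub_eq_zero]
    rw [← neg_eq_zero] at e'
    rw [← e']
    noncomm_ring
  have h5 := congrFun (congrFun h4 b) p
  simp only [Matrix.mul_apply, Matrix.add_apply, Matrix.sub_apply, Matrix.neg_apply, hdO, hOm, hGa,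
    hdGa, Matrix.of_apply] at h5
  have e3 : ∑ a, Rw G β y k l b a * β y a p = ∑ x, (H.pd k (fun z => H566.om G β z l b x) y -
      H.pd l (fun z => H566.om G β z k b x) y + (∑ j, H566.om G β y k b j * H566.om G β y l j x -
        ∑ j, H566.om G β y l b j * H566.om G β y k j x)) * β y x p := by
    refine Finset.sum_congr rfl fun a _ => ?_
    unfold Rw
    rw [Finset.sum_sub_distrib]
  have e4 : ∑ q, β y b q * Rm G y k l p q = ∑ x, β y b x * (H.pd k (fun z => H.chr G z p l x) y -
      H.pd l (fun z => H.chr G z p k x) y + (∑ j, H.chr G y j l x * H.chr G y p k j -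
        ∑ j, H.chr G y j k x * H.chr G y p l j)) := by
    refine Finset.sum_congr rfl fun q _ => ?_
    unfold Rm
    rw [Finset.sum_sub_distrib]
    congr 2
    congr 1 <;> exact Finset.sum_congr rfl fun j _ => mul_comm _ _
  rw [e3, e4]
  exact h5

end frames

end Vale.Agent.P223.H66
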