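import Vale.Agent.P223.H66.LocB

/-! Local spin geometry: Clifford multiplication is parallel, Lichnerowicz formula. -/

namespace Vale.Agent.P223.H66

open scoped ContDiff InnerProductSpace
open Finset Vale.Agent.P223.H Vale.Agent.P223.H566
open Vale.Agent.P223.H.Bochner (cd_inv cd_chr chr_symm)

section

variable {n : ℕ} {V : Type} [NormedAddCommGroup V] [InnerProductSpace ℂ V]

theorem rs_eq (r : ℝ) (A : V →L[ℂ] V) : rs r A = r • A := by
  unfold rs; exact Complex.coe_smul r A

theorem pv_apply {k : Fin n} {A : E n → V →L[ℂ] V} {φ : E n → V} {y : E n}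
    (hA : DifferentiableAt ℝ A y) (hφ : DifferentiableAt ℝ φ y) :
    pv k (fun z => A z (φ z)) y = (pv k A y) (φ y) + A y (pv k φ y) := by
  unfold pv
  set L := ContinuousLinearMap.restrictScalarsL ℂ V V ℝ ℝ with hL
  have h1 : HasFDerivAt (fun z => L (A z)) (L.comp (fderiv ℝ A y)) y :=
    L.hasFDerivAt.comp y hA.hasFDerivAt
  have h2 := h1.clm_apply hφ.hasFDerivAt
  have h3 : (fun z => A z (φ z)) = fun z => (L (A z)) (φ z) := rfl
  rw [h3, h2.fderiv]
  simp only [_root_.add_apply, ContinuousLinearMap.comp_apply, ContinuousLinearMap.flip_apply]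
  rw [add_comm]; rfl

theorem cd_apply {m : WithTop ℕ∞} {A : E n → V →L[ℂ] V} {φ : E n → V}
    (hA : ContDiff ℝ m A) (hφ : ContDiff ℝ m φ) : ContDiff ℝ m fun z => A z (φ z) := by
  set L := ContinuousLinearMap.restrictScalarsL ℂ V V ℝ ℝ with hL
  exact (L.contDiff.comp hA).clm_apply hφ

variable (K : Cliff n V) {G β : E n → Matrix (Fin n) (Fin n) ℝ}
  (hs : ∀ i j, ContDiff ℝ ∞ (fun x => G x i j)) (hp : ∀ x, (G x).PosDef) (hF : Fr G β)

theorem cl_eq (y : E n) (k : Fin n) : cl K β y k = ∑ a, β y a k • K.c a := by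
  unfold cl; simp only [rs_eq]

theorem spc_eq (y : E n) (k : Fin n) : spc K G β y k = q K.c (H566.om G β y k) := by
  unfold spc q; simp only [rs_eq]

include hF in
theorem cd_cl (k : Fin n) : ContDiff ℝ ∞ fun y => cl K β y k := by
  simp only [cl_eq]
  exact ContDiff.sum fun a _ => (hF.smooth a k).smul contDiff_const

include hs hp hF in
theorem cd_spc (k : Fin n) : ContDiff ℝ ∞ fun y => spc K G β y k := by
  simp only [spc_eq, q]
  exact ContDiff.sum fun a _ => ContDiff.sum fun b _ =>
    ((cd_om hs hp hF k a b).div_const 4).smul contDiff_const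

include hF in
theorem pv_cl (y : E n) (k l : Fin n) :
    pv k (fun z => cl K β z l) y = ∑ a, H.pd k (fun z => β z a l) y • K.c a := by
  simp only [cl_eq]
  rw [pv_sum fun a _ => (dβ hF a l y).smul_const _]
  exact Finset.sum_congr rfl fun a _ => pv_smul_const _ (dβ hF a l y)

include hs hp hF in
/-- Clifford multiplication is parallel -/
theorem cl_par (y : E n) (k l : Fin n) : pv k (fun z => cl K β z l) y +
    (spc K G β y k * cl K β y l - cl K β y l * spc K G β y k) =
      -∑ m, H.chr G y l k m • cl K β y m := by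
  have h1 : spc K G β y k * cl K β y l - cl K β y l * spc K G β y k =
      ∑ a, (∑ d, H566.om G β y k a d * β y d l) • K.c a := by
    rw [spc_eq, cl_eq, Finset.mul_sum, Finset.sum_mul, ← Finset.sum_sub_distrib]
    have : ∀ d, q K.c (H566.om G β y k) * β y d l • K.c d -
        β y d l • K.c d * q K.c (H566.om G β y k) =
        ∑ a, (H566.om G β y k a d * β y d l) • K.c a := by
      intro d
      rw [mul_smul_comm, smul_mul_assoc, ← smul_sub,
        q_comm K.c K.rel (H566.om G β y k) (om_antisymm hs hp hF y k) d, Finset.smul_sum]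
      exact Finset.sum_congr rfl fun a _ => by rw [smul_smul, mul_comm]
    simp only [this]
    rw [Finset.sum_comm]
    exact Finset.sum_congr rfl fun a _ => by rw [Finset.sum_smul]
  rw [h1, pv_cl K hF, ← Finset.sum_add_distrib]
  have h2 : ∑ m, H.chr G y l k m • cl K β y m =
      ∑ a, (∑ m, β y a m * H.chr G y l k m) • K.c a := by
    simp only [cl_eq, Finset.smul_sum, smul_smul]
    rw [Finset.sum_comm]
    refine Finset.sum_congr rfl fun a _ => ?_
    rw [Finset.sum_smul]
    exact Finset.sum_congr rfl fun m _ => by rw [mul_comm]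
  rw [h2, ← Finset.sum_neg_distrib]
  refine Finset.sum_congr rfl fun a _ => ?_
  rw [← add_smul, ← neg_smul, pd_beta hs hp hF y k a l]
  congr 1; ring

/-- `∇_k ∇_l φ - Γ^m_{kl} ∇_m φ` -/
noncomputable def Hs (G β : E n → Matrix (Fin n) (Fin n) ℝ) (k l : Fin n) (φ : E n → V)
    (y : E n) : V :=
  nab K G β k (nab K G β l φ) y - ∑ m, H.chr G y m k l • nab K G β m φ y

theorem nab_eq (k : Fin n) (φ : E n → V) (y : E n) :
    nab K G β k φ y = pv k φ y + spc K G β y k (φ y) := rfl

include hs hp hF in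
theorem cd_nab' {m : ℕ∞} {k' : WithTop ℕ∞} {φ : E n → V} (hφ : ContDiff ℝ k' φ)
    (h : (m : WithTop ℕ∞) + 1 ≤ k') (k : Fin n) : ContDiff ℝ m (nab K G β k φ) := by
  have : nab K G β k φ = fun y => pv k φ y + spc K G β y k (φ y) := rfl
  rw [this]
  exact (contDiff_pv hφ h k).add (cd_apply ((cd_spc K hs hp hF k).of_le (mod_cast le_top))
    (hφ.of_le (le_trans (by simp) h)))

include hs hp hF in
theorem nab_cl {φ : E n → V} {y : E n} (hφ : DifferentiableAt ℝ φ y) (k l : Fin n) :
    nab K G β k (fun z => cl K β z l (φ z)) y =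
      cl K β y l (nab K G β k φ y) - ∑ m, H.chr G y l k m • cl K β y m (φ y) := by
  rw [nab_eq, pv_apply ((cd_cl K hF l).differentiable (by simp) y) hφ, nab_eq, map_add]
  have h := congrArg (fun A : V →L[ℂ] V => A (φ y)) (cl_par K hs hp hF y k l)
  simp only [_root_.add_apply, _root_.sub_apply, _root_.neg_apply, _root_.sum_apply,
    _root_.smul_apply, mul_apply_eq_comp] at h
  have h' : (pv k (fun z => cl K β z l) y) (φ y) + (spc K G β y k) (cl K β y l (φ y)) =
      cl K β y l (spc K G β y k (φ y)) - ∑ m, H.chr G y l k m • cl K β y m (φ y) := by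
    rw [sub_eq_add_neg, ← h]; abel
  calc (pv k (fun z => cl K β z l) y) (φ y) + cl K β y l (pv k φ y) +
        (spc K G β y k) (cl K β y l (φ y))
      = ((pv k (fun z => cl K β z l) y) (φ y) + (spc K G β y k) (cl K β y l (φ y))) +
        cl K β y l (pv k φ y) := by abel
    _ = _ := by rw [h']; abel

theorem nab_sum {ι : Type} {s : Finset ι} {F : ι → E n → V} {y : E n}
    (hφ : ∀ i ∈ s, DifferentiableAt ℝ (F i) y) (k : Fin n) :
    nab K G β k (fun z => ∑ i ∈ s, F i z) y = ∑ i ∈ s, nab K G β k (F i) y := by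
  simp only [nab_eq]
  rw [pv_sum hφ, map_sum, ← Finset.sum_add_distrib]

include hs hp hF in
theorem dirdir {φ : E n → V} (hφ : ContDiff ℝ 2 φ) (y : E n) :
    dir K G β (dir K G β φ) y = ∑ k, ∑ l, cl K β y k (cl K β y l (Hs K G β k l φ y)) := by
  have d1 : ∀ l, DifferentiableAt ℝ (nab K G β l φ) y := fun l =>
    (cd_nab' K hs hp hF (m := 1) hφ (by norm_num) l).differentiable (by simp) y
  have d2 : ∀ l, DifferentiableAt ℝ (fun z => cl K β z l (nab K G β l φ z)) y := fun l =>
    (cd_apply ((cd_cl K hF l).of_le (m := 1) (by simp)) (cd_nab' K hs hp hF (m := 1) hφ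
      (by norm_num) l)).differentiable (by simp) y
  have e0 : dir K G β φ = fun z => ∑ l, cl K β z l (nab K G β l φ z) := rfl
  have e1 : dir K G β (dir K G β φ) y = ∑ k, cl K β y k (nab K G β k (dir K G β φ) y) := rfl
  rw [e1]
  have e2 : ∀ k, nab K G β k (dir K G β φ) y = ∑ l, (cl K β y l (nab K G β k (nab K G β l φ) y) -
      ∑ m, H.chr G y l k m • cl K β y m (nab K G β l φ y)) := by
    intro k
    rw [e0, nab_sum K (fun l _ => d2 l)]
    exact Finset.sum_congr rfl fun l _ => nab_cl K hs hp hF (d1 l) k l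
  have e3 : ∀ k, ∑ l, ∑ m, H.chr G y l k m • cl K β y m (nab K G β l φ y) =
      ∑ l, cl K β y l (∑ m, H.chr G y m k l • nab K G β m φ y) := by
    intro k
    rw [Finset.sum_comm]
    refine Finset.sum_congr rfl fun l _ => ?_
    rw [map_sum]
    refine Finset.sum_congr rfl fun m _ => ?_
    exact (ContinuousLinearMap.map_smul_of_tower (cl K β y l) _ _).symm
  refine Finset.sum_congr rfl fun k _ => ?_
  rw [e2, Finset.sum_sub_distrib, e3, ← Finset.sum_sub_distrib, map_sum]
  refine Finset.sum_congr rfl fun l _ => ?_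
  unfold Hs
  rw [map_sub (cl K β y l)]

include hs hp hF in
theorem pv_spc (y : E n) (k l : Fin n) : pv k (fun z => spc K G β z l) y =
    q K.c (fun a b => H.pd k (fun z => H566.om G β z l a b) y) := by
  have dom : ∀ k a b, DifferentiableAt ℝ (fun z => H566.om G β z k a b) y := fun k a b =>
    ((cd_om hs hp hF k a b).differentiable (by simp)) y
  have d0 : ∀ a b, DifferentiableAt ℝ (fun z => H566.om G β z l a b / 4) y := fun a b => by
    have := (dom l a b).mul_const ((4 : ℝ)⁻¹)
    simpa only [div_eq_mul_inv] using this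
  have d1 : ∀ a b, DifferentiableAt ℝ
      (fun z => (H566.om G β z l a b / 4) • (K.c a * K.c b)) y := fun a b => (d0 a b).smul_const _
  simp only [spc_eq, q]
  rw [pv_sum fun a _ => DifferentiableAt.fun_sum fun b _ => d1 a b]
  refine Finset.sum_congr rfl fun a _ => ?_
  rw [pv_sum fun b _ => d1 a b]
  refine Finset.sum_congr rfl fun b _ => ?_
  rw [pv_smul_const _ (d0 a b)]
  congr 1
  have : (fun z => H566.om G β z l a b / 4) = fun z => (1 / 4) * H566.om G β z l a b := by
    funext z; ring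
  rw [this, Bridge.pd_mul (differentiableAt_const _) (dom l a b), Bridge.pd_const]
  ring

include hs hp hF in
/-- curvature -/
theorem Hs_sub {φ : E n → V} (hφ : ContDiff ℝ 2 φ) (y : E n) (k l : Fin n) :
    Hs K G β k l φ y - Hs K G β l k φ y = q K.c (Rw G β y k l) (φ y) := by
  have hc := chr_symm hs hp
  have dφ : DifferentiableAt ℝ φ y := hφ.differentiable (by simp) y
  have dsp : ∀ l, DifferentiableAt ℝ (fun z => spc K G β z l) y := fun l =>
    (cd_spc K hs hp hF l).differentiable (by simp) y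
  have e1 : ∀ k l, nab K G β k (nab K G β l φ) y = pv k (fun z => pv l φ z) y +
      ((pv k (fun z => spc K G β z l) y) (φ y) + spc K G β y l (pv k φ y)) +
      (spc K G β y k (pv l φ y) + spc K G β y k (spc K G β y l (φ y))) := by
    intro k l
    rw [nab_eq]
    have : nab K G β l φ = fun z => pv l φ z + spc K G β z l (φ z) := rfl
    rw [this, pv_add ((contDiff_pv hφ (k := 1) (by norm_num) l).differentiable (by simp) y)
      ((cd_apply ((cd_spc K hs hp hF l).of_le (m := 1) (by simp)) (hφ.of_le (by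
        norm_num))).differentiable (by simp) y), pv_apply (dsp l) dφ, map_add]
  have e2 : ∑ m, H.chr G y m k l • nab K G β m φ y = ∑ m, H.chr G y m l k • nab K G β m φ y :=
    Finset.sum_congr rfl fun m _ => by rw [hc y m k l]
  unfold Hs
  rw [e2, sub_sub_sub_cancel_right, e1, e1, pv_comm hφ k l y]
  have e3 : q K.c (Rw G β y k l) = pv k (fun z => spc K G β z l) y -
      pv l (fun z => spc K G β z k) y + (spc K G β y k * spc K G β y l -
        spc K G β y l * spc K G β y k) := by
    rw [pv_spc K hs hp hF, pv_spc K hs hp hF, spc_eq, spc_eq,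
      q_q K.c K.rel _ _ (om_antisymm hs hp hF y k)]
    unfold q
    rw [← Finset.sum_sub_distrib, ← Finset.sum_add_distrib]
    refine Finset.sum_congr rfl fun a _ => ?_
    rw [← Finset.sum_sub_distrib, ← Finset.sum_add_distrib]
    refine Finset.sum_congr rfl fun b _ => ?_
    rw [← sub_smul, ← add_smul]
    congr 1
    unfold Rw
    have : ∑ e, (H566.om G β y k a e * H566.om G β y l e b - H566.om G β y l a e *
        H566.om G β y k e b) = ∑ e, (H566.om G β y k a e * H566.om G β y l e b -
        H566.om G β y l a e * H566.om G β y k e b) := rfl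
    ring
  rw [e3]
  simp only [_root_.add_apply, _root_.sub_apply, mul_apply_eq_comp]
  abel

/-- curvature in the frame -/
noncomputable def Rh (G β : E n → Matrix (Fin n) (Fin n) ℝ) (y : E n) (x z a b : Fin n) : ℝ :=
  ∑ k, ∑ l, β y x k * β y z l * Rw G β y k l a b

include hs hp hF in
/-- the frame curvature in terms of the Riemann tensor -/
theorem Rw_eq (y : E n) (k l a b : Fin n) : Rw G β y k l a b =
    ∑ p, ∑ q, β y b q * H66.Rm G y k l p q * ∑ r, G y p r * β y a r := by
  -- `∑ a, Rw b a β a p = - ∑ q β b q Rm p q`; multiply by the inverse of `β`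
  have hinv : ∀ a' a, ∑ p, β y a' p * ∑ r, G y p r * β y a r = if a' = a then 1 else 0 := by
    intro a' a
    have h := congrFun (congrFun (hF.orth y) a') a
    simp only [Matrix.mul_apply, Matrix.transpose_apply, Matrix.one_apply] at h
    rw [← h]
    simp only [Finset.mul_sum, Finset.sum_mul]
    rw [Finset.sum_comm]
    exact Finset.sum_congr rfl fun r _ => Finset.sum_congr rfl fun p _ => by ring
  have h1 := fun p => Rw_Rm hs hp hF y k l b p
  calc Rw G β y k l a b = -Rw G β y k l b a := Rw_antisymm hs hp hF y k l a b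
    _ = -∑ a', Rw G β y k l b a' * (if a' = a then 1 else 0) := by simp
    _ = -∑ a', Rw G β y k l b a' * ∑ p, β y a' p * ∑ r, G y p r * β y a r := by
        congr 1
        exact Finset.sum_congr rfl fun a' _ => by rw [hinv a' a]
    _ = -∑ p, (∑ a', Rw G β y k l b a' * β y a' p) * ∑ r, G y p r * β y a r := by
        congr 1
        simp only [Finset.mul_sum (s := univ) (f := fun p => β y _ p * ∑ r, G y p r * β y a r)]
        rw [Finset.sum_comm]
        refine Finset.sum_congr rfl fun p _ => ?_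
        rw [Finset.sum_mul]
        exact Finset.sum_congr rfl fun a' _ => by ring
    _ = ∑ p, (∑ q, β y b q * H66.Rm G y k l p q) * ∑ r, G y p r * β y a r := by
        rw [← Finset.sum_neg_distrib]
        refine Finset.sum_congr rfl fun p _ => ?_
        rw [h1 p]; ring
    _ = _ := by
        refine Finset.sum_congr rfl fun p _ => ?_
        rw [Finset.sum_mul]

theorem Rh_anti1 (y : E n) (x z a b : Fin n) : Rh G β y x z a b = -Rh G β y z x a b := by
  unfold Rh
  rw [Finset.sum_comm, ← Finset.sum_neg_distrib]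
  refine Finset.sum_congr rfl fun k _ => ?_
  rw [← Finset.sum_neg_distrib]
  refine Finset.sum_congr rfl fun l _ => ?_
  rw [Rw_antisymm' (G := G) (β := β) y l k a b]; ring

include hs hp hF in
theorem Rh_anti2 (y : E n) (x z a b : Fin n) : Rh G β y x z a b = -Rh G β y x z b a := by
  unfold Rh
  rw [← Finset.sum_neg_distrib]
  refine Finset.sum_congr rfl fun k _ => ?_
  rw [← Finset.sum_neg_distrib]
  refine Finset.sum_congr rfl fun l _ => ?_
  rw [Rw_antisymm hs hp hF y k l a b]; ring

include hs hp hF in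
theorem Rh_eq (y : E n) (x z a b : Fin n) : Rh G β y x z a b =
    ∑ p, (∑ r, G y p r * β y a r) * ∑ k, ∑ l, ∑ q, β y x k * β y z l * β y b q *
      H66.Rm G y k l p q := by
  unfold Rh
  simp only [Rw_eq hs hp hF]
  calc ∑ k, ∑ l, β y x k * β y z l *
        ∑ p, ∑ q, β y b q * H66.Rm G y k l p q * ∑ r, G y p r * β y a r
      = ∑ k, ∑ l, ∑ p, ∑ q, β y x k * β y z l *
        (β y b q * H66.Rm G y k l p q * ∑ r, G y p r * β y a r) := by
        simp only [Finset.mul_sum (s := univ) (f := fun p => ∑ q, β y b q * H66.Rm G y _ _ p q *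
          ∑ r, G y p r * β y a r), Finset.mul_sum (s := univ) (f := fun q => β y b q *
          H66.Rm G y _ _ _ q * ∑ r, G y _ r * β y a r)]
    _ = ∑ k, ∑ p, ∑ l, ∑ q, β y x k * β y z l *
        (β y b q * H66.Rm G y k l p q * ∑ r, G y p r * β y a r) :=
        Finset.sum_congr rfl fun k _ => Finset.sum_comm
    _ = ∑ p, ∑ k, ∑ l, ∑ q, β y x k * β y z l *
        (β y b q * H66.Rm G y k l p q * ∑ r, G y p r * β y a r) := Finset.sum_comm
    _ = _ := by
        refine Finset.sum_congr rfl fun p _ => ?_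
        rw [Finset.mul_sum]
        refine Finset.sum_congr rfl fun k _ => ?_
        rw [Finset.mul_sum]
        refine Finset.sum_congr rfl fun l _ => ?_
        rw [Finset.mul_sum]
        exact Finset.sum_congr rfl fun q _ => by ring

include hs hp hF in
theorem Rh_bianchi (y : E n) (x z a b : Fin n) :
    Rh G β y x z a b + Rh G β y z b a x + Rh G β y b x a z = 0 := by
  rw [Rh_eq hs hp hF y x z a b, Rh_eq hs hp hF y z b a x, Rh_eq hs hp hF y b x a z,
    ← Finset.sum_add_distrib, ← Finset.sum_add_distrib]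
  refine Finset.sum_eq_zero fun p _ => ?_
  rw [← mul_add, ← mul_add]
  have r1 : ∑ k, ∑ l, ∑ q, β y z k * β y b l * β y x q * H66.Rm G y k l p q =
      ∑ k, ∑ l, ∑ q, β y x k * β y z l * β y b q * H66.Rm G y l q p k := by
    rw [sum3_rot]
    exact Finset.sum_congr rfl fun k _ => Finset.sum_congr rfl fun l _ =>
      Finset.sum_congr rfl fun q _ => by ring
  have r2 : ∑ k, ∑ l, ∑ q, β y b k * β y x l * β y z q * H66.Rm G y k l p q =
      ∑ k, ∑ l, ∑ q, β y x k * β y z l * β y b q * H66.Rm G y q k p l := by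
    rw [sum3_rot, sum3_rot]
    exact Finset.sum_congr rfl fun k _ => Finset.sum_congr rfl fun l _ =>
      Finset.sum_congr rfl fun q _ => by ring
  rw [r1, r2, ← Finset.sum_add_distrib, ← Finset.sum_add_distrib]
  have : ∑ k, (∑ l, ∑ q, β y x k * β y z l * β y b q * H66.Rm G y k l p q +
      ∑ l, ∑ q, β y x k * β y z l * β y b q * H66.Rm G y l q p k +
      ∑ l, ∑ q, β y x k * β y z l * β y b q * H66.Rm G y q k p l) = 0 := by
    refine Finset.sum_eq_zero fun k _ => ?_
    rw [← Finset.sum_add_distrib, ← Finset.sum_add_distrib]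
    refine Finset.sum_eq_zero fun l _ => ?_
    rw [← Finset.sum_add_distrib, ← Finset.sum_add_distrib]
    refine Finset.sum_eq_zero fun q _ => ?_
    have := Rm_bianchi hs hp y k l p q
    linear_combination (β y x k * β y z l * β y b q) * this
  rw [this, mul_zero]

theorem prod_sum (A B : Fin n → ℝ) (R : ℝ) :
    (∑ a, A a) * (∑ b, B b) * R = ∑ a, ∑ b, A a * B b * R := by
  rw [Finset.sum_mul_sum, Finset.sum_mul]
  exact Finset.sum_congr rfl fun a _ => by rw [Finset.sum_mul]

include hs hp hF in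
theorem Rh_scal (y : E n) : ∑ a, ∑ b, Rh G β y a b a b = H.scal G y := by
  have hc := chr_symm hs hp
  have hsy := ConfScal.g_symm hp y
  simp only [Rh_eq hs hp hF]
  -- first sum over `a`, then over `b`
  have e1 : ∀ a b, ∑ p, (∑ r, G y p r * β y a r) * ∑ k, ∑ l, ∑ q, β y a k * β y b l * β y b q *
      H66.Rm G y k l p q = ∑ p, ∑ k, ∑ l, ∑ q, ((∑ r, G y p r * β y a r) * β y a k) *
        (β y b l * β y b q) * H66.Rm G y k l p q := by
    intro a b
    refine Finset.sum_congr rfl fun p _ => ?_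
    rw [Finset.mul_sum]
    refine Finset.sum_congr rfl fun k _ => ?_
    rw [Finset.mul_sum]
    refine Finset.sum_congr rfl fun l _ => ?_
    rw [Finset.mul_sum]
    exact Finset.sum_congr rfl fun q _ => by ring
  simp only [e1]
  have e2 : ∑ a, ∑ b, ∑ p, ∑ k, ∑ l, ∑ q, ((∑ r, G y p r * β y a r) * β y a k) *
        (β y b l * β y b q) * H66.Rm G y k l p q =
      ∑ p, ∑ k, ∑ l, ∑ q, (∑ a, (∑ r, G y p r * β y a r) * β y a k) *
        (∑ b, β y b l * β y b q) * H66.Rm G y k l p q := by
    have step : ∀ (f : Fin n → Fin n → Fin n → Fin n → Fin n → Fin n → ℝ),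
        ∑ a, ∑ b, ∑ p, ∑ k, ∑ l, ∑ q, f a b p k l q = ∑ p, ∑ k, ∑ l, ∑ q, ∑ a, ∑ b, f a b p k l q := by
      intro f
      calc ∑ a, ∑ b, ∑ p, ∑ k, ∑ l, ∑ q, f a b p k l q
          = ∑ a, ∑ p, ∑ b, ∑ k, ∑ l, ∑ q, f a b p k l q :=
            Finset.sum_congr rfl fun a _ => Finset.sum_comm
        _ = ∑ p, ∑ a, ∑ b, ∑ k, ∑ l, ∑ q, f a b p k l q := Finset.sum_comm
        _ = ∑ p, ∑ a, ∑ k, ∑ b, ∑ l, ∑ q, f a b p k l q :=
            Finset.sum_congr rfl fun p _ => Finset.sum_congr rfl fun a _ => Finset.sum_comm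
        _ = ∑ p, ∑ k, ∑ a, ∑ b, ∑ l, ∑ q, f a b p k l q :=
            Finset.sum_congr rfl fun p _ => Finset.sum_comm
        _ = ∑ p, ∑ k, ∑ a, ∑ l, ∑ b, ∑ q, f a b p k l q :=
            Finset.sum_congr rfl fun p _ => Finset.sum_congr rfl fun k _ =>
              Finset.sum_congr rfl fun a _ => Finset.sum_comm
        _ = ∑ p, ∑ k, ∑ l, ∑ a, ∑ b, ∑ q, f a b p k l q :=
            Finset.sum_congr rfl fun p _ => Finset.sum_congr rfl fun k _ => Finset.sum_comm
        _ = ∑ p, ∑ k, ∑ l, ∑ a, ∑ q, ∑ b, f a b p k l q :=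
            Finset.sum_congr rfl fun p _ => Finset.sum_congr rfl fun k _ =>
              Finset.sum_congr rfl fun l _ => Finset.sum_congr rfl fun a _ => Finset.sum_comm
        _ = _ := Finset.sum_congr rfl fun p _ => Finset.sum_congr rfl fun k _ =>
              Finset.sum_congr rfl fun l _ => Finset.sum_comm
    rw [step]
    refine Finset.sum_congr rfl fun p _ => Finset.sum_congr rfl fun k _ =>
      Finset.sum_congr rfl fun l _ => Finset.sum_congr rfl fun q _ => ?_
    exact (prod_sum (fun a => (∑ r, G y p r * β y a r) * β y a k)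
      (fun b => β y b l * β y b q) _).symm
  rw [e2]
  simp only [beta_inv' hF, beta_sq hF]
  have e3 : ∀ p, ∑ k, ∑ l, ∑ q, (if p = k then (1 : ℝ) else 0) * (G y)⁻¹ l q *
      H66.Rm G y k l p q = ∑ l, ∑ q, (G y)⁻¹ l q * H66.Rm G y p l p q := by
    intro p
    rw [Finset.sum_eq_single p]
    · simp
    · intro k _ hk
      simp [Ne.symm hk]
    · simp
  simp only [e3]
  unfold H.scal
  -- `∑ p, Rm p l p q = ric q l`
  have e4 : ∀ l q, ∑ p, H66.Rm G y p l p q = H.ric G y q l := by
    intro l q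
    unfold H66.Rm H.ric
    rw [Finset.sum_add_distrib]
    have c1 : ∀ a k i j, H.pd a (fun z => H.chr G z k i j) y = H.pd a (fun z => H.chr G z k j i) y := by
      intro a k i j
      congr 1; funext z; exact hc z k i j
    congr 1
    · refine Finset.sum_congr rfl fun p _ => ?_
      rw [c1 p p l q, c1 l p p q]
    · refine Finset.sum_congr rfl fun p _ => Finset.sum_congr rfl fun m _ => ?_
      rw [hc y m l q, hc y m p q]
  calc ∑ p, ∑ l, ∑ q, (G y)⁻¹ l q * H66.Rm G y p l p q
      = ∑ l, ∑ p, ∑ q, (G y)⁻¹ l q * H66.Rm G y p l p q := Finset.sum_comm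
    _ = ∑ l, ∑ q, ∑ p, (G y)⁻¹ l q * H66.Rm G y p l p q :=
        Finset.sum_congr rfl fun l _ => Finset.sum_comm
    _ = ∑ l, ∑ q, (G y)⁻¹ l q * H.ric G y q l := by
        refine Finset.sum_congr rfl fun l _ => Finset.sum_congr rfl fun q _ => ?_
        rw [← Finset.mul_sum, e4]
    _ = ∑ q, ∑ l, (G y)⁻¹ l q * H.ric G y q l := Finset.sum_comm
    _ = _ := by
        refine Finset.sum_congr rfl fun q _ => Finset.sum_congr rfl fun l _ => ?_
        rw [ConfScal.gi_symm hp y l q]

include hs hp hF in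
theorem cl_curv (y : E n) : ∑ k, ∑ l, cl K β y k * cl K β y l * q K.c (Rw G β y k l) =
    (-(H.scal G y) / 2) • (1 : V →L[ℂ] V) := by
  have h := curv_contr K.c K.rel (Rh G β y) (Rh_anti1 y) (Rh_anti2 hs hp hF y)
    (fun x z a b => Rh_bianchi hs hp hF y x z a b)
  rw [Rh_scal hs hp hF] at h
  have e : ∑ k, ∑ l, cl K β y k * cl K β y l * q K.c (Rw G β y k l) =
      (1 / 4 : ℝ) • ∑ x, ∑ z, ∑ a, ∑ b, Rh G β y x z a b • (K.c x * K.c z * (K.c a * K.c b)) := by
    have t1 : ∀ k l, cl K β y k * cl K β y l * q K.c (Rw G β y k l) =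
        ∑ x, ∑ z, ∑ a, ∑ b, (β y x k * β y z l * (Rw G β y k l a b / 4)) •
          (K.c x * K.c z * (K.c a * K.c b)) := by
      intro k l
      rw [cl_eq, cl_eq, Finset.sum_mul_sum, Finset.sum_mul]
      refine Finset.sum_congr rfl fun x _ => ?_
      rw [Finset.sum_mul]
      refine Finset.sum_congr rfl fun z _ => ?_
      unfold q
      rw [Finset.mul_sum]
      refine Finset.sum_congr rfl fun a _ => ?_
      rw [Finset.mul_sum]
      refine Finset.sum_congr rfl fun b _ => ?_
      rw [smul_mul_smul_comm, smul_mul_smul_comm]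
    simp only [t1]
    have step : ∀ (f : Fin n → Fin n → Fin n → Fin n → Fin n → Fin n → (V →L[ℂ] V)),
        ∑ k, ∑ l, ∑ x, ∑ z, ∑ a, ∑ b, f k l x z a b = ∑ x, ∑ z, ∑ a, ∑ b, ∑ k, ∑ l, f k l x z a b := by
      intro f
      calc ∑ k, ∑ l, ∑ x, ∑ z, ∑ a, ∑ b, f k l x z a b
          = ∑ k, ∑ x, ∑ l, ∑ z, ∑ a, ∑ b, f k l x z a b :=
            Finset.sum_congr rfl fun k _ => Finset.sum_comm
        _ = ∑ x, ∑ k, ∑ l, ∑ z, ∑ a, ∑ b, f k l x z a b := Finset.sum_comm
        _ = ∑ x, ∑ k, ∑ z, ∑ l, ∑ a, ∑ b, f k l x z a b :=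
            Finset.sum_congr rfl fun x _ => Finset.sum_congr rfl fun k _ => Finset.sum_comm
        _ = ∑ x, ∑ z, ∑ k, ∑ l, ∑ a, ∑ b, f k l x z a b :=
            Finset.sum_congr rfl fun x _ => Finset.sum_comm
        _ = ∑ x, ∑ z, ∑ k, ∑ a, ∑ l, ∑ b, f k l x z a b :=
            Finset.sum_congr rfl fun x _ => Finset.sum_congr rfl fun z _ =>
              Finset.sum_congr rfl fun k _ => Finset.sum_comm
        _ = ∑ x, ∑ z, ∑ a, ∑ k, ∑ l, ∑ b, f k l x z a b :=
            Finset.sum_congr rfl fun x _ => Finset.sum_congr rfl fun z _ => Finset.sum_comm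
        _ = ∑ x, ∑ z, ∑ a, ∑ k, ∑ b, ∑ l, f k l x z a b :=
            Finset.sum_congr rfl fun x _ => Finset.sum_congr rfl fun z _ =>
              Finset.sum_congr rfl fun a _ => Finset.sum_congr rfl fun k _ => Finset.sum_comm
        _ = _ := Finset.sum_congr rfl fun x _ => Finset.sum_congr rfl fun z _ =>
              Finset.sum_congr rfl fun a _ => Finset.sum_comm
    rw [step]
    simp only [Finset.smul_sum]
    refine Finset.sum_congr rfl fun x _ => Finset.sum_congr rfl fun z _ =>
      Finset.sum_congr rfl fun a _ => Finset.sum_congr rfl fun b _ => ?_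
    unfold Rh
    simp only [← Finset.sum_smul, smul_smul]
    congr 1
    rw [Finset.mul_sum]
    refine Finset.sum_congr rfl fun k _ => ?_
    rw [Finset.mul_sum]
    exact Finset.sum_congr rfl fun l _ => by ring
  rw [e, h, smul_smul]
  congr 1; ring

include hF in
theorem cl_anti (y : E n) (k l : Fin n) : cl K β y k * cl K β y l + cl K β y l * cl K β y k =
    (2 * (G y)⁻¹ k l) • (1 : V →L[ℂ] V) := by
  have : cl K β y k * cl K β y l + cl K β y l * cl K β y k =
      ∑ a, ∑ b, (β y a k * β y b l) • (K.c a * K.c b + K.c b * K.c a) := by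
    rw [cl_eq, cl_eq, Finset.sum_mul_sum, Finset.sum_mul_sum,
      Finset.sum_comm (f := fun i j => β y i l • K.c i * β y j k • K.c j),
      ← Finset.sum_add_distrib]
    refine Finset.sum_congr rfl fun a _ => ?_
    rw [← Finset.sum_add_distrib]
    refine Finset.sum_congr rfl fun b _ => ?_
    rw [smul_mul_smul_comm, smul_mul_smul_comm, mul_comm (β y b l), ← smul_add]
  rw [this]
  have h2 : ∀ a b, (β y a k * β y b l) • (K.c a * K.c b + K.c b * K.c a) =
      dl a b • ((2 * (β y a k * β y b l)) • (1 : V →L[ℂ] V)) := by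
    intro a b
    rw [rel' K.c K.rel a b, sub_add_cancel, smul_smul, smul_smul]
    congr 1; ring
  simp only [h2, sum_dl_left]
  rw [← Finset.sum_smul, ← Finset.mul_sum, beta_sq hF]

include hs hp hF in
/-- Lichnerowicz formula -/
theorem lich {φ : E n → V} (hφ : ContDiff ℝ 2 φ) (y : E n) :
    dir K G β (dir K G β φ) y = ∑ k, ∑ l, (G y)⁻¹ k l • Hs K G β k l φ y -
      (H.scal G y / 4) • φ y := by
  rw [dirdir K hs hp hF hφ y]
  set S := ∑ k, ∑ l, cl K β y k (cl K β y l (Hs K G β k l φ y)) with hS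
  have h1 : S = ∑ k, ∑ l, cl K β y l (cl K β y k (Hs K G β l k φ y)) := by
    rw [hS, Finset.sum_comm]
  have h2 : ∀ k l, cl K β y k (cl K β y l (Hs K G β k l φ y)) +
      cl K β y l (cl K β y k (Hs K G β l k φ y)) =
      (2 * (G y)⁻¹ k l) • Hs K G β k l φ y +
        (cl K β y l * cl K β y k * q K.c (Rw G β y l k)) (φ y) := by
    intro k l
    have a1 := congrArg (fun A : V →L[ℂ] V => A (Hs K G β k l φ y)) (cl_anti K hF y k l)
    simp only [_root_.add_apply, _root_.smul_apply, mul_apply_eq_comp,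
      one_apply_eq_self] at a1
    rw [mul_apply_eq_comp, mul_apply_eq_comp,
      ← Hs_sub K hs hp hF hφ y l k, map_sub, map_sub, ← a1]
    abel
  have h3 : S + S = (2 : ℝ) • (∑ k, ∑ l, (G y)⁻¹ k l • Hs K G β k l φ y) +
      (-(H.scal G y) / 2) • φ y := by
    nth_rewrite 2 [h1]
    rw [hS, ← Finset.sum_add_distrib]
    have t : ∀ k, ∑ l, cl K β y k (cl K β y l (Hs K G β k l φ y)) +
        ∑ l, cl K β y l (cl K β y k (Hs K G β l k φ y)) =
        ∑ l, ((2 * (G y)⁻¹ k l) • Hs K G β k l φ y +
        (cl K β y l * cl K β y k * q K.c (Rw G β y l k)) (φ y)) := by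
      intro k
      rw [← Finset.sum_add_distrib]
      exact Finset.sum_congr rfl fun l _ => h2 k l
    simp only [t, Finset.sum_add_distrib]
    congr 1
    · rw [Finset.smul_sum]
      refine Finset.sum_congr rfl fun k _ => ?_
      rw [Finset.smul_sum]
      exact Finset.sum_congr rfl fun l _ => by rw [smul_smul]
    · rw [Finset.sum_comm]
      have := congrArg (fun A : V →L[ℂ] V => A (φ y)) (cl_curv K hs hp hF y)
      simp only [_root_.sum_apply, _root_.smul_apply, one_apply_eq_self] at this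
      exact this
  have h4 : (2 : ℝ) • S = (2 : ℝ) • (∑ k, ∑ l, (G y)⁻¹ k l • Hs K G β k l φ y -
      (H.scal G y / 4) • φ y) := by
    rw [two_smul, h3, smul_sub, smul_smul, sub_eq_add_neg, ← neg_smul]
    congr 2; ring
  exact smul_right_injective V (two_ne_zero' ℝ) h4

end

end Vale.Agent.P223.H66
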